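import Vale.Agent.P310.Net3

namespace Vale.Agent.P310

set_option linter.unusedSimpArgs false

open Function

inductive Fm (Reg Id : Type) where
  | atom (J : Fin 6 → Reg ⊕ Id) (pol : Bool) : Fm Reg Id
  | and (φ ψ : Fm Reg Id) : Fm Reg Id
  | or (φ ψ : Fm Reg Id) : Fm Reg Id
  | ex (j : Reg) (φ : Fm Reg Id) : Fm Reg Id
  | call : Fm Reg Id
  | fin : Fm Reg Id

/-- The data part of a program: codes of constants, the master table and a zero. -/
structure Dat (Id Val : Type) where
  code : Id → Val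
  ρ : (Fin 6 → Val) → Prop
  z : Val

/-- The control part of a program. -/
structure Prog (Reg Id : Type) where
  Φ : Fm Reg Id
  A : Fm Reg Id

variable {Reg Id Val : Type}

open Classical in
inductive Holds (Φ : Fm Reg Id) (D : Dat Id Val) : Fm Reg Id → (Reg → Val) → Prop
  | atom {J : Fin 6 → Reg ⊕ Id} {pol : Bool} {c : Reg → Val} :
      (D.ρ (fun i => Sum.elim c D.code (J i)) ↔ pol = true) → Holds Φ D (.atom J pol) c
  | and {φ ψ : Fm Reg Id} {c : Reg → Val} : Holds Φ D φ c → Holds Φ D ψ c → Holds Φ D (.and φ ψ) c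
  | orl {φ ψ : Fm Reg Id} {c : Reg → Val} : Holds Φ D φ c → Holds Φ D (.or φ ψ) c
  | orr {φ ψ : Fm Reg Id} {c : Reg → Val} : Holds Φ D ψ c → Holds Φ D (.or φ ψ) c
  | ex {j : Reg} {φ : Fm Reg Id} {c : Reg → Val} (a : Val) :
      Holds Φ D φ (update c j a) → Holds Φ D (.ex j φ) c
  | call {c : Reg → Val} : Holds Φ D Φ c → Holds Φ D .call c

def Fm.subs : Fm Reg Id → Set (Fm Reg Id)
  | .atom J pol => {.atom J pol}
  | .and φ ψ => insert (.and φ ψ) (φ.subs ∪ ψ.subs)
  | .or φ ψ => insert (.or φ ψ) (φ.subs ∪ ψ.subs)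
  | .ex j φ => insert (.ex j φ) φ.subs
  | .call => {.call}
  | .fin => {.fin}

theorem Fm.subs_finite (φ : Fm Reg Id) : φ.subs.Finite := by
  induction φ with
  | atom J pol => exact Set.finite_singleton _
  | and φ ψ h1 h2 => exact (h1.union h2).insert _
  | or φ ψ h1 h2 => exact (h1.union h2).insert _
  | ex j φ h => exact h.insert _
  | call => exact Set.finite_singleton _
  | fin => exact Set.finite_singleton _

theorem Fm.self_mem_subs (φ : Fm Reg Id) : φ ∈ φ.subs := by
  cases φ <;> simp [Fm.subs]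

theorem Fm.subs_subset {φ q : Fm Reg Id} (h : q ∈ φ.subs) : q.subs ⊆ φ.subs := by
  induction φ with
  | atom J pol => rw [Set.mem_singleton_iff.1 h]
  | and φ ψ h1 h2 =>
    rcases h with rfl | h | h
    · exact subset_rfl
    · exact fun x hx => Or.inr (Or.inl (h1 h hx))
    · exact fun x hx => Or.inr (Or.inr (h2 h hx))
  | or φ ψ h1 h2 =>
    rcases h with rfl | h | h
    · exact subset_rfl
    · exact fun x hx => Or.inr (Or.inl (h1 h hx))
    · exact fun x hx => Or.inr (Or.inr (h2 h hx))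
  | ex j φ h1 =>
    rcases h with rfl | h
    · exact subset_rfl
    · exact fun x hx => Or.inr (h1 h hx)
  | call => rw [Set.mem_singleton_iff.1 h]
  | fin => rw [Set.mem_singleton_iff.1 h]

def Prog.nodes (Pr : Prog Reg Id) : Set (Fm Reg Id) := Pr.Φ.subs ∪ Pr.A.subs ∪ {.fin}

theorem Prog.nodes_finite (Pr : Prog Reg Id) : Pr.nodes.Finite :=
  ((Pr.Φ.subs_finite).union Pr.A.subs_finite).union (Set.finite_singleton _)

theorem Prog.nodes_closed (Pr : Prog Reg Id) {q : Fm Reg Id} (h : q ∈ Pr.nodes) :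
    q.subs ⊆ Pr.nodes := by
  rcases h with (h | h) | h
  · exact fun x hx => Or.inl (Or.inl (Fm.subs_subset h hx))
  · exact fun x hx => Or.inl (Or.inr (Fm.subs_subset h hx))
  · rw [Set.mem_singleton_iff.1 h]
    exact fun x hx => Or.inr hx

abbrev Prog.Q (Pr : Prog Reg Id) : Type := Pr.nodes

instance (Pr : Prog Reg Id) : Finite Pr.Q := Pr.nodes_finite

def flag (D : Dat Id Val) : Fm Reg Id → (Fin 6 → Val) → Prop
  | .atom J pol, x => (D.ρ x ↔ pol = true) ∧ (∀ i id, J i = .inr id → x i = D.code id) ∧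
      ∀ i i', J i = J i' → x i = x i'
  | .or _ _, x => x 0 = D.z
  | _, _ => True

open Classical in
noncomputable def Prog.prem (Pr : Prog Reg Id) (p : Fin 5) (fl : Prop) : Fm Reg Id → Fm Reg Id
  | .atom J pol => .atom J pol
  | .and φ ψ => if p ≤ 2 then φ else ψ
  | .or φ ψ => if fl then φ else ψ
  | .ex _ φ => φ
  | .call => Pr.Φ
  | .fin => Pr.A

noncomputable def Prog.nodeF (Pr : Prog Reg Id) (q : Fm Reg Id) (p : Fin 5) (fl : Prop) :
    Fm Reg Id := if p = 0 then q else Pr.prem p fl q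

theorem Prog.nodeF_mem (Pr : Prog Reg Id) {q : Fm Reg Id} (h : q ∈ Pr.nodes) (p : Fin 5)
    (fl : Prop) : Pr.nodeF q p fl ∈ Pr.nodes := by
  unfold Prog.nodeF
  split_ifs
  · exact h
  · cases q with
    | atom J pol => exact h
    | and φ ψ =>
      apply Pr.nodes_closed h
      simp only [Prog.prem]
      split_ifs <;> simp [Fm.subs, Fm.self_mem_subs]
    | or φ ψ =>
      apply Pr.nodes_closed h
      simp only [Prog.prem]
      split_ifs <;> simp [Fm.subs, Fm.self_mem_subs]
    | ex j φ =>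
      apply Pr.nodes_closed h
      simp [Prog.prem, Fm.subs, Fm.self_mem_subs]
    | call => exact Or.inl (Or.inl (Fm.self_mem_subs _))
    | fin => exact Or.inl (Or.inr (Fm.self_mem_subs _))

noncomputable def Prog.node (Pr : Prog Reg Id) (q : Pr.Q) (p : Fin 5) (fl : Prop) : Pr.Q :=
  ⟨Pr.nodeF q p fl, Pr.nodeF_mem q.2 p fl⟩

open Classical in
noncomputable def coefF (fl : Prop) (c : Fin 5) : Fm Reg Id → F2
  | .atom _ _ => if c = 0 ∧ fl then 1 else 0
  | .fin => if c = 0 then 0 else 1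
  | _ => 1

def offF : Fm Reg Id → F2
  | .fin => 1
  | _ => 0

open Classical in
noncomputable def selF (p : Fin 5) (j : Reg) : Fm Reg Id → Option (Fin 6)
  | .atom J _ => if h : p = 0 ∧ ∃ i, J i = .inl j then some h.2.choose else none
  | .ex j' _ => if p ≠ 0 ∧ j = j' then some 0 else none
  | _ => none

abbrev Prog.Jn (Pr : Prog Reg Id) (Val : Type) := Pr.Q × (Fin 6 → Val) × Bool
abbrev Prog.W (Pr : Prog Reg Id) (Val : Type) := Pr.Q × (Fin 6 → Val) × Fin 5

noncomputable def Prog.net (Pr : Prog Reg Id) (D : Dat Id Val) :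
    Net (Pr.Jn Val) (Pr.W Val) Reg Val where
  coef := fun J c => if J.2.2 then coefF (flag D J.1.1 J.2.1) c J.1.1 else 0
  off := fun J => if J.2.2 then offF J.1.1 else 0
  jn := fun w side => if side then (w.1, w.2.1, true)
    else (Pr.node w.1 w.2.2 (flag D w.1.1 w.2.1), fun _ => D.z, false)
  cmp := fun w side => if side then w.2.2 else 0
  mp := fun w side j a => if side then a else (selF w.2.2 j w.1.1).elim a w.2.1

theorem Prog.net_jn_ne (Pr : Prog Reg Id) (D : Dat Id Val) (w : Pr.W Val) :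
    (Pr.net D).jn w false ≠ (Pr.net D).jn w true := by
  simp [Prog.net]

theorem g_normal (T : Fin 5 → Prop) (h12 : T 1 ↔ T 2) (h34 : T 3 ↔ T 4) (h : T 1 → T 3 → T 0)
    (p : Fin 5) (ε : F2) (hε : T p → ε = 0) :
    ∃ π : Fin 5 → F2, ∑ c, π c = 0 ∧ (∀ p, T p → π p = 0) ∧ π p = ε := by
  have h2 := CharTwo.add_self_eq_zero ε
  by_cases hp : T p
  · exact ⟨0, by simp, by simp, by simp [hε hp]⟩
  · fin_cases p
    · by_cases h1 : T 1
      · have h3 : ¬ T 3 := fun h3 => hp (h h1 h3)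
        refine ⟨![ε, 0, 0, ε, 0], by simp [Fin.sum_univ_five, h2], fun p => ?_, by simp⟩
        fin_cases p <;> simp_all
      · refine ⟨![ε, ε, 0, 0, 0], by simp [Fin.sum_univ_five, h2], fun p => ?_, by simp⟩
        fin_cases p <;> simp_all
    · refine ⟨![0, ε, ε, 0, 0], by simp [Fin.sum_univ_five, h2], fun p => ?_, by simp⟩
      fin_cases p <;> simp_all
    · refine ⟨![0, ε, ε, 0, 0], by simp [Fin.sum_univ_five, h2], fun p => ?_, by simp⟩
      fin_cases p <;> simp_all
    · refine ⟨![0, 0, 0, ε, ε], by simp [Fin.sum_univ_five, h2], fun p => ?_, by simp⟩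
      fin_cases p <;> simp_all
    · refine ⟨![0, 0, 0, ε, ε], by simp [Fin.sum_univ_five, h2], fun p => ?_, by simp⟩
      fin_cases p <;> simp_all

theorem g_fin (p : Fin 5) (ε : F2) :
    ∃ π : Fin 5 → F2, ∑ c, (if c = 0 then 0 else 1) * π c = 1 ∧ π p = ε := by
  have h2 := CharTwo.add_self_eq_zero ε
  fin_cases p
  · exact ⟨![ε, 1, 0, 0, 0], by simp [Fin.sum_univ_five], by simp⟩
  · exact ⟨![0, ε, ε, 1, 0], by simp [Fin.sum_univ_five, h2], by simp⟩
  · exact ⟨![0, ε, ε, 1, 0], by simp [Fin.sum_univ_five, h2], by simp⟩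
  · exact ⟨![0, 1, 0, ε, ε], by simp [Fin.sum_univ_five, add_assoc, h2], by simp⟩
  · exact ⟨![0, 1, 0, ε, ε], by simp [Fin.sum_univ_five, add_assoc, h2], by simp⟩

/-- the configuration seen through port `p` of the rule `(q, x)` -/
noncomputable def mpc (q : Fm Reg Id) (x : Fin 6 → Val) (p : Fin 5) (c : Reg → Val) : Reg → Val :=
  fun j => (selF p j q).elim (c j) x

theorem mpc_atom {D : Dat Id Val} {J : Fin 6 → Reg ⊕ Id} {pol : Bool} {x : Fin 6 → Val}
    (h : flag D (.atom J pol) x) (c : Reg → Val) :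
    (fun i => Sum.elim (mpc (.atom J pol) x 0 c) D.code (J i)) = x := by
  funext i
  rcases hi : J i with j | id
  · have hex : (0 : Fin 5) = 0 ∧ ∃ i, J i = .inl j := ⟨rfl, i, hi⟩
    simp only [Sum.elim_inl, mpc, selF, dif_pos hex, Option.elim_some]
    exact h.2.2 _ _ (hex.2.choose_spec.trans hi.symm)
  · simp only [Sum.elim_inr]
    exact (h.2.1 i id hi).symm

open Classical in
theorem mpc_ex (j : Reg) (φ : Fm Reg Id) (x : Fin 6 → Val) {p : Fin 5} (hp : p ≠ 0)
    (c : Reg → Val) : mpc (.ex j φ) x p c = update c j (x 0) := by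
  funext j'
  by_cases h : j' = j
  · subst h
    simp [mpc, selF, hp]
  · simp [mpc, selF, h]

theorem mpc_ex_zero (j : Reg) (φ : Fm Reg Id) (x : Fin 6 → Val) (c : Reg → Val) :
    mpc (.ex j φ) x 0 c = c := by
  funext j'
  simp [mpc, selF]

theorem mpc_and (φ ψ : Fm Reg Id) (x : Fin 6 → Val) (p : Fin 5) (c : Reg → Val) :
    mpc (.and φ ψ) x p c = c := rfl

theorem mpc_or (φ ψ : Fm Reg Id) (x : Fin 6 → Val) (p : Fin 5) (c : Reg → Val) :
    mpc (.or φ ψ) x p c = c := rfl

theorem mpc_call (x : Fin 6 → Val) (p : Fin 5) (c : Reg → Val) :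
    mpc (.call : Fm Reg Id) x p c = c := rfl

theorem mpc_fin (x : Fin 6 → Val) (p : Fin 5) (c : Reg → Val) :
    mpc (.fin : Fm Reg Id) x p c = c := rfl

theorem gate_good (Pr : Prog Reg Id) (D : Dat Id Val) (hA : ¬ ∃ c, Holds Pr.Φ D Pr.A c)
    (q : Fm Reg Id) (x : Fin 6 → Val) (c : Reg → Val) (p : Fin 5) (ε : F2)
    (hε : Holds Pr.Φ D (Pr.nodeF q p (flag D q x)) (mpc q x p c) → ε = 0) :
    ∃ π : Fin 5 → F2, ∑ c, coefF (flag D q x) c q * π c = offF q ∧
      (∀ p, Holds Pr.Φ D (Pr.nodeF q p (flag D q x)) (mpc q x p c) → π p = 0) ∧ π p = ε := by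
  classical
  cases q with
  | atom J pol =>
    refine ⟨Pi.single p ε, ?_, ?_, by simp⟩
    · simp only [coefF, offF]
      rw [Finset.sum_eq_single p (by intro b _ hb; simp [hb]) (by simp)]
      simp only [Pi.single_eq_same, ite_mul, one_mul, zero_mul, ite_eq_right_iff]
      rintro ⟨rfl, hf⟩
      apply hε
      simp only [Prog.nodeF, if_true]
      apply Holds.atom
      rw [mpc_atom hf]
      exact hf.1
    · intro p' hp'
      by_cases h : p' = p
      · subst h
        simp [hε hp']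
      · simp [h]
  | and φ ψ =>
    simp only [coefF, offF, one_mul]
    refine g_normal _ ?_ ?_ ?_ p ε hε
    · simp [Prog.nodeF, Prog.prem, mpc_and, mpc_or, mpc_call]
    · simp [Prog.nodeF, Prog.prem, mpc_and, mpc_or, mpc_call]
    · simp only [Prog.nodeF, Prog.prem, mpc_and, mpc_or, mpc_call]
      simpa using Holds.and
  | or φ ψ =>
    simp only [coefF, offF, one_mul]
    refine g_normal _ ?_ ?_ ?_ p ε hε
    · simp [Prog.nodeF, Prog.prem, mpc_and, mpc_or, mpc_call]
    · simp [Prog.nodeF, Prog.prem, mpc_and, mpc_or, mpc_call]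
    · simp only [Prog.nodeF, Prog.prem, mpc_and, mpc_or, mpc_call]
      intro h1 _
      simp only [one_ne_zero, if_false, if_true] at h1 ⊢
      split_ifs at h1
      · exact Holds.orl h1
      · exact Holds.orr h1
  | ex j φ =>
    simp only [coefF, offF, one_mul]
    refine g_normal _ ?_ ?_ ?_ p ε hε
    · simp [Prog.nodeF, Prog.prem, mpc_ex]
    · simp [Prog.nodeF, Prog.prem, mpc_ex]
    · intro h1 _
      simp only [Prog.nodeF, Prog.prem, one_ne_zero, if_false, if_true, mpc_ex_zero] at h1 ⊢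
      rw [mpc_ex _ _ _ (by simp)] at h1
      exact Holds.ex _ h1
  | call =>
    simp only [coefF, offF, one_mul]
    refine g_normal _ ?_ ?_ ?_ p ε hε
    · simp [Prog.nodeF, Prog.prem, mpc_and, mpc_or, mpc_call]
    · simp [Prog.nodeF, Prog.prem, mpc_and, mpc_or, mpc_call]
    · simp only [Prog.nodeF, Prog.prem, mpc_and, mpc_or, mpc_call]
      intro h1 _
      simp only [one_ne_zero, if_false, if_true] at h1 ⊢
      exact Holds.call h1
  | fin =>
    obtain ⟨π, h1, h2⟩ := g_fin p ε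
    refine ⟨π, h1, fun p' hp' => ?_, h2⟩
    exfalso
    simp only [Prog.nodeF, Prog.prem] at hp'
    split_ifs at hp'
    · cases hp'
    · exact hA ⟨_, hp'⟩

theorem cd_sound (Pr : Prog Reg Id) (D : Dat Id Val) (hA : ¬ ∃ c, Holds Pr.Φ D Pr.A c) :
    ∃ Good, (Pr.net D).Cons Good := by
  refine ⟨fun J b => if J.2.2 then {π | ∑ c, coefF (flag D J.1.1 J.2.1) c J.1.1 * π c = offF J.1.1 ∧
      ∀ p, Holds Pr.Φ D (Pr.nodeF J.1.1 p (flag D J.1.1 J.2.1)) (mpc J.1.1 J.2.1 p b) → π p = 0}
      else {π | Holds Pr.Φ D J.1.1 b → π 0 = 0}, ?_, ?_, ?_⟩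
  · rintro ⟨q, x, g⟩ b
    cases g
    · exact ⟨0, by simp⟩
    · obtain ⟨π, h1, h2, -⟩ := gate_good Pr D hA q x b 0 0 (fun _ => rfl)
      exact ⟨π, by simpa using ⟨h1, h2⟩⟩
  · rintro ⟨q, x, g⟩ b π hπ
    cases g
    · simp [Prog.net]
    · simp only [if_true, Set.mem_ofPred_eq] at hπ
      simpa [Prog.net] using hπ.1
  · rintro ⟨q, x, p⟩ side c π hπ
    cases side
    · simp only [Prog.net, Bool.false_eq_true, if_false, Set.mem_ofPred_eq, Prog.node] at hπ
      obtain ⟨π', h1, h2, h3⟩ := gate_good Pr D hA q x c p (π 0) hπ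
      exact ⟨π', by simpa [Prog.net] using ⟨h1, h2⟩, by simpa [Prog.net] using h3⟩
    · simp only [Prog.net, if_true, Set.mem_ofPred_eq] at hπ
      refine ⟨fun _ => π p, ?_, by simp [Prog.net]⟩
      simp only [Prog.net, Bool.not_true, Bool.false_eq_true, if_false, Set.mem_ofPred_eq,
        Prog.node]
      exact hπ.2 p

theorem cd_complete (Pr : Prog Reg Id) (D : Dat Id Val) {z' : Val} (hz : z' ≠ D.z)
    {Good : Pr.Jn Val → (Reg → Val) → Set (Fin 5 → F2)} (hG : (Pr.net D).Cons Good) :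
    ¬ ∃ c, Holds Pr.Φ D Pr.A c := by
  classical
  let Z : Fm Reg Id → (Reg → Val) → Prop := fun q b =>
    ∀ hq : q ∈ Pr.nodes, ∀ π ∈ Good (⟨q, hq⟩, fun _ => D.z, false) b, π 0 = 0
  have port : ∀ (q : Pr.Q) x c p, Z (Pr.nodeF q p (flag D q.1 x)) (mpc q.1 x p c) →
      ∀ π ∈ Good (q, x, true) c, π p = 0 := by
    intro q x c p hZ π hπ
    obtain ⟨π', h1, h2⟩ := hG.tr (q, x, p) true c π (by simpa [Prog.net] using hπ)
    simp only [Prog.net, Bool.not_true, Bool.false_eq_true, if_false, if_true] at h1 h2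
    rw [← h2]
    exact hZ _ π' h1
  have hub : ∀ (q : Fm Reg Id) x c, (∀ hq : q ∈ Pr.nodes, ∀ π ∈ Good (⟨q, hq⟩, x, true) c, π 0 = 0) →
      Z q (mpc q x 0 c) := by
    intro q x c h hq π hπ
    obtain ⟨π', h1, h2⟩ := hG.tr (⟨q, hq⟩, x, 0) false c π (by
      simp only [Prog.net, Prog.node, Prog.nodeF, Bool.false_eq_true, if_false, if_true]
      exact hπ)
    simp only [Prog.net, Bool.not_false, Bool.false_eq_true, if_false, if_true] at h1 h2
    rw [← h2]
    exact h hq π' h1
  have normal : ∀ (q : Fm Reg Id) x c, (∀ fl p, coefF fl p q = 1) → offF q = 0 →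
      (∀ p, p ≠ 0 → Z (Pr.prem p (flag D q x) q) (mpc q x p c)) → Z q (mpc q x 0 c) := by
    intro q x c h1 h2 h3
    apply hub
    intro hq π hπ
    have e := hG.eqn _ _ _ hπ
    simp only [Prog.net, if_true, h1, h2, one_mul, Fin.sum_univ_five] at e
    have h4 : ∀ p, p ≠ 0 → π p = 0 := fun p hp =>
      port ⟨q, hq⟩ x c p (by simpa only [Prog.nodeF, if_neg hp] using h3 p hp) π hπ
    simpa [h4 1 (by simp), h4 2 (by simp), h4 3 (by simp), h4 4 (by simp)] using e
  have main : ∀ q b, Holds Pr.Φ D q b → Z q b := by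
    intro q b h
    induction h with
    | @atom J pol c h =>
      let x : Fin 6 → Val := fun i => Sum.elim c D.code (J i)
      have hf : flag D (.atom J pol) x := by
        refine ⟨h, fun i id hi => ?_, fun i i' hi => ?_⟩
        · simp [x, hi]
        · simp [x, hi]
      have hc : mpc (.atom J pol) x 0 c = c := by
        funext j
        simp only [mpc, selF]
        split_ifs with hex
        · simp only [Option.elim_some, x]
          rw [hex.2.choose_spec]
          rfl
        · rfl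
      rw [← hc]
      apply hub
      intro hq π hπ
      have e := hG.eqn _ _ _ hπ
      simpa [Prog.net, coefF, offF, hf] using e
    | @and φ ψ c _ _ ih1 ih2 =>
      refine normal (.and φ ψ) (fun _ => D.z) c (fun _ _ => rfl) rfl fun p _ => ?_
      simp only [Prog.prem]
      split_ifs
      · exact ih1
      · exact ih2
    | @orl φ ψ c _ ih =>
      refine normal (.or φ ψ) (fun _ => D.z) c (fun _ _ => rfl) rfl fun p _ => ?_
      simp only [Prog.prem, flag, if_true]
      exact ih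
    | @orr φ ψ c _ ih =>
      refine normal (.or φ ψ) (fun _ => z') c (fun _ _ => rfl) rfl fun p _ => ?_
      simp only [Prog.prem, flag, hz, if_false]
      exact ih
    | @ex j φ c a _ ih =>
      have := normal (.ex j φ) (fun _ => a) c (fun _ _ => rfl) rfl fun p hp => by
        rw [mpc_ex _ _ _ hp]
        exact ih
      rwa [mpc_ex_zero] at this
    | @call c _ ih =>
      exact normal .call (fun _ => D.z) c (fun _ _ => rfl) rfl fun p _ => ih
  rintro ⟨c, hc⟩
  have hq : (Fm.fin : Fm Reg Id) ∈ Pr.nodes := Or.inr rfl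
  obtain ⟨π, hπ⟩ := hG.ne (⟨.fin, hq⟩, fun _ => D.z, true) c
  have e := hG.eqn _ _ _ hπ
  have h4 : ∀ p, p ≠ 0 → π p = 0 := fun p hp =>
    port ⟨.fin, hq⟩ _ c p (by
      simp only [Prog.nodeF, if_neg hp]
      exact main _ _ hc) π hπ
  simp [Prog.net, coefF, offF, Fin.sum_univ_five, h4 1 (by simp), h4 2 (by simp), h4 3 (by simp),
    h4 4 (by simp)] at e

end Vale.Agent.P310
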