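import Vale.Agent.P310.CD

namespace Vale.Agent.P310

open Function

variable {Reg Id Val : Type}

open Classical in
/-- Semantics with the recursive call interpreted by `X`. -/
def Ev (D : Dat Id Val) (X : (Reg → Val) → Prop) : Fm Reg Id → (Reg → Val) → Prop
  | .atom J pol, c => (D.ρ (fun i => Sum.elim c D.code (J i)) ↔ pol = true)
  | .and φ ψ, c => Ev D X φ c ∧ Ev D X ψ c
  | .or φ ψ, c => Ev D X φ c ∨ Ev D X ψ c
  | .ex j φ, c => ∃ a, Ev D X φ (update c j a)
  | .call, c => X c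
  | .fin, _ => False

theorem Ev.mono {D : Dat Id Val} {X Y : (Reg → Val) → Prop} (h : ∀ c, X c → Y c) :
    ∀ (φ : Fm Reg Id) (c : Reg → Val), Ev D X φ c → Ev D Y φ c
  | .atom _ _, _ => id
  | .and φ ψ, c => fun h' => ⟨Ev.mono h φ c h'.1, Ev.mono h ψ c h'.2⟩
  | .or φ ψ, c => fun h' => h'.imp (Ev.mono h φ c) (Ev.mono h ψ c)
  | .ex _ φ, _ => fun h' => h'.imp fun _ ha => Ev.mono h φ _ ha
  | .call, c => h c
  | .fin, _ => id

theorem holds_of_ev {Φ : Fm Reg Id} {D : Dat Id Val} :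
    ∀ (φ : Fm Reg Id) (c : Reg → Val), Ev D (Holds Φ D .call) φ c → Holds Φ D φ c
  | .atom _ _, _ => Holds.atom
  | .and φ ψ, c => fun h' => Holds.and (holds_of_ev φ c h'.1) (holds_of_ev ψ c h'.2)
  | .or φ ψ, c => fun h' => h'.elim (fun h => Holds.orl (holds_of_ev φ c h))
      (fun h => Holds.orr (holds_of_ev ψ c h))
  | .ex _ φ, _ => fun h' => h'.elim fun a ha => Holds.ex a (holds_of_ev φ _ ha)
  | .call, _ => id
  | .fin, _ => False.elim

theorem ev_of_holds {Φ : Fm Reg Id} {D : Dat Id Val} {X : (Reg → Val) → Prop}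
    (hX : ∀ c, Ev D X Φ c → X c) {φ : Fm Reg Id} {c : Reg → Val} (h : Holds Φ D φ c) :
    Ev D X φ c := by
  induction h with
  | atom h => exact h
  | and _ _ h1 h2 => exact ⟨h1, h2⟩
  | orl _ h => exact Or.inl h
  | orr _ h => exact Or.inr h
  | ex a _ h => exact ⟨a, h⟩
  | call _ h => exact hX _ h

@[simp] theorem ev_and {D : Dat Id Val} {X : (Reg → Val) → Prop} {φ ψ : Fm Reg Id} {c : Reg → Val} :
    Ev D X (.and φ ψ) c ↔ Ev D X φ c ∧ Ev D X ψ c := Iff.rfl

@[simp] theorem ev_or {D : Dat Id Val} {X : (Reg → Val) → Prop} {φ ψ : Fm Reg Id} {c : Reg → Val} :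
    Ev D X (.or φ ψ) c ↔ Ev D X φ c ∨ Ev D X ψ c := Iff.rfl

open Classical in
@[simp] theorem ev_ex {D : Dat Id Val} {X : (Reg → Val) → Prop} {φ : Fm Reg Id} {j : Reg}
    {c : Reg → Val} : Ev D X (.ex j φ) c ↔ ∃ a, Ev D X φ (update c j a) := Iff.rfl

@[simp] theorem ev_call {D : Dat Id Val} {X : (Reg → Val) → Prop} {c : Reg → Val} :
    Ev D X (.call : Fm Reg Id) c ↔ X c := Iff.rfl

def exsL : List Reg → Fm Reg Id → Fm Reg Id
  | [], φ => φ
  | j :: l, φ => .ex j (exsL l φ)

theorem ev_exsL {D : Dat Id Val} {X : (Reg → Val) → Prop} {φ : Fm Reg Id} :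
    ∀ (l : List Reg) (c : Reg → Val),
      Ev D X (exsL l φ) c ↔ ∃ c', (∀ j, j ∉ l → c' j = c j) ∧ Ev D X φ c'
  | [], c => by
    simp only [exsL, List.not_mem_nil, not_false_eq_true, forall_const]
    constructor
    · exact fun h => ⟨c, fun _ => rfl, h⟩
    · rintro ⟨c', h1, h2⟩
      rwa [← funext h1]
  | j :: l, c => by
    classical
    simp only [exsL, ev_ex, ev_exsL l, List.mem_cons, not_or]
    constructor
    · rintro ⟨a, c', h1, h2⟩
      refine ⟨c', fun j' hj => ?_, h2⟩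
      rw [h1 j' hj.2]
      convert update_of_ne hj.1 a c
    · rintro ⟨c', h1, h2⟩
      refine ⟨c' j, c', fun j' hj => ?_, h2⟩
      by_cases h : j' = j
      · subst h
        simp
      · rw [h1 j' ⟨h, hj⟩]
        convert (update_of_ne h (c' j) c).symm

noncomputable def exsF {ι : Type} [Fintype ι] (r : ι → Reg) (φ : Fm Reg Id) : Fm Reg Id :=
  exsL ((Finset.univ : Finset ι).toList.map r) φ

theorem ev_exsF {D : Dat Id Val} {X : (Reg → Val) → Prop} {φ : Fm Reg Id} {ι : Type} [Fintype ι]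
    {r : ι → Reg} (hr : Injective r) (c : Reg → Val) :
    Ev D X (exsF r φ) c ↔ ∃ f : ι → Val, Ev D X φ (extend r f c) := by
  rw [exsF, ev_exsL]
  constructor
  · rintro ⟨c', h1, h2⟩
    refine ⟨c' ∘ r, ?_⟩
    convert h2
    funext j
    by_cases h : ∃ i, r i = j
    · obtain ⟨i, rfl⟩ := h
      rw [hr.extend_apply]
      rfl
    · rw [extend_apply' _ _ _ h, h1]
      simpa using h
  · rintro ⟨f, h⟩
    refine ⟨_, fun j hj => ?_, h⟩
    apply extend_apply'
    simpa using hj

def conjL (tt : Fm Reg Id) : List (Fm Reg Id) → Fm Reg Id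
  | [] => tt
  | φ :: l => .and φ (conjL tt l)

def disjL (ff : Fm Reg Id) : List (Fm Reg Id) → Fm Reg Id
  | [] => ff
  | φ :: l => .or φ (disjL ff l)

theorem ev_conjL {D : Dat Id Val} {X : (Reg → Val) → Prop} {tt : Fm Reg Id} {c : Reg → Val}
    (h : Ev D X tt c) : ∀ l : List (Fm Reg Id), Ev D X (conjL tt l) c ↔ ∀ φ ∈ l, Ev D X φ c
  | [] => by simpa [conjL] using h
  | φ :: l => by simp [conjL, ev_conjL h l]

theorem ev_disjL {D : Dat Id Val} {X : (Reg → Val) → Prop} {ff : Fm Reg Id} {c : Reg → Val}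
    (h : ¬ Ev D X ff c) : ∀ l : List (Fm Reg Id), Ev D X (disjL ff l) c ↔ ∃ φ ∈ l, Ev D X φ c
  | [] => by simpa [disjL] using h
  | φ :: l => by simp [disjL, ev_disjL h l]

/-- a table look-up -/
def atomT (id : Id) (args : Fin 5 → Reg) (pol : Bool) : Fm Reg Id :=
  .atom (Fin.cons (.inr id) fun i => .inl (args i)) pol

/-- data given by a family of tables -/
def mkDat (code : Id → Val) (table : Id → (Fin 5 → Val) → Prop) (z : Val) : Dat Id Val where
  code := code
  ρ := fun x => ∃ id, x 0 = code id ∧ table id (Fin.tail x)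
  z := z

theorem ev_atomT {code : Id → Val} (hc : Injective code) {table : Id → (Fin 5 → Val) → Prop}
    {z : Val} {X : (Reg → Val) → Prop} (id : Id) (args : Fin 5 → Reg) (pol : Bool)
    (c : Reg → Val) :
    Ev (mkDat code table z) X (atomT id args pol) c ↔ (table id (c ∘ args) ↔ pol = true) := by
  simp only [atomT, Ev, mkDat, Fin.cons_zero, Sum.elim_inr, hc.eq_iff, exists_eq_left']
  rfl

/-- the number with the given base `N` digits -/
def num {N len : ℕ} (f : Fin len → Fin N) : ℕ := (finFunctionFinEquiv f : ℕ)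

theorem num_lt {N len : ℕ} (f : Fin len → Fin N) : num f < N ^ len := (finFunctionFinEquiv f).2

theorem num_inj {N len : ℕ} {f g : Fin len → Fin N} : num f = num g ↔ f = g := by
  simp only [num, Fin.val_inj, EmbeddingLike.apply_eq_iff_eq]

theorem exists_num {N len V : ℕ} (h : V < N ^ len) : ∃ f : Fin len → Fin N, num f = V :=
  ⟨finFunctionFinEquiv.symm ⟨V, h⟩, by simp [num]⟩

theorem num_eq_iff {N len V : ℕ} (h : V < N ^ len) (f : Fin len → Fin N) :
    num f = V ↔ ∀ i, (f i : ℕ) = V / N ^ (i : ℕ) % N := by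
  have : num f = V ↔ f = finFunctionFinEquiv.symm ⟨V, h⟩ := by
    rw [Equiv.eq_symm_apply, Fin.ext_iff]
    rfl
  rw [this, funext_iff]
  refine forall_congr' fun i => ?_
  rw [Fin.ext_iff, finFunctionFinEquiv_symm_apply_val]

theorem num_succ {N len : ℕ} (f : Fin (len + 1) → Fin N) :
    num f = f 0 + N * num (Fin.tail f) := by
  simp only [num, finFunctionFinEquiv_apply, Fin.sum_univ_succ, Fin.val_zero, pow_zero, mul_one,
    Fin.val_succ, Finset.mul_sum, Fin.tail]
  congr 1
  refine Finset.sum_congr rfl fun i _ => ?_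
  ring

theorem num_castSucc {N len : ℕ} (f : Fin (len + 1) → Fin N) :
    num f = num (Fin.init f) + f (Fin.last len) * N ^ len := by
  simp only [num, finFunctionFinEquiv_apply, Fin.sum_univ_castSucc, Fin.val_castSucc, Fin.val_last,
    Fin.init]

theorem succ_digit {N a b x y : ℕ} (ha : a < N) (hb : b < N) :
    a + N * x + 1 = b + N * y ↔ (a + 1 = b ∧ x = y) ∨ (a + 1 = N ∧ b = 0 ∧ x + 1 = y) := by
  constructor
  · intro h
    rcases lt_trichotomy x y with hxy | hxy | hxy
    · have h1 : N * (x + 1) ≤ N * y := Nat.mul_le_mul_left _ hxy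
      rcases Nat.lt_or_ge (x + 1) y with h2 | h2
      · have h3 : N * (x + 2) ≤ N * y := Nat.mul_le_mul_left _ h2
        rw [mul_add] at h3
        omega
      · have h4 : y = x + 1 := by omega
        subst h4
        rw [mul_add] at h
        omega
    · subst hxy
      omega
    · have h1 : N * (y + 1) ≤ N * x := Nat.mul_le_mul_left _ hxy
      rw [mul_add] at h1
      omega
  · rintro (⟨h1, rfl⟩ | ⟨h1, rfl, rfl⟩)
    · omega
    · rw [mul_add]
      omega

end Vale.Agent.P310
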