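import Vale.Agent.P310.Names

namespace Vale.Agent.P310

open Function

variable {Reg Id Row : Type} {Pr : Prog Reg Id} {L N : ℕ} [NeZero N]
variable (enc : Code Pr L Row → Fin N) [Fintype Reg] [Fintype Row] (R : Rows Row Reg)

omit [Fintype Reg] [Fintype Row] in
theorem num_name_lt (p : CC Pr L Row N) : num (name enc p) < N ^ 8 := by
  rw [num_castSucc]
  have : name enc p (Fin.last 8) = 0 := rfl
  rw [this]
  simpa using num_lt (Fin.init (name enc p))

theorem graph_exists (henc : Injective enc) (hR : R.Fat) (hL : Fintype.card Row + 2 < L)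
    (hN : 2 ≤ N) {n : ℕ} (hn : N ^ 8 ≤ n) (ρ : (Fin 6 → Fin N) → Prop) :
    ∃ G : Bool → SimpleGraph (Fin n),
      (∀ g (u v : Fin n) (d d' : Fin 9 → Fin N), num d = u → num d' = v →
        ((G g).Adj u v ↔ AdjN enc R ρ g d d')) ∧
      (WLEquiv (Fintype.card Row + 1) (G false) (G true) ↔
        ¬ ∃ c, Holds Pr.Φ (dat enc ρ) Pr.A c) := by
  classical
  let e : CC Pr L Row N → Fin n := fun p => ⟨num (name enc p), (num_name_lt enc p).trans_le hn⟩
  have he : Injective e := by
    intro p q h
    simp only [e, Fin.mk.injEq, num_inj] at h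
    exact name_inj enc henc h
  let J : Type := ((Set.range e)ᶜ : Set (Fin n))
  let ψ : CC Pr L Row N ⊕ J ≃ Fin n :=
    (Equiv.sumCongr (Equiv.ofInjective e he) (Equiv.refl _)).trans (Equiv.Set.sumCompl _)
  have hψ : ∀ p, ψ (.inl p) = e p := fun p => rfl
  let : Fintype (CC Pr L Row N ⊕ J) := Fintype.ofEquiv _ ψ.symm
  let X := (Pr.net (dat enc ρ)).xs R L
  refine ⟨fun g => (xgraph X rord (rlab enc) J g).comap ψ.symm, ?_, ?_⟩
  · intro g u v d d' hd hd'
    rw [SimpleGraph.comap_adj, xadj]
    constructor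
    · rintro ⟨hne, h⟩
      obtain ⟨a, rfl⟩ := ψ.surjective u
      obtain ⟨b, rfl⟩ := ψ.surjective v
      simp only [Equiv.symm_apply_apply] at hne h
      rcases a with p | a <;> rcases b with q | b <;> simp only [vrel, or_self] at h
      refine ⟨p, q, ?_, ?_, fun hpq => hne (by rw [hpq]), h⟩
      · rw [← num_inj, hd, hψ]
      · rw [← num_inj, hd', hψ]
    · rintro ⟨p, q, hp, hq, hne, h⟩
      have h1 : u = ψ (.inl p) := by
        rw [hψ]
        apply Fin.ext
        simp only [e, hp, hd]
      have h2 : v = ψ (.inl q) := by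
        rw [hψ]
        apply Fin.ext
        simp only [e, hq, hd']
      subst h1 h2
      simp only [Equiv.symm_apply_apply]
      exact ⟨fun h => hne (Sum.inl_injective h), h⟩
  · rw [wlEquiv_comap]
    have h3 := hR.three
    constructor
    · intro hw
      obtain ⟨F, hF⟩ := xor_complete (by omega) (rulOK enc henc) hw
      obtain ⟨Good, hG⟩ := net_complete hF
      exact cd_complete Pr _ (z' := ⟨1, by omega⟩) (by simp [dat, Fin.ext_iff]) hG
    · intro h
      obtain ⟨Good, hG⟩ := cd_sound Pr _ h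
      obtain ⟨F, hF⟩ := net_sound hR hL (Pr.net_jn_ne _) hG
      let : Inhabited (KK Pr L Row N) :=
        ⟨.jc (⟨.fin, Or.inr rfl⟩, fun _ => 0, false) R.r0 0⟩
      exact xor_sound X _ _ _ F hF

end Vale.Agent.P310
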