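import Vale.Agent.P310.Defs

namespace Vale.Agent.P310

open Function

abbrev TM.Sym (M : TM) : Type := M.Q × Bool × (Fin (M.tapes + 1) → M.Γ)

theorem TM.finite_sym (M : TM) : Finite M.Sym := by
  have := M.finQ
  have := M.finΓ
  infer_instance

def TM.view (M : TM) (c : M.Cfg) (i : ℤ) : M.Sym :=
  (c.state, decide (i = 0), fun τ => c.tape τ (c.head τ + i))

def TM.cell (M : TM) (w : List Bool) (t : ℕ) (i : ℤ) : M.Sym :=
  M.view (M.step^[t] (M.initial w)) i

def pick {α : Type} : SignType → α → α → α → α
  | .neg, a, _, _ => a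
  | .zero, _, b, _ => b
  | .pos, _, _, c => c

def TM.nxt (M : TM) (s0 sm sc sp : M.Sym) : M.Sym :=
  match M.δ s0.1 s0.2.2 with
  | .inl _ => sc
  | .inr (q, act) => (q, sc.2.1, fun τ =>
      if (pick (act τ).2 sm sc sp).2.1 then (act τ).1 else (pick (act τ).2 sm sc sp).2.2 τ)

theorem TM.action_eq (M : TM) (c : M.Cfg) :
    M.action c = M.δ (M.view c 0).1 (M.view c 0).2.2 := by
  simp [TM.action, TM.view]

theorem TM.view_step (M : TM) (c : M.Cfg) (i : ℤ) :
    M.view (M.step c) i = M.nxt (M.view c 0) (M.view c (i - 1)) (M.view c i) (M.view c (i + 1)) := by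
  unfold TM.step TM.nxt
  rw [← M.action_eq]
  rcases M.action c with b | ⟨q, act⟩
  · rfl
  · simp only [TM.view, Prod.mk.injEq, true_and]
    funext τ
    have key : ∀ j : ℤ, update (c.tape τ) (c.head τ) (act τ).1 (c.head τ + j) =
        if decide (j = 0) = true then (act τ).1 else c.tape τ (c.head τ + j) := by
      intro j
      by_cases hj : j = 0
      · subst hj
        simp
      · rw [update_of_ne (by omega)]
        simp [hj]
    rcases h : (act τ).2 with _ | _ | _
    · refine Eq.trans ?_ (key i)
      congr 1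
      simp
    · refine Eq.trans ?_ (key (i - 1))
      congr 1
      simp
      ring
    · refine Eq.trans ?_ (key (i + 1))
      congr 1
      simp
      ring

theorem TM.cell_succ (M : TM) (w : List Bool) (t : ℕ) (i : ℤ) :
    M.cell w (t + 1) i =
      M.nxt (M.cell w t 0) (M.cell w t (i - 1)) (M.cell w t i) (M.cell w t (i + 1)) := by
  simp only [TM.cell, Function.iterate_succ_apply', M.view_step]

theorem TM.haltedAt_iff (M : TM) (w : List Bool) (t : ℕ) (b : Bool) :
    M.HaltedAt w t b ↔ M.δ (M.cell w t 0).1 (M.cell w t 0).2.2 = .inl b := by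
  rw [TM.HaltedAt, M.action_eq]
  rfl

theorem TM.HaltedAt.mono {M : TM} {w : List Bool} {t T : ℕ} {b : Bool} (h : M.HaltedAt w t b)
    (hT : t ≤ T) : M.HaltedAt w T b := by
  induction T, hT using Nat.le_induction with
  | base => exact h
  | succ T _ ih =>
    unfold TM.HaltedAt at ih ⊢
    rw [Function.iterate_succ_apply']
    generalize M.step^[T] (M.initial w) = c at ih ⊢
    have : M.step c = c := by
      unfold TM.step
      rw [ih]
    rw [this, ih]

theorem TM.HaltedAt.unique {M : TM} {w : List Bool} {t t' : ℕ} {b b' : Bool}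
    (h : M.HaltedAt w t b) (h' : M.HaltedAt w t' b') : b = b' := by
  have h1 := h.mono (le_max_left t t')
  have h2 := h'.mono (le_max_right t t')
  unfold TM.HaltedAt at h1 h2
  rw [h1] at h2
  exact Sum.inl_injective h2

def TM.sym0 (M : TM) (fl : Bool) (o : Option Bool) : M.Sym :=
  (M.start, fl, fun τ => if τ = 0 then o.elim M.blank M.bit else M.blank)

theorem TM.cell_zero (M : TM) (w : List Bool) (i : ℤ) :
    M.cell w 0 i = M.sym0 (decide (i = 0)) (if 0 ≤ i then w[i.toNat]? else none) := by
  simp only [TM.cell, TM.view, TM.initial, TM.sym0, Function.iterate_zero, id, zero_add,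
    Prod.mk.injEq, true_and]
  funext τ
  by_cases h1 : τ = 0 <;> by_cases h2 : 0 ≤ i <;> simp [h1, h2]

theorem matrixBits_length {n : ℕ} (G : SimpleGraph (Fin n)) : (matrixBits G).length = n * n := by
  simp [matrixBits]

theorem pair_lt {n u v : ℕ} (hu : u < n) (hv : v < n) : u * n + v < n * n := by
  have : (u + 1) * n ≤ n * n := Nat.mul_le_mul_right _ hu
  rw [add_mul] at this
  omega

open Classical in
theorem matrixBits_get {n : ℕ} (G : SimpleGraph (Fin n)) (u v : Fin n) :
    (matrixBits G)[u * n + v]? = some (decide (G.Adj u v)) := by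
  have hlt := pair_lt u.2 v.2
  have hn : 0 < n := by
    have := u.2
    omega
  rw [matrixBits, List.getElem?_ofFn, dif_pos hlt]
  congr 3
  · apply Fin.ext
    simp only [Fin.coe_divNat]
    rw [add_comm, Nat.add_mul_div_right _ _ hn, Nat.div_eq_of_lt v.2, zero_add]
  · apply Fin.ext
    simp only [Fin.coe_modNat]
    rw [add_comm, Nat.add_mul_mod_self_right, Nat.mod_eq_of_lt v.2]

open Classical in
theorem input_get {n : ℕ} (G : Bool → SimpleGraph (Fin n)) (g : Bool) (u v : Fin n) :
    (input (G false) (G true))[g.toNat * (n * n) + u * n + v]? = some (decide ((G g).Adj u v)) := by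
  have hlt := pair_lt u.2 v.2
  cases g
  · simp only [input, Bool.toNat_false, zero_mul, zero_add]
    rw [List.getElem?_append_left (by rwa [matrixBits_length]), matrixBits_get]
  · simp only [input, Bool.toNat_true, one_mul]
    rw [List.getElem?_append_right (by rw [matrixBits_length]; omega), matrixBits_length,
      add_assoc, Nat.add_sub_cancel_left, matrixBits_get]

theorem input_length {n : ℕ} (G H : SimpleGraph (Fin n)) : (input G H).length = 2 * (n * n) := by
  simp only [input, List.length_append, matrixBits_length]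
  ring

end Vale.Agent.P310
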