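import Vale.Agent.P310.Sim

namespace Vale.Agent.P310

open Function

abbrev RowT (K e : ℕ) : Type := (Rg K × Fin 3) ⊕ Fin e

def rowsT (K e : ℕ) : Rows (RowT K e) (Rg K) where
  reg := Sum.elim Prod.fst fun _ => rG 0
  root := fun j => .inl (j, 0)
  r0 := .inl (rG 0, 0)
  hroot := fun _ => rfl

theorem rowsT_fat (K e : ℕ) : (rowsT K e).Fat := by
  classical
  intro j
  have : (Finset.univ : Finset (Fin 3)).card ≤ _ :=
    Finset.card_le_card_of_injOn (t := Finset.univ.filter fun row => (rowsT K e).reg row = j)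
      (fun i => (.inl (j, i) : RowT K e)) (fun i _ => by
        rw [Finset.mem_coe, Finset.mem_filter]
        exact ⟨Finset.mem_univ _, rfl⟩)
      (fun i _ i' _ h => by simpa using h)
  simp only [Finset.card_univ, Fintype.card_fin] at this
  convert this

theorem card_rowT (K e : ℕ) : Fintype.card (RowT K e) = 12 * K + 132 + e := by
  simp
  ring

theorem exists_inj_fin (α : Type) [Finite α] {N : ℕ} (h : Nat.card α ≤ N) :
    ∃ f : α → Fin N, Injective f := by
  have := Fintype.ofFinite α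
  obtain ⟨f⟩ := Function.Embedding.nonempty_of_card_le (α := α) (β := Fin N)
    (by simpa [Nat.card_eq_fintype_card] using h)
  exact ⟨f, f.injective⟩

theorem hard_instance (K e : ℕ) (hK : 0 < K) (M : TM) (hM : M.DecidesWL (12 * K + 132 + e + 1)) :
    ∃ N0 : ℕ, ∀ N n : ℕ, N0 ≤ N → N ^ 8 ≤ n → n ≤ N ^ 9 → N ^ K ≤ M.worstTime n := by
  have := M.finite_sym
  let L := 12 * K + 132 + e + 3
  refine ⟨max (max (Nat.card (Code (prog K) L (RowT K e)))
    (Nat.card (St (Code (prog K) L (RowT K e))))) (max (Nat.card M.Sym) 2), ?_⟩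
  intro N n hN h8 h9
  simp only [max_le_iff] at hN
  obtain ⟨⟨h1, h2⟩, h3, h4⟩ := hN
  have : NeZero N := ⟨by omega⟩
  have f1 : Finite (Code (prog K) L (RowT K e)) := inferInstance
  have f2 : Finite (Info (Code (prog K) L (RowT K e))) := inferInstance
  have f3 : Finite (St (Code (prog K) L (RowT K e))) := Pi.finite
  obtain ⟨enc, henc⟩ := exists_inj_fin _ h1
  obtain ⟨encSt, hSt⟩ := exists_inj_fin _ h2
  obtain ⟨encS, hS⟩ := exists_inj_fin _ h3
  obtain ⟨G, hG, hW⟩ := graph_exists enc (rowsT K e) henc (rowsT_fat K e)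
    (by rw [card_rowT]; omega) h4 h8 (rho0 n M (rowsT K e) enc encSt encS)
  have hn : 0 < n := lt_of_lt_of_le (by positivity) h8
  have hT : (tabs n M (rowsT K e) enc encSt encS).OK K n :=
    ⟨h4, hn, h9, rfl, rfl, rfl, rfl, rfl, hK⟩
  rw [sim_main henc hSt hS hT hG, card_rowT] at hW
  obtain ⟨t, b, hb, hbw⟩ := hM n (G false) (G true)
  have hle : M.time (input (G false) (G true)) ≤ M.worstTime n :=
    le_ciSup (f := fun p : SimpleGraph (Fin n) × SimpleGraph (Fin n) => M.time (input p.1 p.2))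
      (Finite.bddAbove_range _) (G false, G true)
  refine le_trans ?_ hle
  by_contra hlt
  obtain ⟨b', hb'⟩ : M.time (input (G false) (G true)) ∈
      {t : ℕ | ∃ b : Bool, M.HaltedAt (input (G false) (G true)) t b} :=
    Nat.sInf_mem ⟨t, b, hb⟩
  have e1 : b' = b := hb'.unique hb
  subst e1
  have h5 := hb'.mono (T := N ^ K - 1) (by omega)
  rw [hW] at hbw
  cases b'
  · have h6 : ¬ M.HaltedAt (input (G false) (G true)) (N ^ K - 1) true := fun h =>
      absurd (h.unique h5) (by simp)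
    exact absurd (hbw.2 h6) (by simp)
  · exact hbw.1 rfl h5

theorem main_bound (k : ℕ) (hk : 288 ≤ k) (M : TM) (hM : M.DecidesWL k) :
    ∀ᶠ n : ℕ in Filter.atTop, (n : ℝ) ^ ((1 / 216 : ℝ) * k) ≤ M.worstTime n := by
  obtain ⟨K, e, h1, h2, h3⟩ : ∃ K e : ℕ, k = 12 * K + 132 + e + 1 ∧ 0 < K ∧ k ≤ 24 * K :=
    ⟨(k - 133) / 12, (k - 133) % 12, by omega, by omega, by omega⟩
  rw [h1] at hM
  obtain ⟨N0, hN0⟩ := hard_instance K e h2 M hM
  filter_upwards [Filter.eventually_ge_atTop ((max N0 256) ^ 8)] with n hn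
  let N := Nat.nthRoot 8 n
  have g1 : max N0 256 ≤ N := (Nat.le_nthRoot_iff (by norm_num)).2 hn
  have g2 : N ^ 8 ≤ n := Nat.pow_nthRoot_le_iff.2 (Or.inl (by norm_num))
  have g3 : n < (N + 1) ^ 8 := Nat.lt_pow_nthRoot_add_one (by norm_num) n
  rw [max_le_iff] at g1
  have g4 : n ≤ N ^ 9 := by
    have a1 : (N + 1) ^ 8 ≤ (2 * N) ^ 8 := Nat.pow_le_pow_left (by omega) 8
    have a2 : 256 * N ^ 8 ≤ N * N ^ 8 := Nat.mul_le_mul_right _ g1.2
    rw [mul_pow] at a1
    rw [pow_succ' N 8]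
    omega
  have g5 := hN0 N n g1.1 g2 g4
  have hN1 : (1 : ℝ) ≤ N := by exact_mod_cast (by omega : 1 ≤ N)
  calc (n : ℝ) ^ ((1 / 216 : ℝ) * k) ≤ ((N : ℝ) ^ 9) ^ ((1 / 216 : ℝ) * k) := by
        apply Real.rpow_le_rpow (by positivity) (by exact_mod_cast g4) (by positivity)
    _ = (N : ℝ) ^ ((9 : ℝ) * ((1 / 216 : ℝ) * k)) := by
        rw [Real.rpow_mul (by positivity) 9]
        norm_cast
    _ ≤ (N : ℝ) ^ (K : ℝ) := by
        apply Real.rpow_le_rpow_of_exponent_le hN1
        have : (k : ℝ) ≤ 24 * K := by exact_mod_cast h3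
        linarith
    _ ≤ M.worstTime n := by
        rw [Real.rpow_natCast]
        exact_mod_cast g5

end Vale.Agent.P310
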