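import Vale.Agent.P310.Form

namespace Vale.Agent.P310

open Function

variable {Reg Id Row : Type} (Pr : Prog Reg Id) (L : ℕ)

abbrev CShape (Row : Type) : Type := Pr.Q × Row × (Bool ⊕ (Fin 5 × Bool) ⊕ (Fin 5 × Fin L))

abbrev Shape (Row : Type) : Type := Fin 4 ⊕ Fin 8 ⊕ (CShape Pr L Row × (NSlot Row Reg → F2))

abbrev Code (Row : Type) : Type := Shape Pr L Row ⊕ Id

abbrev KK (Row : Type) (N : ℕ) : Type := NK (Pr.Jn (Fin N)) (Pr.W (Fin N)) Row (Fin N) L

abbrev VV (Row : Type) (N : ℕ) : Type := NV (Pr.Jn (Fin N)) (Pr.W (Fin N)) Row Reg (Fin N)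

abbrev CC (Row : Type) (N : ℕ) : Type := Core (KK Pr L Row N) (NSlot Row Reg) (Fin 8 × Fin N)

variable {Pr L} {N : ℕ}

def mkK : CShape Pr L Row → Fin N → (Fin 6 → Fin N) → KK Pr L Row N
  | (q, row, .inl g), a, x => .jc (q, x, g) row a
  | (q, row, .inr (.inl (p, side))), a, x => .lk (q, x, p) side row a
  | (q, row, .inr (.inr (p, t))), a, x => .cl (q, x, p) t row a

def kS : KK Pr L Row N → CShape Pr L Row
  | .jc J row _ => (J.1, row, .inl J.2.2)
  | .lk w side row _ => (w.1, row, .inr (.inl (w.2.2, side)))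
  | .cl w t row _ => (w.1, row, .inr (.inr (w.2.2, t)))

def kA : KK Pr L Row N → Fin N
  | .jc _ _ a => a
  | .lk _ _ _ a => a
  | .cl _ _ _ a => a

def kX : KK Pr L Row N → Fin 6 → Fin N
  | .jc J _ _ => J.2.1
  | .lk w _ _ _ => w.2.1
  | .cl w _ _ _ => w.2.1

theorem mkK_k (κ : KK Pr L Row N) : mkK (kS κ) (kA κ) (kX κ) = κ := by
  cases κ <;> rfl

@[simp] theorem kS_mk (s : CShape Pr L Row) (a : Fin N) (x : Fin 6 → Fin N) :
    kS (mkK s a x) = s := by
  obtain ⟨q, row, g | ⟨p, side⟩ | ⟨p, t⟩⟩ := s <;> rfl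

@[simp] theorem kA_mk (s : CShape Pr L Row) (a : Fin N) (x : Fin 6 → Fin N) :
    kA (mkK s a x) = a := by
  obtain ⟨q, row, g | ⟨p, side⟩ | ⟨p, t⟩⟩ := s <;> rfl

@[simp] theorem kX_mk (s : CShape Pr L Row) (a : Fin N) (x : Fin 6 → Fin N) :
    kX (mkK s a x) = x := by
  obtain ⟨q, row, g | ⟨p, side⟩ | ⟨p, t⟩⟩ := s <;> rfl

def shapeOf : CC Pr L Row N → Shape Pr L Row
  | .l1 => .inl 0
  | .l2 => .inl 1
  | .lf => .inl 2
  | .pp => .inl 3
  | .rul ι => .inr (.inl ι.1)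
  | .cls κ α => .inr (.inr (kS κ, α))

variable [NeZero N]

def aOf : CC Pr L Row N → Fin N
  | .rul ι => ι.2
  | .cls κ _ => kA κ
  | _ => 0

def xOf : CC Pr L Row N → Fin 6 → Fin N
  | .cls κ _ => kX κ
  | _ => fun _ => 0

/-- same shape, new coordinates -/
def rebuild : CC Pr L Row N → Fin N → (Fin 6 → Fin N) → CC Pr L Row N
  | .rul ι, a, _ => .rul (ι.1, a)
  | .cls κ α, a, x => .cls (mkK (kS κ) a x) α
  | p, _, _ => p

def xi (i : Fin 6) : Fin 9 := ⟨i + 2, by omega⟩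

variable (enc : Code Pr L Row → Fin N)

def name (p : CC Pr L Row N) : Fin 9 → Fin N :=
  ![enc (.inl (shapeOf p)), aOf p, xOf p 0, xOf p 1, xOf p 2, xOf p 3, xOf p 4, xOf p 5, 0]

theorem name_eq_iff (p : CC Pr L Row N) (d : Fin 9 → Fin N) :
    name enc p = d ↔ d 0 = enc (.inl (shapeOf p)) ∧ d 1 = aOf p ∧ (∀ i, d (xi i) = xOf p i) ∧
      d 8 = 0 := by
  constructor
  · rintro rfl
    refine ⟨rfl, rfl, fun i => ?_, rfl⟩
    fin_cases i <;> rfl
  · rintro ⟨h0, h1, h2, h3⟩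
    funext i
    fin_cases i
    · exact h0.symm
    · exact h1.symm
    · exact (h2 0).symm
    · exact (h2 1).symm
    · exact (h2 2).symm
    · exact (h2 3).symm
    · exact (h2 4).symm
    · exact (h2 5).symm
    · exact h3.symm

theorem name_inj (henc : Injective enc) : Injective (name enc) := by
  intro p q h
  obtain ⟨h0, h1, h2, -⟩ := (name_eq_iff enc p _).1 h
  obtain ⟨g0, g1, g2, -⟩ := (name_eq_iff enc q _).1 rfl
  have e0 : shapeOf q = shapeOf p := Sum.inl_injective (henc (g0.symm.trans h0))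
  have e1 : aOf q = aOf p := g1.symm.trans h1
  have e2 : xOf q = xOf p := funext fun i => (g2 i).symm.trans (h2 i)
  rcases p with _ | _ | _ | _ | ⟨i, y⟩ | ⟨κ, α⟩ <;> rcases q with _ | _ | _ | _ | ⟨i', y'⟩ | ⟨κ', α'⟩ <;>
    simp only [shapeOf, Sum.inl.injEq, Sum.inr.injEq, reduceCtorEq, Prod.mk.injEq] at e0 <;>
    first | rfl | exact absurd e0 (by decide) | skip
  · simp only [aOf] at e1
    rw [e0, e1]
  · simp only [aOf, xOf] at e1 e2
    rw [← mkK_k κ, ← mkK_k κ', e0.1, e0.2, e1, e2]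

def lab (κ : KK Pr L Row N) : Fin 8 → Fin N :=
  Fin.cons (enc (.inl (.inr (.inr (kS κ, 0))))) (Fin.cons (kA κ) (kX κ))

def rord (ι : Fin 8 × Fin N) : ℕ := ι.2 + N * ι.1

def rlab (κ : KK Pr L Row N) (ι : Fin 8 × Fin N) : Prop := lab enc κ ι.1 = ι.2

theorem rulOK (henc : Injective enc) : RulOK (rord (N := N)) (rlab enc) where
  inj := by
    rintro ⟨i, y⟩ ⟨i', y'⟩ h
    simp only [rord] at h
    have hN : 0 < N := Nat.pos_of_ne_zero (NeZero.ne N)
    have h1 : (y + N * i) % N = (y' + N * i') % N := by rw [h]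
    have h2 : (y + N * i) / N = (y' + N * i') / N := by rw [h]
    rw [Nat.add_mul_mod_self_left, Nat.add_mul_mod_self_left, Nat.mod_eq_of_lt y.2,
      Nat.mod_eq_of_lt y'.2] at h1
    rw [Nat.add_mul_div_left _ _ hN, Nat.add_mul_div_left _ _ hN, Nat.div_eq_of_lt y.2,
      Nat.div_eq_of_lt y'.2] at h2
    exact Prod.ext (Fin.ext (by simpa using h2)) (Fin.ext h1)
  pred := by
    rintro ⟨i, y⟩
    have hN : 0 < N := Nat.pos_of_ne_zero (NeZero.ne N)
    by_cases hy : (y : ℕ) = 0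
    · by_cases hi : (i : ℕ) = 0
      · left
        simp [rord, hy, hi]
      · right
        refine ⟨(⟨i - 1, by omega⟩, ⟨N - 1, by omega⟩), ?_⟩
        simp only [rord]
        rw [succ_digit (by omega) y.2]
        omega
    · right
      refine ⟨(i, ⟨y - 1, by omega⟩), ?_⟩
      simp only [rord]
      omega
  zero := ⟨(0, 0), by simp [rord]⟩
  two := fun κ => ⟨(0, lab enc κ 0), (1, lab enc κ 1), by simp, rfl, rfl⟩
  linj := by
    intro κ κ' h
    have h1 : lab enc κ = lab enc κ' := funext fun i => ((h (i, lab enc κ i)).1 rfl).symm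
    simp only [lab, Fin.cons_inj, henc.eq_iff, Sum.inl.injEq, Sum.inr.injEq, Prod.mk.injEq,
      and_true] at h1
    rw [← mkK_k κ, ← mkK_k κ', h1.1, h1.2.1, h1.2.2]

def dat (ρ : (Fin 6 → Fin N) → Prop) : Dat Id (Fin N) := ⟨fun id => enc (.inr id), ρ, 0⟩

variable [Fintype Reg] [Fintype Row] (R : Rows Row Reg)

noncomputable def cr (ρ : (Fin 6 → Fin N) → Prop) (g : Bool) (p q : CC Pr L Row N) : Prop :=
  crel ((Pr.net (dat enc ρ)).xs R L) rord (rlab enc) g p q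

def AdjN (ρ : (Fin 6 → Fin N) → Prop) (g : Bool) (d d' : Fin 9 → Fin N) : Prop :=
  ∃ p q, name enc p = d ∧ name enc q = d' ∧ p ≠ q ∧ (cr enc R ρ g p q ∨ cr enc R ρ g q p)

abbrev Info (C : Type) : Type := (C → Prop) × Prop × Prop × Prop × Prop

abbrev St (C : Type) : Type := (Bool × Fin 9) × (Bool × Fin 9) → Info C

def info {C : Type} (enc : C → Fin N) (y y' : Fin N) : Info C :=
  (fun cd => y = enc cd, y = 0, (y : ℕ) + 1 = N, y = y', (y : ℕ) + 1 = y')

def co {α : Type} (d d' : Fin 9 → α) (e : Bool × Fin 9) : α := if e.1 then d' e.2 else d e.2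

def typ {C : Type} (enc : C → Fin N) (d d' : Fin 9 → Fin N) : St C :=
  fun e => info enc (co d d' e.1) (co d d' e.2)

def vmap (θ : Fin N → Fin N) : VV Pr Row N → VV Pr Row N
  | .jv J c row b => .jv (J.1, θ ∘ J.2.1, J.2.2) c row (θ b)
  | .hv w τ row a => .hv (w.1, θ ∘ w.2.1, w.2.2) τ row (θ a)
  | .z1 w τ row a => .z1 (w.1, θ ∘ w.2.1, w.2.2) τ row (θ a)
  | .z2 w τ j => .z2 (w.1, θ ∘ w.2.1, w.2.2) τ j
  | .dm => .dm

omit [Fintype Reg] [Fintype Row] in
theorem nvar_map {ρ ρ' : (Fin 6 → Fin N) → Prop} {θ : Fin N → Fin N} (h0 : θ 0 = 0)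
    (s : CShape Pr L Row) (a : Fin N) (x : Fin 6 → Fin N)
    (hf : flag (dat enc ρ') s.1.1 (θ ∘ x) = flag (dat enc ρ) s.1.1 x) (sl : NSlot Row Reg) :
    nvar (Pr.net (dat enc ρ')) R (mkK s (θ a) (θ ∘ x)) sl =
      vmap θ (nvar (Pr.net (dat enc ρ)) R (mkK s a x) sl) := by
  obtain ⟨q, row, g | ⟨p, side⟩ | ⟨p, t⟩⟩ := s
  · rcases sl with c | sl <;> rfl
  · rcases sl with c | sl
    · simp only [mkK, nvar]
      split_ifs
      · rfl
      · simp only at hf
        cases side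
        · simp only [Prog.net, Bool.false_eq_true, if_false, vmap, hf]
          congr 1
          · simp only [dat, Prod.mk.injEq, and_true, true_and]
            funext i
            simp [h0]
          · cases selF p (R.reg row) q.1 <;> rfl
        · simp only [Prog.net, if_true, vmap]
      · rfl
    · rfl
  · rcases sl with c | sl | sl
    · simp only [mkK, nvar]
      split_ifs <;> rfl
    · rfl
    · rfl

omit [Fintype Reg] [Fintype Row] in
theorem ncoef_map {ρ ρ' : (Fin 6 → Fin N) → Prop} (s : CShape Pr L Row) (a a' : Fin N)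
    (x x' : Fin 6 → Fin N)
    (hf : flag (dat enc ρ') s.1.1 x' = flag (dat enc ρ) s.1.1 x) (sl : NSlot Row Reg) :
    ncoef (Pr.net (dat enc ρ')) R (mkK s a' x') sl =
      ncoef (Pr.net (dat enc ρ)) R (mkK s a x) sl := by
  obtain ⟨q, row, g | ⟨p, side⟩ | ⟨p, t⟩⟩ := s
  · rcases sl with c | sl
    · simp only at hf
      simp only [mkK, ncoef, Prog.net, hf]
    · rfl
  · rcases sl with c | sl <;> rfl
  · rcases sl with c | sl | sl <;> rfl

omit [Fintype Reg] [Fintype Row] in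
theorem noff_map {ρ ρ' : (Fin 6 → Fin N) → Prop} (s : CShape Pr L Row) (a a' : Fin N)
    (x x' : Fin 6 → Fin N) :
    noff (Pr.net (dat enc ρ')) R (mkK s a' x') = noff (Pr.net (dat enc ρ)) R (mkK s a x) := by
  obtain ⟨q, row, g | ⟨p, side⟩ | ⟨p, t⟩⟩ := s <;> rfl

/-- what equality of types gives -/
structure TEq (d d' e e' : Fin 9 → Fin N) : Prop where
  code : ∀ a cd, co d d' a = enc cd ↔ co e e' a = enc cd
  zero : ∀ a, co d d' a = 0 ↔ co e e' a = 0
  max : ∀ a, (co d d' a).val + 1 = N ↔ (co e e' a).val + 1 = N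
  eq : ∀ a b, co d d' a = co d d' b ↔ co e e' a = co e e' b
  succ : ∀ a b, (co d d' a).val + 1 = (co d d' b).val ↔ (co e e' a).val + 1 = (co e e' b).val

omit [Fintype Reg] [Fintype Row] in
theorem tEq_of_typ {d d' e e' : Fin 9 → Fin N} (h : typ enc d d' = typ enc e e') :
    TEq enc d d' e e' := by
  have h' : ∀ a b, info enc (co d d' a) (co d d' b) = info enc (co e e' a) (co e e' b) :=
    fun a b => congrFun h (a, b)
  simp only [info, Prod.mk.injEq, eq_iff_iff, funext_iff] at h'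
  exact ⟨fun a => (h' a a).1, fun a => (h' a a).2.1, fun a => (h' a a).2.2.1,
    fun a b => (h' a b).2.2.2.1, fun a b => (h' a b).2.2.2.2⟩

omit [Fintype Reg] [Fintype Row] in
theorem TEq.symm {d d' e e' : Fin 9 → Fin N} (h : TEq enc d d' e e') : TEq enc e e' d d' :=
  ⟨fun a b => (h.code a b).symm, fun a => (h.zero a).symm, fun a => (h.max a).symm,
    fun a b => (h.eq a b).symm, fun a b => (h.succ a b).symm⟩

theorem co_swap {α : Type} (d d' : Fin 9 → α) (a : Bool × Fin 9) :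
    co d' d a = co d d' (!a.1, a.2) := by
  obtain ⟨_ | _, i⟩ := a <;> rfl

omit [Fintype Reg] [Fintype Row] in
theorem TEq.swap {d d' e e' : Fin 9 → Fin N} (h : TEq enc d d' e e') : TEq enc d' d e' e := by
  refine ⟨fun a b => ?_, fun a => ?_, fun a => ?_, fun a b => ?_, fun a b => ?_⟩ <;>
    simp only [co_swap d d', co_swap e e']
  exacts [h.code _ _, h.zero _, h.max _, h.eq _ _, h.succ _ _]

omit [Fintype Reg] [Fintype Row] in
theorem TEq.diag {d d' e e' : Fin 9 → Fin N} (h : TEq enc d d' e e') : TEq enc d d e e := by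
  have h1 : ∀ (d d' : Fin 9 → Fin N) a, co d d a = co d d' (false, a.2) := by
    rintro d d' ⟨_ | _, i⟩ <;> rfl
  refine ⟨fun a b => ?_, fun a => ?_, fun a => ?_, fun a b => ?_, fun a b => ?_⟩ <;>
    simp only [h1 d d', h1 e e']
  exacts [h.code _ _, h.zero _, h.max _, h.eq _ _, h.succ _ _]

omit [Fintype Reg] [Fintype Row] in
theorem TEq.theta {d d' e e' : Fin 9 → Fin N} (h : TEq enc d d' e e') :
    ∃ θ : Fin N → Fin N, θ 0 = 0 ∧ ∀ a, θ (co d d' a) = co e e' a := by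
  classical
  refine ⟨fun y => if hy : ∃ a, co d d' a = y then co e e' hy.choose else y, ?_, fun a => ?_⟩
  · dsimp only
    split_ifs with hy
    · exact (h.zero _).1 hy.choose_spec
    · rfl
  · have hy : ∃ b, co d d' b = co d d' a := ⟨a, rfl⟩
    simp only [dif_pos hy]
    exact (h.eq _ _).1 hy.choose_spec

omit [Fintype Reg] [Fintype Row] in
theorem TEq.flag {ρ ρ' : (Fin 6 → Fin N) → Prop} {d d' e e' : Fin 9 → Fin N}
    (h : TEq enc d d' e e') (hρ : ρ (d ∘ xi) ↔ ρ' (e ∘ xi)) (q : Fm Reg Id) :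
    flag (dat enc ρ') q (e ∘ xi) = flag (dat enc ρ) q (d ∘ xi) := by
  apply propext
  cases q with
  | atom J pol =>
    simp only [P310.flag, dat, hρ, Function.comp_apply]
    refine and_congr Iff.rfl (and_congr ?_ ?_)
    · exact forall_congr' fun i => forall_congr' fun id => imp_congr_right fun _ =>
        (h.code (false, xi i) (.inr id)).symm
    · exact forall_congr' fun i => forall_congr' fun i' => imp_congr_right fun _ =>
        (h.eq (false, xi i) (false, xi i')).symm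
  | or φ ψ => exact (h.zero (false, xi 0)).symm
  | and _ _ => rfl
  | ex _ _ => rfl
  | call => rfl
  | fin => rfl

omit [Fintype Reg] [Fintype Row] in
theorem var_eq_inv {ρ ρ' : (Fin 6 → Fin N) → Prop} {d d' e e' : Fin 9 → Fin N}
    (h : TEq enc d d' e e') (hρ : ρ (d ∘ xi) ↔ ρ' (e ∘ xi)) (hρ' : ρ (d' ∘ xi) ↔ ρ' (e' ∘ xi))
    (s s' : CShape Pr L Row) (sl sl' : NSlot Row Reg)
    (hv : nvar (Pr.net (dat enc ρ)) R (mkK s (d 1) (d ∘ xi)) sl =
      nvar (Pr.net (dat enc ρ)) R (mkK s' (d' 1) (d' ∘ xi)) sl') :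
    nvar (Pr.net (dat enc ρ')) R (mkK s (e 1) (e ∘ xi)) sl =
      nvar (Pr.net (dat enc ρ')) R (mkK s' (e' 1) (e' ∘ xi)) sl' := by
  obtain ⟨θ, h0, hθ⟩ := h.theta
  have e1 : e 1 = θ (d 1) := (hθ (false, 1)).symm
  have e2 : e' 1 = θ (d' 1) := (hθ (true, 1)).symm
  have e3 : e ∘ xi = θ ∘ (d ∘ xi) := funext fun i => (hθ (false, xi i)).symm
  have e4 : e' ∘ xi = θ ∘ (d' ∘ xi) := funext fun i => (hθ (true, xi i)).symm
  have f1 := h.flag enc hρ s.1.1
  have f2 := (h.swap enc).flag enc hρ' s'.1.1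
  rw [e3] at f1
  rw [e4] at f2
  rw [e1, e2, e3, e4, nvar_map enc R h0 _ _ _ f1, nvar_map enc R h0 _ _ _ f2, hv]

theorem valid_inv {ρ ρ' : (Fin 6 → Fin N) → Prop} {d d' e e' : Fin 9 → Fin N}
    (h : TEq enc d d' e e') (hρ : ρ (d ∘ xi) ↔ ρ' (e ∘ xi)) (s : CShape Pr L Row) (g : Bool)
    (α : NSlot Row Reg → F2)
    (hv : ((Pr.net (dat enc ρ)).xs R L).valid g (mkK s (d 1) (d ∘ xi)) α) :
    ((Pr.net (dat enc ρ')).xs R L).valid g (mkK s (e 1) (e ∘ xi)) α := by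
  refine ⟨?_, fun sl sl' hs => hv.2 sl sl' ?_⟩
  · have := hv.1
    simp only [Net.xs] at this ⊢
    rw [noff_map enc R (ρ := ρ) s (d 1) _ (d ∘ xi), ← this]
    refine Finset.sum_congr rfl fun sl _ => ?_
    rw [ncoef_map enc R s (d 1) _ (d ∘ xi) _ (h.flag enc hρ _)]
  · exact var_eq_inv enc R (h.diag enc).symm hρ.symm hρ.symm s s sl sl' hs

omit [Fintype Reg] [Fintype Row] in
theorem name_rebuild {d d' e e' : Fin 9 → Fin N} (h : TEq enc d d' e e') {p : CC Pr L Row N}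
    (hp : name enc p = d) : name enc (rebuild p (e 1) (e ∘ xi)) = e := by
  rw [name_eq_iff] at hp ⊢
  obtain ⟨h0, h1, h2, h3⟩ := hp
  have a0 := (h.code (false, 0) _).1 h0
  have a3 := (h.zero (false, 8)).1 h3
  have a1 : aOf p = 0 → e 1 = 0 := fun hz => (h.zero (false, 1)).1 (h1.trans hz)
  have a2 : ∀ i, xOf p i = 0 → e (xi i) = 0 := fun i hz =>
    (h.zero (false, xi i)).1 ((h2 i).trans hz)
  rcases p with _ | _ | _ | _ | ⟨i, y⟩ | ⟨κ, α⟩
  · exact ⟨a0, a1 rfl, fun i => a2 i rfl, a3⟩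
  · exact ⟨a0, a1 rfl, fun i => a2 i rfl, a3⟩
  · exact ⟨a0, a1 rfl, fun i => a2 i rfl, a3⟩
  · exact ⟨a0, a1 rfl, fun i => a2 i rfl, a3⟩
  · exact ⟨a0, rfl, fun i => a2 i rfl, a3⟩
  · refine ⟨?_, ?_, fun i => ?_, a3⟩
    · simpa [rebuild, shapeOf, co] using a0
    · simp [rebuild, aOf]
    · simp [rebuild, xOf]

omit [Fintype Reg] [Fintype Row] in
theorem rebuild_self {d : Fin 9 → Fin N} {p : CC Pr L Row N} (hp : name enc p = d) :
    rebuild p (d 1) (d ∘ xi) = p := by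
  rw [name_eq_iff] at hp
  obtain ⟨-, h1, h2, -⟩ := hp
  have h3 : d ∘ xi = xOf p := funext h2
  rw [h1, h3]
  rcases p with _ | _ | _ | _ | ⟨i, y⟩ | ⟨κ, α⟩ <;> simp only [rebuild, aOf, xOf, mkK_k]

theorem cr_inv {ρ ρ' : (Fin 6 → Fin N) → Prop} {d d' e e' : Fin 9 → Fin N}
    (h : TEq enc d d' e e') (hρ : ρ (d ∘ xi) ↔ ρ' (e ∘ xi)) (hρ' : ρ (d' ∘ xi) ↔ ρ' (e' ∘ xi))
    (g : Bool) (p q : CC Pr L Row N)
    (hc : cr enc R ρ g (rebuild p (d 1) (d ∘ xi)) (rebuild q (d' 1) (d' ∘ xi))) :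
    cr enc R ρ' g (rebuild p (e 1) (e ∘ xi)) (rebuild q (e' 1) (e' ∘ xi)) := by
  rcases p with _ | _ | _ | _ | ⟨i, y⟩ | ⟨κ, α⟩ <;> rcases q with _ | _ | _ | _ | ⟨i', y'⟩ | ⟨κ', α'⟩ <;>
    simp only [cr, rebuild, crel] at hc ⊢
  · simp only [rord, Nat.add_eq_zero_iff, Fin.val_eq_zero_iff] at hc ⊢
    exact ⟨(h.zero (true, 1)).1 hc.1, hc.2⟩
  · simp only [rord] at hc ⊢
    rw [succ_digit (Fin.is_lt _) (Fin.is_lt _)] at hc ⊢
    simp only [Fin.val_eq_zero_iff] at hc ⊢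
    rcases hc with ⟨h1, h2⟩ | ⟨h1, h2, h3⟩
    · exact Or.inl ⟨(h.succ (false, 1) (true, 1)).1 h1, h2⟩
    · exact Or.inr ⟨(h.max (false, 1)).1 h1, (h.zero (true, 1)).1 h2, h3⟩
  · refine ⟨valid_inv enc R h hρ _ _ _ hc.1, ?_⟩
    have h2 := hc.2
    simp only [rlab, lab, kS_mk, kA_mk, kX_mk] at h2 ⊢
    revert h2
    refine Fin.cases ?_ (fun i => Fin.cases ?_ (fun i => ?_) i) i'
    · simp only [Fin.cons_zero]
      exact fun h2 => ((h.code (true, 1) _).1 h2.symm).symm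
    · simp only [Fin.cons_succ, Fin.cons_zero]
      exact (h.eq (false, 1) (true, 1)).1
    · simp only [Fin.cons_succ]
      exact (h.eq (false, xi i) (true, 1)).1
  · obtain ⟨h1, h2, sl, sl', h3, h4⟩ := hc
    exact ⟨valid_inv enc R h hρ _ _ _ h1, valid_inv enc R (h.swap enc) hρ' _ _ _ h2, sl, sl',
      var_eq_inv enc R h hρ hρ' _ _ _ _ h3, h4⟩

theorem adjN_inv {ρ ρ' : (Fin 6 → Fin N) → Prop} {d d' e e' : Fin 9 → Fin N}
    (ht : typ enc d d' = typ enc e e') (hρ : ρ (d ∘ xi) ↔ ρ' (e ∘ xi))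
    (hρ' : ρ (d' ∘ xi) ↔ ρ' (e' ∘ xi)) (henc : Injective enc) (g : Bool)
    (h : AdjN enc R ρ g d d') : AdjN enc R ρ' g e e' := by
  have h0 := tEq_of_typ enc ht
  obtain ⟨p, q, hp, hq, hne, hc⟩ := h
  have n1 := name_rebuild enc h0 hp
  have n2 := name_rebuild enc (h0.swap enc) hq
  refine ⟨_, _, n1, n2, ?_, ?_⟩
  · intro he
    rw [he, n2] at n1
    apply hne
    apply name_inj enc henc
    rw [hp, hq]
    funext i
    exact (h0.eq (false, i) (true, i)).2 (congrFun n1 i).symm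
  · rw [← rebuild_self enc hp, ← rebuild_self enc hq] at hc
    rcases hc with hc | hc
    · exact Or.inl (cr_inv enc R h0 hρ hρ' g p q hc)
    · exact Or.inr (cr_inv enc R (h0.swap enc) hρ' hρ g q p hc)

end Vale.Agent.P310
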