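import Vale.Agent.P310.Xor2

namespace Vale.Agent.P310

open Function

structure Net (Jn W Reg Val : Type) where
  coef : Jn → Fin 5 → F2
  off : Jn → F2
  jn : W → Bool → Jn
  cmp : W → Bool → Fin 5
  mp : W → Bool → Reg → Val → Val

structure Rows (Row Reg : Type) where
  reg : Row → Reg
  root : Reg → Row
  r0 : Row
  hroot : ∀ j, reg (root j) = j

inductive NK (Jn W Row Val : Type) (L : ℕ) where
  | jc (J : Jn) (row : Row) (b : Val) : NK Jn W Row Val L
  | lk (w : W) (side : Bool) (row : Row) (a : Val) : NK Jn W Row Val L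
  | cl (w : W) (t : Fin L) (row : Row) (a : Val) : NK Jn W Row Val L

inductive NV (Jn W Row Reg Val : Type) where
  | jv (J : Jn) (c : Fin 5) (row : Row) (b : Val) : NV Jn W Row Reg Val
  | hv (w : W) (τ : ℕ) (row : Row) (a : Val) : NV Jn W Row Reg Val
  | z1 (w : W) (t : ℕ) (row : Row) (a : Val) : NV Jn W Row Reg Val
  | z2 (w : W) (t : ℕ) (j : Reg) : NV Jn W Row Reg Val
  | dm : NV Jn W Row Reg Val

abbrev NSlot (Row Reg : Type) := Fin 5 ⊕ Row ⊕ Reg

variable {Jn W Row Reg Val : Type} {L : ℕ}

def endLayer (L : ℕ) (side : Bool) : ℕ := if side then L else 0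

def nvar (N : Net Jn W Reg Val) (R : Rows Row Reg) :
    NK Jn W Row Val L → NSlot Row Reg → NV Jn W Row Reg Val
  | .jc J row b, .inl c => .jv J c row b
  | .jc _ _ _, .inr _ => .dm
  | .lk w side row a, .inl c =>
      if c = 0 then .hv w (endLayer L side) row a
      else if c = 1 then .jv (N.jn w side) (N.cmp w side) row (N.mp w side (R.reg row) a) else .dm
  | .lk _ _ _ _, .inr _ => .dm
  | .cl w t row a, .inl c =>
      if c = 0 then .hv w t row a else if c = 1 then .hv w (t + 1) row a else .dm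
  | .cl w t _ a, .inr (.inl r') => .z1 w t r' a
  | .cl w t _ _, .inr (.inr j) => .z2 w t j

open Classical in
noncomputable def Rows.c1 (R : Rows Row Reg) (row r' : Row) : F2 :=
  (if r' = row then 1 else 0) + (if row = R.root (R.reg r') then 1 else 0)

open Classical in
noncomputable def Rows.c2 (R : Rows Row Reg) (row : Row) (j : Reg) : F2 :=
  (if row = R.root j then 1 else 0) + (if row = R.r0 then 1 else 0)

noncomputable def ncoef (N : Net Jn W Reg Val) (R : Rows Row Reg) :
    NK Jn W Row Val L → NSlot Row Reg → F2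
  | .jc J _ _, .inl c => N.coef J c
  | .jc _ _ _, .inr _ => 0
  | .lk _ _ _ _, .inl c => if c = 0 ∨ c = 1 then 1 else 0
  | .lk _ _ _ _, .inr _ => 0
  | .cl _ _ _ _, .inl c => if c = 0 ∨ c = 1 then 1 else 0
  | .cl _ _ row _, .inr (.inl r') => R.c1 row r'
  | .cl _ _ row _, .inr (.inr j) => R.c2 row j

open Classical in
noncomputable def noff (N : Net Jn W Reg Val) (R : Rows Row Reg) : NK Jn W Row Val L → F2
  | .jc J row _ => if row = R.r0 then N.off J else 0
  | .lk _ _ _ _ => 0
  | .cl _ _ _ _ => 0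

noncomputable def Net.xs (N : Net Jn W Reg Val) (R : Rows Row Reg) (L : ℕ) :
    XS (NK Jn W Row Val L) (NV Jn W Row Reg Val) (NSlot Row Reg) where
  var := nvar N R
  coef := ncoef N R
  off := noff N R

variable [Fintype Row] [Fintype Reg]

noncomputable def Rows.gauge (R : Rows Row Reg) (z1 : Row → Val → F2) (z2 : Reg → F2)
    (row : Row) (a : Val) : F2 :=
  ∑ r', R.c1 row r' * z1 r' a + ∑ j, R.c2 row j * z2 j

def Rows.HasPar (R : Rows Row Reg) (p : Row → Val → F2) (π : F2) : Prop :=
  ∀ c : Reg → Val, ∑ row, p row (c (R.reg row)) = π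

variable {N : Net Jn W Reg Val} {R : Rows Row Reg}

open Classical in
theorem sat_jc (J : Jn) (row : Row) (b : Val) (σ : NV Jn W Row Reg Val → F2) :
    (N.xs R L).Sat (.jc J row b) σ ↔
      ∑ c, N.coef J c * σ (.jv J c row b) = if row = R.r0 then N.off J else 0 := by
  simp [XS.Sat, Net.xs, Fintype.sum_sum_type, nvar, ncoef, noff]

theorem sat_lk (w : W) (side : Bool) (row : Row) (a : Val) (σ : NV Jn W Row Reg Val → F2) :
    (N.xs R L).Sat (.lk w side row a) σ ↔
      σ (.hv w (endLayer L side) row a) =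
        σ (.jv (N.jn w side) (N.cmp w side) row (N.mp w side (R.reg row) a)) := by
  simp [XS.Sat, Net.xs, Fintype.sum_sum_type, nvar, ncoef, noff, Fin.sum_univ_five,
    CharTwo.add_eq_zero]

theorem sat_cl (w : W) (t : Fin L) (row : Row) (a : Val) (σ : NV Jn W Row Reg Val → F2) :
    (N.xs R L).Sat (.cl w t row a) σ ↔
      σ (.hv w t row a) + σ (.hv w (t + 1) row a) +
        R.gauge (fun r' a => σ (.z1 w t r' a)) (fun j => σ (.z2 w t j)) row a = 0 := by
  simp [XS.Sat, Net.xs, Fintype.sum_sum_type, nvar, ncoef, noff, Fin.sum_univ_five, Rows.gauge]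

theorem Rows.gauge_par (R : Rows Row Reg) (z1 : Row → Val → F2) (z2 : Reg → F2) :
    R.HasPar (R.gauge z1 z2) 0 := by
  classical
  intro c
  simp only [Rows.gauge, Finset.sum_add_distrib]
  rw [Finset.sum_comm, Finset.sum_comm (f := fun row j => R.c2 row j * z2 j)]
  have h1 : ∀ r', ∑ row, R.c1 row r' * z1 r' (c (R.reg row)) = 0 := by
    intro r'
    simp only [Rows.c1, add_mul, Finset.sum_add_distrib, ite_mul, one_mul, zero_mul,
      Finset.sum_ite_eq, Finset.sum_ite_eq', Finset.mem_univ, if_true, R.hroot]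
    exact CharTwo.add_self_eq_zero _
  have h2 : ∀ j, ∑ row, R.c2 row j * z2 j = 0 := by
    intro j
    simp only [Rows.c2, add_mul, Finset.sum_add_distrib, ite_mul, one_mul, zero_mul,
      Finset.sum_ite_eq', Finset.mem_univ, if_true]
    exact CharTwo.add_self_eq_zero _
  simp [h1, h2]

theorem Rows.gauge_add (R : Rows Row Reg) (z1 z1' : Row → Val → F2) (z2 z2' : Reg → F2)
    (row : Row) (a : Val) :
    R.gauge (fun r a => z1 r a + z1' r a) (fun j => z2 j + z2' j) row a =
      R.gauge z1 z2 row a + R.gauge z1' z2' row a := by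
  simp only [Rows.gauge, mul_add, Finset.sum_add_distrib]
  ring

theorem Rows.gauge_surj (R : Rows Row Reg) {p : Row → Val → F2} (hp : R.HasPar p 0) :
    ∃ z1 z2, ∀ row a, R.gauge z1 z2 row a = p row a := by
  classical
  rcases isEmpty_or_nonempty Val with hV | ⟨⟨a0⟩⟩
  · exact ⟨fun _ _ => 0, fun _ => 0, fun _ a => hV.elim a⟩
  let s : Reg → Val → F2 := fun j a => ∑ r', if R.reg r' = j then p r' a else 0
  have hs : ∀ j a, s j a = s j a0 := by
    intro j a
    have h1 := hp (update (fun _ => a0) j a)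
    have h2 := hp (fun _ => a0)
    have h3 : ∑ row, p row (update (fun _ => a0) j a (R.reg row)) + s j a0 =
        ∑ row, p row a0 + s j a := by
      simp only [s, ← Finset.sum_add_distrib]
      refine Finset.sum_congr rfl fun row _ => ?_
      by_cases h : R.reg row = j
      · subst h
        simp [add_comm]
      · simp [h]
    rw [h1, h2] at h3
    simpa using h3.symm
  refine ⟨p, fun j => s j a0, fun row a => ?_⟩
  have h0 : ∑ j, s j a0 = 0 := by
    simp only [s]
    rw [Finset.sum_comm]
    simpa using hp (fun _ => a0)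
  have h1 : ∑ r', (if row = R.root (R.reg r') then p r' a else 0) =
      ∑ j, (if row = R.root j then s j a0 else 0) := by
    simp only [← hs _ a]
    simp only [s]
    have : ∀ j, (if row = R.root j then ∑ r', if R.reg r' = j then p r' a else 0 else 0) =
        ∑ r', if R.reg r' = j then (if row = R.root j then p r' a else 0) else 0 := by
      intro j
      split_ifs <;> simp
    simp only [this]
    rw [Finset.sum_comm]
    simp
  simp only [Rows.gauge, Rows.c1, Rows.c2, add_mul, Finset.sum_add_distrib, ite_mul, one_mul,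
    zero_mul, Finset.sum_ite_eq', Finset.mem_univ, if_true, h1]
  have h2 : ∑ j, (if row = R.r0 then s j a0 else 0) = 0 := by
    split_ifs <;> simp [h0]
  rw [h2, add_zero, add_assoc, CharTwo.add_self_eq_zero, add_zero]

structure Net.Cons (N : Net Jn W Reg Val) (Good : Jn → (Reg → Val) → Set (Fin 5 → F2)) : Prop where
  ne : ∀ J b, (Good J b).Nonempty
  eqn : ∀ J b, ∀ π ∈ Good J b, ∑ c, N.coef J c * π c = N.off J
  tr : ∀ w side (c : Reg → Val), ∀ π ∈ Good (N.jn w side) (fun j => N.mp w side j (c j)),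
    ∃ π' ∈ Good (N.jn w (!side)) (fun j => N.mp w (!side) j (c j)),
      π' (N.cmp w (!side)) = π (N.cmp w side)

section complete
variable {K Var Slot : Type} [Fintype Slot] {X : XS K Var Slot} {F : Finset K → (Var → F2) → Prop}

theorem strat_wall (hF : X.Strat (Fintype.card Row + 1) F) (C : Row → K) :
    ∃ S σ, F S σ ∧ ∀ row, C row ∈ S := by
  classical
  have : ∀ T : Finset Row, ∃ σ, F (T.image C) σ := by
    intro T
    induction T using Finset.induction_on with
    | empty => simpa using hF.start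
    | insert r T _ ih =>
      obtain ⟨σ, hσ⟩ := ih
      obtain ⟨T', σ', h1, h2, h3, -⟩ := hF.ext _ _ hσ (Nat.lt_succ_of_le
        (Finset.card_image_le.trans (Finset.card_le_univ _))) (C r)
      refine ⟨σ', hF.mono _ _ _ ?_ h1⟩
      rw [Finset.image_insert]
      exact Finset.insert_subset h2 h3
  obtain ⟨σ, hσ⟩ := this Finset.univ
  exact ⟨_, σ, hσ, fun row => Finset.mem_image_of_mem _ (Finset.mem_univ _)⟩

theorem strat_recover (hF : X.Strat (Fintype.card Row + 1) F) {S : Finset K} {σ : Var → F2}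
    (hS : F S σ) (v : Row → Var) (hv : ∀ row, ∃ κ ∈ S, ∃ s, X.var κ s = v row)
    (C' : Row → K) (hC' : ∀ row, ∃ s, X.var (C' row) s = v row) :
    ∃ S' σ', F S' σ' ∧ (∀ row, C' row ∈ S') ∧ ∀ row, σ' (v row) = σ (v row) := by
  classical
  choose C hC sl hsl using hv
  have : ∀ T : Finset Row, ∃ σ', F (Finset.univ.image fun row => if row ∈ T then C' row else C row)
      σ' ∧ ∀ row, σ' (v row) = σ (v row) := by
    intro T
    induction T using Finset.induction_on with
    | empty =>
      refine ⟨σ, hF.mono _ _ _ ?_ hS, fun _ => rfl⟩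
      intro κ hκ
      simp only [Finset.notMem_empty, if_false, Finset.mem_image, Finset.mem_univ, true_and] at hκ
      obtain ⟨row, rfl⟩ := hκ
      exact hC row
    | insert r T _ ih =>
      obtain ⟨σ1, h1, h2⟩ := ih
      obtain ⟨T', σ', g1, g2, g3, g4⟩ := hF.ext _ _ h1 (Nat.lt_succ_of_le
        (Finset.card_image_le.trans (Finset.card_le_univ _))) (C' r)
      refine ⟨σ', hF.mono _ _ _ ?_ g1, fun row => ?_⟩
      · intro κ hκ
        simp only [Finset.mem_image, Finset.mem_univ, true_and] at hκ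
        obtain ⟨row, rfl⟩ := hκ
        by_cases hr : row = r
        · subst hr
          simpa using g2
        · apply g3
          refine Finset.mem_image.2 ⟨row, Finset.mem_univ _, ?_⟩
          simp [hr]
      · rw [← h2 row]
        have hm := Finset.mem_image_of_mem (fun row => if row ∈ T then C' row else C row)
          (Finset.mem_univ row)
        by_cases hr : row ∈ T
        · obtain ⟨s, hs⟩ := hC' row
          have := g4 _ hm s
          simpa only [if_pos hr, hs] using this
        · have := g4 _ hm (sl row)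
          simpa only [if_neg hr, hsl] using this
  obtain ⟨σ', h1, h2⟩ := this Finset.univ
  refine ⟨_, σ', h1, fun row => ?_, h2⟩
  exact Finset.mem_image.2 ⟨row, Finset.mem_univ _, by simp⟩

def Seen (X : XS K Var Slot) (F : Finset K → (Var → F2) → Prop) (v : Row → Var) (ε : F2) : Prop :=
  ∃ S σ, F S σ ∧ (∀ row, ∃ κ ∈ S, ∃ s, X.var κ s = v row) ∧ ∑ row, σ (v row) = ε

theorem Seen.step (hF : X.Strat (Fintype.card Row + 1) F) {v v' : Row → Var} {ε : F2}
    (h : Seen X F v ε) (C' : Row → K) (hC : ∀ row, ∃ s, X.var (C' row) s = v row)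
    (hC' : ∀ row, ∃ s, X.var (C' row) s = v' row)
    (hsum : ∀ σ, (∀ row, X.Sat (C' row) σ) → ∑ row, σ (v row) = ∑ row, σ (v' row)) :
    Seen X F v' ε := by
  obtain ⟨S, σ, h1, h2, h3⟩ := h
  obtain ⟨S', σ', g1, g2, g3⟩ := strat_recover hF h1 v h2 C' hC
  refine ⟨S', σ', g1, fun row => ⟨C' row, g2 row, hC' row⟩, ?_⟩
  rw [← hsum σ' fun row => hF.sat _ _ g1 _ (g2 row), ← h3]
  exact Finset.sum_congr rfl fun row _ => g3 row

end complete

theorem net_complete {F : Finset (NK Jn W Row Val L) → (NV Jn W Row Reg Val → F2) → Prop}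
    (hF : (N.xs R L).Strat (Fintype.card Row + 1) F) : ∃ Good, N.Cons Good := by
  classical
  refine ⟨fun J b => {π | ∃ S σ, F S σ ∧ (∀ row, NK.jc J row (b (R.reg row)) ∈ S) ∧
    π = fun c => ∑ row, σ (.jv J c row (b (R.reg row)))}, ?_, ?_, ?_⟩
  · intro J b
    obtain ⟨S, σ, h1, h2⟩ := strat_wall hF fun row => NK.jc J row (b (R.reg row))
    exact ⟨_, S, σ, h1, h2, rfl⟩
  · rintro J b π ⟨S, σ, h1, h2, rfl⟩
    have := fun row => (sat_jc _ _ _ _).1 (hF.sat _ _ h1 _ (h2 row))
    simp only [Finset.mul_sum]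
    rw [Finset.sum_comm]
    simp only [this]
    simp
  · rintro w side c π ⟨S, σ, h1, h2, rfl⟩
    let jvv : Bool → Row → NV Jn W Row Reg Val := fun side row =>
      .jv (N.jn w side) (N.cmp w side) row (N.mp w side (R.reg row) (c (R.reg row)))
    let lay : ℕ → Row → NV Jn W Row Reg Val := fun τ row => .hv w τ row (c (R.reg row))
    have e1 : ∀ side ε, Seen (N.xs R L) F (jvv side) ε ↔
        Seen (N.xs R L) F (lay (endLayer L side)) ε := by
      intro side ε
      have a1 : ∀ row, ∃ s, (N.xs R L).var (.lk w side row (c (R.reg row))) s = jvv side row :=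
        fun row => ⟨.inl 1, by simp [Net.xs, nvar, jvv]⟩
      have a2 : ∀ row, ∃ s, (N.xs R L).var (.lk w side row (c (R.reg row))) s =
          lay (endLayer L side) row :=
        fun row => ⟨.inl 0, by simp [Net.xs, nvar, lay]⟩
      have a3 : ∀ σ, (∀ row, (N.xs R L).Sat (.lk w side row (c (R.reg row))) σ) →
          ∑ row, σ (jvv side row) = ∑ row, σ (lay (endLayer L side) row) := fun σ h =>
        Finset.sum_congr rfl fun row _ => ((sat_lk _ _ _ _ _).1 (h row)).symm
      exact ⟨fun h => h.step hF _ a1 a2 a3, fun h => h.step hF _ a2 a1 fun σ h => (a3 σ h).symm⟩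
    have e2 : ∀ τ, τ ≤ L → ∀ ε, Seen (N.xs R L) F (lay 0) ε ↔ Seen (N.xs R L) F (lay τ) ε := by
      intro τ
      induction τ with
      | zero => intro _ _; rfl
      | succ τ ih =>
        intro hτ ε
        rw [ih (by omega)]
        let t : Fin L := ⟨τ, by omega⟩
        have a1 : ∀ row, ∃ s, (N.xs R L).var (.cl w t row (c (R.reg row))) s = lay τ row :=
          fun row => ⟨.inl 0, by simp [Net.xs, nvar, lay, t]⟩
        have a2 : ∀ row, ∃ s, (N.xs R L).var (.cl w t row (c (R.reg row))) s = lay (τ + 1) row :=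
          fun row => ⟨.inl 1, by simp [Net.xs, nvar, lay, t]⟩
        have a3 : ∀ σ, (∀ row, (N.xs R L).Sat (.cl w t row (c (R.reg row))) σ) →
            ∑ row, σ (lay τ row) = ∑ row, σ (lay (τ + 1) row) := by
          intro σ h
          have h' := fun row => (sat_cl _ _ _ _ _).1 (h row)
          have h3 := Finset.sum_congr (rfl : (Finset.univ : Finset Row) = _) fun row _ => h' row
          rw [Finset.sum_add_distrib, Finset.sum_add_distrib, R.gauge_par _ _ c] at h3
          simp only [add_zero, Finset.sum_const_zero] at h3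
          exact CharTwo.add_eq_zero.1 h3
        exact ⟨fun h => h.step hF _ a1 a2 a3, fun h => h.step hF _ a2 a1 fun σ h => (a3 σ h).symm⟩
    have s0 : Seen (N.xs R L) F (jvv side) (∑ row, σ (jvv side row)) :=
      ⟨S, σ, h1, fun row => ⟨_, h2 row, .inl (N.cmp w side), rfl⟩, rfl⟩
    have s1 : Seen (N.xs R L) F (jvv (!side)) (∑ row, σ (jvv side row)) := by
      rw [e1] at s0 ⊢
      cases side
      · exact (e2 L le_rfl _).1 s0
      · exact (e2 L le_rfl _).2 s0
    obtain ⟨S1, σ1, g1, g2, g3⟩ := s1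
    obtain ⟨S', σ', k1, k2, k3⟩ := strat_recover hF g1 _ g2
      (fun row => NK.jc (N.jn w (!side)) row (N.mp w (!side) (R.reg row) (c (R.reg row))))
      (fun row => ⟨.inl (N.cmp w (!side)), rfl⟩)
    refine ⟨_, ⟨S', σ', k1, k2, rfl⟩, ?_⟩
    simp only
    rw [← g3]
    exact Finset.sum_congr rfl fun row _ => k3 row

end Vale.Agent.P310
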