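import Vale.Agent.P310.Net

namespace Vale.Agent.P310

open Function

variable {Jn W Row Reg Val : Type} {L : ℕ}

def sd (tc τ : ℕ) : Bool := decide (tc < τ)

theorem sd_succ {tc t : ℕ} (h : t ≠ tc) : sd tc (t + 1) = sd tc t := by
  simp only [sd, decide_eq_decide]
  omega

theorem sd_end (t : Fin L) (side : Bool) : sd t (endLayer L side) = side := by
  cases side <;> simp [sd, endLayer]

def Net.loc (N : Net Jn W Reg Val) (R : Rows Row Reg) (cut : W → Fin L) :
    NK Jn W Row Val L → Jn × Row × Val
  | .jc J row b => (J, row, b)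
  | .lk w side row a => (N.jn w side, row, N.mp w side (R.reg row) a)
  | .cl w t row a => (N.jn w (sd (cut w) t), row, N.mp w (sd (cut w) t) (R.reg row) a)

def Net.Blocked (N : Net Jn W Reg Val) (R : Rows Row Reg) (S : Finset (NK Jn W Row Val L))
    (cut : W → Fin L) (J : Jn) (b : Reg → Val) : Prop :=
  ∀ row, ∃ κ ∈ S, N.loc R cut κ = (J, row, b (R.reg row))

def Free (S : Finset (NK Jn W Row Val L)) (cut : W → Fin L) : Prop :=
  ∀ w row a, NK.cl w (cut w) row a ∉ S

def Net.Agree (N : Net Jn W Reg Val) (R : Rows Row Reg) (S : Finset (NK Jn W Row Val L))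
    (σ σ' : NV Jn W Row Reg Val → F2) : Prop :=
  ∀ κ ∈ S, ∀ s, σ' (nvar N R κ s) = σ (nvar N R κ s)

theorem Net.Agree.trans {N : Net Jn W Reg Val} {R : Rows Row Reg} {S : Finset (NK Jn W Row Val L)}
    {σ σ' σ'' : NV Jn W Row Reg Val → F2} (h : N.Agree R S σ σ') (h' : N.Agree R S σ' σ'') :
    N.Agree R S σ σ'' := fun κ hκ s => (h' κ hκ s).trans (h κ hκ s)

variable [Fintype Row] [Fintype Reg]

structure Net.Base (N : Net Jn W Reg Val) (R : Rows Row Reg) (σ : NV Jn W Row Reg Val → F2)
    (cut : W → Fin L) (P : Jn → Fin 5 → F2) : Prop where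
  satJ : ∀ J row b, (N.xs R L).Sat (.jc J row b) σ
  satL : ∀ w side row a, (N.xs R L).Sat (.lk w side row a) σ
  satC : ∀ w t row a, t ≠ cut w → (N.xs R L).Sat (.cl w t row a) σ
  parJ : ∀ J c, R.HasPar (fun row b => σ (.jv J c row b)) (P J c)
  parH : ∀ w τ, R.HasPar (fun row a => σ (.hv w τ row a))
    (P (N.jn w (sd (cut w) τ)) (N.cmp w (sd (cut w) τ)))
  eqn : ∀ J, ∑ c, N.coef J c * P J c = N.off J

variable {N : Net Jn W Reg Val} {R : Rows Row Reg}

omit [Fintype Reg] in
theorem Rows.HasPar.add {p q : Row → Val → F2} {x y : F2} (hp : R.HasPar p x) (hq : R.HasPar q y) :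
    R.HasPar (fun row a => p row a + q row a) (x + y) := by
  intro c
  rw [Finset.sum_add_distrib, hp c, hq c]

omit [Fintype Reg] in
theorem Rows.HasPar.pull {p : Row → Val → F2} {x : F2} (hp : R.HasPar p x)
    (f : Reg → Val → Val) : R.HasPar (fun row a => p row (f (R.reg row) a)) x :=
  fun c => hp fun j => f j (c j)

omit [Fintype Reg] in
open Classical in
theorem Rows.hasPar_sel {j : Reg} {ρ : Val → Row} (hρ : ∀ b, R.reg (ρ b) = j) (A : Prop) (x : F2) :
    R.HasPar (fun row b => if A ∧ row = ρ b then x else 0) (if A then x else 0) := by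
  intro c
  by_cases hA : A
  · simp only [hA, true_and, if_true]
    have : ∀ row, (row = ρ (c (R.reg row))) ↔ row = ρ (c j) := by
      intro row
      constructor
      · intro h
        have : R.reg row = j := by rw [h, hρ]
        rw [this] at h
        exact h
      · intro h
        have : R.reg row = j := by rw [h, hρ]
        rw [this]
        exact h
    simp [this]
  · simp [hA]

omit [Fintype Row] [Fintype Reg] in
theorem exists_sel {B : Row → Val → Prop} (h : ¬ ∃ c : Reg → Val, ∀ row, B row (c (R.reg row))) :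
    ∃ (j : Reg) (ρ : Val → Row), (∀ b, R.reg (ρ b) = j) ∧ ∀ b, ¬ B (ρ b) b := by
  by_contra hc
  apply h
  have : ∀ j, ∃ b, ∀ row, R.reg row = j → B row b := by
    intro j
    by_contra h2
    push Not at h2
    choose ρ h3 h4 using h2
    exact hc ⟨j, ρ, h3, h4⟩
  choose c hc' using this
  exact ⟨c, fun row => hc' _ row rfl⟩

open Classical in
theorem retarget {σ : NV Jn W Row Reg Val → F2} {cut : W → Fin L} {P : Jn → Fin 5 → F2}
    (hB : N.Base R σ cut P) {S : Finset (NK Jn W Row Val L)} (hfree : Free S cut) {J : Jn}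
    (hJ : ¬ ∃ b, N.Blocked R S cut J b) {π' : Fin 5 → F2}
    (hπ : ∑ c, N.coef J c * π' c = N.off J) :
    ∃ σ', N.Base R σ' cut (update P J π') ∧ N.Agree R S σ σ' := by
  obtain ⟨j, ρ, hρ, hρ'⟩ := exists_sel (R := R)
    (B := fun row b => ∃ κ ∈ S, N.loc R cut κ = (J, row, b)) hJ
  let Δ : Fin 5 → F2 := fun c => P J c + π' c
  have hΔ : ∑ c, N.coef J c * Δ c = 0 := by
    simp only [Δ, mul_add, Finset.sum_add_distrib, hπ, hB.eqn]
    exact CharTwo.add_self_eq_zero _
  have hup : ∀ J' c, update P J π' J' c = P J' c + if J' = J then Δ c else 0 := by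
    intro J' c
    by_cases h : J' = J
    · subst h
      simp only [update_self, if_true, Δ]
      rw [← add_assoc, CharTwo.add_self_eq_zero, zero_add]
    · simp [h]
  let δ : NV Jn W Row Reg Val → F2 := fun v => match v with
    | .jv J' c row b => if J' = J ∧ row = ρ b then Δ c else 0
    | .hv w τ row a => if N.jn w (sd (cut w) τ) = J ∧
        row = ρ (N.mp w (sd (cut w) τ) (R.reg row) a) then Δ (N.cmp w (sd (cut w) τ)) else 0
    | _ => 0
  refine ⟨fun v => σ v + δ v, ⟨?_, ?_, ?_, ?_, ?_, ?_⟩, ?_⟩
  · intro J' row b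
    have := hB.satJ J' row b
    rw [sat_jc] at this ⊢
    simp only [mul_add, Finset.sum_add_distrib, this, δ, add_eq_left]
    by_cases h : J' = J ∧ row = ρ b
    · simp only [if_pos h]
      rw [h.1]
      exact hΔ
    · simp [if_neg h]
  · intro w side row a
    have := hB.satL w side row a
    rw [sat_lk] at this ⊢
    simp only [this, δ, sd_end]
  · intro w t row a ht
    have := hB.satC w t row a ht
    rw [sat_cl] at this ⊢
    have h2 : sd (cut w) (t + 1) = sd (cut w) t := sd_succ (fun h => ht (Fin.ext h))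
    simp only [δ, h2, add_zero]
    generalize (if N.jn w (sd (cut w) t) = J ∧ row = ρ (N.mp w (sd (cut w) t) (R.reg row) a) then
      Δ (N.cmp w (sd (cut w) t)) else 0) = x
    have h3 := CharTwo.add_self_eq_zero x
    linear_combination this + h3
  · intro J' c
    rw [hup]
    exact (hB.parJ J' c).add (Rows.hasPar_sel hρ _ _)
  · intro w τ
    rw [hup]
    exact (hB.parH w τ).add ((Rows.hasPar_sel hρ _ _).pull (N.mp w (sd (cut w) τ)))
  · intro J'
    by_cases h : J' = J
    · subst h
      simpa using hπ
    · simpa [h] using hB.eqn J'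
  · intro κ hκ s
    simp only [add_eq_left]
    have hn : ∀ b, N.loc R cut κ ≠ (J, ρ b, b) := fun b h => hρ' b ⟨κ, hκ, h⟩
    rcases κ with ⟨J', row, b⟩ | ⟨w, side, row, a⟩ | ⟨w, t, row, a⟩
    · rcases s with c | s
      · simp only [nvar, δ, ite_eq_right_iff]
        rintro ⟨rfl, rfl⟩
        exact absurd rfl (hn b)
      · simp [nvar, δ]
    · rcases s with c | s
      · simp only [nvar]
        split_ifs
        · simp only [δ, sd_end, ite_eq_right_iff]
          rintro ⟨h1, h2⟩
          refine absurd ?_ (hn (N.mp w side (R.reg row) a))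
          simp only [Net.loc, h1, ← h2]
        · simp only [δ, ite_eq_right_iff]
          rintro ⟨h1, h2⟩
          refine absurd ?_ (hn (N.mp w side (R.reg row) a))
          simp only [Net.loc, h1, ← h2]
        · rfl
      · simp [nvar, δ]
    · have ht : t ≠ cut w := fun h => hfree w row a (h ▸ hκ)
      have h2 : sd (cut w) (t + 1) = sd (cut w) t := sd_succ (fun h => ht (Fin.ext h))
      rcases s with c | s | s
      · simp only [nvar]
        split_ifs
        · simp only [δ, ite_eq_right_iff]
          rintro ⟨h1, h2⟩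
          refine absurd ?_ (hn (N.mp w (sd (cut w) t) (R.reg row) a))
          simp only [Net.loc, h1, ← h2]
        · simp only [δ, h2, ite_eq_right_iff]
          rintro ⟨h1, h2⟩
          refine absurd ?_ (hn (N.mp w (sd (cut w) t) (R.reg row) a))
          simp only [Net.loc, h1, ← h2]
        · rfl
      · simp [nvar, δ]
      · simp [nvar, δ]

open Classical in
theorem movecut {σ : NV Jn W Row Reg Val → F2} {cut : W → Fin L} {P : Jn → Fin 5 → F2}
    (hB : N.Base R σ cut P) {S : Finset (NK Jn W Row Val L)} (hfree : Free S cut) {w : W}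
    {t1 : Fin L} (ht1 : ∀ row a, NK.cl w t1 row a ∉ S) (hne : t1 ≠ cut w)
    (h : P (N.jn w false) (N.cmp w false) = P (N.jn w true) (N.cmp w true) ∨
      ¬ ∃ c : Reg → Val, ∀ row, ∃ t : Fin L, NK.cl w t row (c (R.reg row)) ∈ S ∧
        sd (cut w) t ≠ sd t1 t) :
    ∃ σ', N.Base R σ' (update cut w t1) P ∧ N.Agree R S σ σ' := by
  let ε : F2 := P (N.jn w false) (N.cmp w false) + P (N.jn w true) (N.cmp w true)
  obtain ⟨j, ρ, hρ, hρ'⟩ : ∃ (j : Reg) (ρ : Val → Row), (∀ b, R.reg (ρ b) = j) ∧
      (ε = 0 ∨ ∀ a (t : Fin L), NK.cl w t (ρ a) a ∈ S → sd (cut w) t = sd t1 t) := by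
    rcases h with h | h
    · refine ⟨R.reg R.r0, fun _ => R.r0, fun _ => rfl, Or.inl ?_⟩
      simp only [ε, h]
      exact CharTwo.add_self_eq_zero _
    · obtain ⟨j, ρ, hρ, hρ'⟩ := exists_sel (R := R)
        (B := fun row a => ∃ t : Fin L, NK.cl w t row a ∈ S ∧ sd (cut w) t ≠ sd t1 t) h
      refine ⟨j, ρ, hρ, Or.inr fun a t ht => ?_⟩
      by_contra hc
      exact hρ' a ⟨t, ht, hc⟩
  let δ : ℕ → Row → Val → F2 := fun τ row a =>
    if sd (cut w) τ ≠ sd t1 τ ∧ row = ρ a then ε else 0
  have hpar : ∀ τ, R.HasPar (fun row a => σ (.hv w τ row a) + δ τ row a)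
      (P (N.jn w (sd t1 τ)) (N.cmp w (sd t1 τ))) := by
    intro τ
    have := (hB.parH w τ).add (Rows.hasPar_sel hρ (sd (cut w) τ ≠ sd t1 τ) ε)
    have h4 : P (N.jn w (sd t1 τ)) (N.cmp w (sd t1 τ)) =
        P (N.jn w (sd (cut w) τ)) (N.cmp w (sd (cut w) τ)) +
          if sd (cut w) τ ≠ sd t1 τ then ε else 0 := by
      have h2 := CharTwo.add_self_eq_zero (P (N.jn w false) (N.cmp w false))
      have h3 := CharTwo.add_self_eq_zero (P (N.jn w true) (N.cmp w true))
      cases sd (cut w) τ <;> cases sd t1 τ <;> simp [ε]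
      · linear_combination -h2
      · linear_combination -h3
    rw [h4]
    simp only [δ]
    convert this
  have hsd : sd t1 ((cut w : ℕ) + 1) = sd t1 (cut w) := sd_succ (fun h => hne (Fin.ext h.symm))
  have hD := ((hpar (cut w)).add (hpar (cut w + 1))).add
    (R.gauge_par (fun r' a => σ (.z1 w (cut w) r' a)) (fun j => σ (.z2 w (cut w) j)))
  rw [hsd, CharTwo.add_self_eq_zero, add_zero] at hD
  obtain ⟨y1, y2, hy⟩ := R.gauge_surj hD
  let η : NV Jn W Row Reg Val → F2 := fun v => match v with
    | .hv w' τ row a => if w' = w then δ τ row a else 0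
    | .z1 w' t row a => if w' = w ∧ t = cut w then y1 row a else 0
    | .z2 w' t j => if w' = w ∧ t = cut w then y2 j else 0
    | _ => 0
  have hδend : ∀ side row a, δ (endLayer L side) row a = 0 := by
    intro side row a
    simp [δ, sd_end]
  have hδsucc : ∀ (t : Fin L) row a, t ≠ cut w → t ≠ t1 → δ (t + 1) row a = δ t row a := by
    intro t row a h1 h2
    simp only [δ, sd_succ (fun h => h1 (Fin.ext h)), sd_succ (fun h => h2 (Fin.ext h))]
  refine ⟨fun v => σ v + η v, ⟨?_, ?_, ?_, ?_, ?_, hB.eqn⟩, ?_⟩
  · intro J' row b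
    have := hB.satJ J' row b
    rw [sat_jc] at this ⊢
    simpa [η] using this
  · intro w' side row a
    have := hB.satL w' side row a
    rw [sat_lk] at this ⊢
    simp [η, this, hδend]
  · intro w' t row a ht
    by_cases hw : w' = w
    · subst hw
      simp only [update_self] at ht
      rw [sat_cl]
      by_cases h0 : t = cut w'
      · subst h0
        simp only [η, if_true, and_self]
        rw [R.gauge_add, hy]
        generalize R.gauge _ _ row a = x
        generalize σ (NV.hv w' (cut w') row a) + δ (cut w') row a = y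
        generalize σ (NV.hv w' (cut w' + 1) row a) + δ (cut w' + 1) row a = z
        have := CharTwo.add_self_eq_zero (y + z + x)
        linear_combination this
      · have := hB.satC w' t row a h0
        rw [sat_cl] at this
        have h0' : (t : ℕ) ≠ cut w' := fun h => h0 (Fin.ext h)
        simp only [η, if_true, h0', and_false, if_false, add_zero, hδsucc t row a h0 ht]
        have h3 := CharTwo.add_self_eq_zero (δ t row a)
        linear_combination this + h3
    · rw [update_of_ne hw] at ht
      have := hB.satC w' t row a ht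
      rw [sat_cl] at this ⊢
      simpa [η, hw] using this
  · intro J' c
    simpa [η] using hB.parJ J' c
  · intro w' τ
    by_cases hw : w' = w
    · subst hw
      simpa [η] using hpar τ
    · simpa [η, hw] using hB.parH w' τ
  · intro κ hκ s
    simp only [add_eq_left]
    rcases κ with ⟨J', row, b⟩ | ⟨w', side, row, a⟩ | ⟨w', t, row, a⟩
    · rcases s with c | s <;> simp [nvar, η]
    · rcases s with c | s
      · simp only [nvar]
        split_ifs <;> simp [η, hδend]
      · simp [nvar, η]
    · by_cases hw : w' = w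
      · subst hw
        have h0 : t ≠ cut w' := fun h => hfree w' row a (h ▸ hκ)
        have h1 : t ≠ t1 := fun h => ht1 row a (h ▸ hκ)
        have h0' : (t : ℕ) ≠ cut w' := fun h => h0 (Fin.ext h)
        have hz : δ t row a = 0 := by
          simp only [δ, ite_eq_right_iff]
          rintro ⟨h2, rfl⟩
          rcases hρ' with h3 | h3
          · exact h3
          · exact absurd (h3 a t hκ) h2
        rcases s with c | s | s
        · simp only [nvar]
          split_ifs <;> simp [η, hδsucc t row a h0 h1, hz]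
        · simp [nvar, η, h0']
        · simp [nvar, η, h0']
      · rcases s with c | s | s
        · simp only [nvar]
          split_ifs <;> simp [η, hw]
        · simp [nvar, η, hw]
        · simp [nvar, η, hw]

end Vale.Agent.P310
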