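import Vale.Agent.P310.Net2

namespace Vale.Agent.P310

open Function

variable {Jn W Row Reg Val : Type} {L : ℕ} [Fintype Row] [Fintype Reg]
variable {N : Net Jn W Reg Val} {R : Rows Row Reg}

open Classical in
def Rows.Fat (R : Rows Row Reg) : Prop :=
  ∀ j, 3 ≤ (Finset.univ.filter fun row => R.reg row = j).card

omit [Fintype Reg] in
theorem Rows.Fat.three (h : R.Fat) : 3 ≤ Fintype.card Row :=
  (h (R.reg R.r0)).trans (Finset.card_le_univ _)

omit [Fintype Reg] in
theorem blocked_unique (hR : R.Fat) {S : Finset (NK Jn W Row Val L)} {cut : W → Fin L} {J : Jn}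
    {b b' : Reg → Val} (h : N.Blocked R S cut J b) (h' : N.Blocked R S cut J b')
    (hS : S.card ≤ Fintype.card Row + 2) : b = b' := by
  classical
  funext j
  by_contra hne
  let A : Finset (Jn × Row × Val) := Finset.univ.image fun row => (J, row, b (R.reg row))
  let B : Finset (Jn × Row × Val) :=
    (Finset.univ.filter fun row => R.reg row = j).image fun row => (J, row, b' j)
  have hA : A.card = Fintype.card Row := by
    rw [Finset.card_image_of_injective, Finset.card_univ]
    intro x y hxy
    simp only [Prod.mk.injEq] at hxy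
    exact hxy.2.1
  have hB : 3 ≤ B.card := by
    rw [Finset.card_image_of_injective]
    · convert hR j
    · intro x y hxy
      simp only [Prod.mk.injEq] at hxy
      exact hxy.2.1
  have hd : Disjoint A B := by
    rw [Finset.disjoint_left]
    intro p hp hq
    simp only [A, B, Finset.mem_image, Finset.mem_univ, true_and, Finset.mem_filter] at hp hq
    obtain ⟨row, rfl⟩ := hp
    obtain ⟨row', h1, h2⟩ := hq
    simp only [Prod.mk.injEq, true_and] at h2
    obtain ⟨rfl, h3⟩ := h2
    rw [h1] at h3
    exact hne h3.symm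
  have hsub : A ∪ B ⊆ S.image (N.loc R cut) := by
    intro p hp
    simp only [A, B, Finset.mem_union, Finset.mem_image, Finset.mem_univ, true_and,
      Finset.mem_filter] at hp
    rcases hp with ⟨row, rfl⟩ | ⟨row, h1, rfl⟩
    · obtain ⟨κ, hκ, he⟩ := h row
      exact Finset.mem_image.2 ⟨κ, hκ, he⟩
    · obtain ⟨κ, hκ, he⟩ := h' row
      exact Finset.mem_image.2 ⟨κ, hκ, by rw [he, h1]⟩
  have := Finset.card_le_card hsub
  rw [Finset.card_union_of_disjoint hd] at this
  have := Finset.card_image_le (s := S) (f := N.loc R cut)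
  omega

omit [Fintype Reg] in
theorem blocked_two (hR : R.Fat) {S : Finset (NK Jn W Row Val L)} {cut : W → Fin L} {J J' : Jn}
    {b b' : Reg → Val} (h : N.Blocked R S cut J b) (h' : N.Blocked R S cut J' b')
    (hS : S.card ≤ Fintype.card Row + 2) : J = J' := by
  classical
  by_contra hne
  let A : Finset (Jn × Row × Val) := Finset.univ.image fun row => (J, row, b (R.reg row))
  let B : Finset (Jn × Row × Val) := Finset.univ.image fun row => (J', row, b' (R.reg row))
  have hA : A.card = Fintype.card Row := by
    rw [Finset.card_image_of_injective, Finset.card_univ]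
    intro x y hxy
    simp only [Prod.mk.injEq] at hxy
    exact hxy.2.1
  have hB : B.card = Fintype.card Row := by
    rw [Finset.card_image_of_injective, Finset.card_univ]
    intro x y hxy
    simp only [Prod.mk.injEq] at hxy
    exact hxy.2.1
  have hd : Disjoint A B := by
    rw [Finset.disjoint_left]
    intro p hp hq
    simp only [A, B, Finset.mem_image, Finset.mem_univ, true_and] at hp hq
    obtain ⟨row, rfl⟩ := hp
    obtain ⟨row', h2⟩ := hq
    simp only [Prod.mk.injEq] at h2
    exact hne h2.1.symm
  have hsub : A ∪ B ⊆ S.image (N.loc R cut) := by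
    intro p hp
    simp only [A, B, Finset.mem_union, Finset.mem_image, Finset.mem_univ, true_and] at hp
    rcases hp with ⟨row, rfl⟩ | ⟨row, rfl⟩
    · obtain ⟨κ, hκ, he⟩ := h row
      exact Finset.mem_image.2 ⟨κ, hκ, he⟩
    · obtain ⟨κ, hκ, he⟩ := h' row
      exact Finset.mem_image.2 ⟨κ, hκ, he⟩
  have := Finset.card_le_card hsub
  rw [Finset.card_union_of_disjoint hd] at this
  have := Finset.card_image_le (s := S) (f := N.loc R cut)
  have := hR.three
  omega

omit [Fintype Row] [Fintype Reg] in
theorem Net.Blocked.mono {S T : Finset (NK Jn W Row Val L)} {cut : W → Fin L} {J : Jn}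
    {b : Reg → Val} (h : N.Blocked R S cut J b) (hST : S ⊆ T) : N.Blocked R T cut J b :=
  fun row => (h row).imp fun _ hκ => ⟨hST hκ.1, hκ.2⟩

def Net.GoodAt (N : Net Jn W Reg Val) (R : Rows Row Reg) (Good : Jn → (Reg → Val) → Set (Fin 5 → F2))
    (S : Finset (NK Jn W Row Val L)) (cut : W → Fin L) (P : Jn → Fin 5 → F2) : Prop :=
  ∀ J b, N.Blocked R S cut J b → P J ∈ Good J b

/-- Prepare the junction `J0` for the future position `(T, cut')`. -/
theorem prepare (hR : R.Fat) {Good : Jn → (Reg → Val) → Set (Fin 5 → F2)} (hG : N.Cons Good)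
    {σ : NV Jn W Row Reg Val → F2} {cut cut' : W → Fin L} {P : Jn → Fin 5 → F2}
    (hB : N.Base R σ cut P) {S T : Finset (NK Jn W Row Val L)} (hfree : Free S cut)
    (hgood : N.GoodAt R Good S cut P) (hT : T.card ≤ Fintype.card Row + 2) (J0 : Jn)
    (h1 : ∀ J b, J ≠ J0 → N.Blocked R T cut' J b → N.Blocked R S cut J b)
    (h2 : ∀ b, N.Blocked R S cut J0 b → N.Blocked R T cut' J0 b) :
    ∃ σ' P', N.Base R σ' cut P' ∧ N.Agree R S σ σ' ∧ N.GoodAt R Good T cut' P' := by
  classical
  by_cases hb : ∃ b, N.Blocked R S cut J0 b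
  · obtain ⟨b0, hb0⟩ := hb
    refine ⟨σ, P, hB, fun _ _ _ => rfl, fun J b hJ => ?_⟩
    by_cases h : J = J0
    · subst h
      rw [blocked_unique hR hJ (h2 _ hb0) hT]
      exact hgood _ _ hb0
    · exact hgood _ _ (h1 _ _ h hJ)
  · by_cases hb' : ∃ b, N.Blocked R T cut' J0 b
    · obtain ⟨b0, hb0⟩ := hb'
      obtain ⟨π', hπ'⟩ := hG.ne J0 b0
      obtain ⟨σ', g1, g2⟩ := retarget hB hfree hb (hG.eqn _ _ _ hπ')
      refine ⟨σ', _, g1, g2, fun J b hJ => ?_⟩
      by_cases h : J = J0
      · subst h
        rw [blocked_unique hR hJ hb0 hT, update_self]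
        exact hπ'
      · rw [update_of_ne h]
        exact hgood _ _ (h1 _ _ h hJ)
    · refine ⟨σ, P, hB, fun _ _ _ => rfl, fun J b hJ => ?_⟩
      by_cases h : J = J0
      · subst h
        exact absurd ⟨b, hJ⟩ hb'
      · exact hgood _ _ (h1 _ _ h hJ)

omit [Fintype Row] [Fintype Reg] in
theorem exists_free_col (T : Finset (NK Jn W Row Val L)) (hT : T.card < L) (w : W) :
    ∃ t1 : Fin L, ∀ row a, NK.cl w t1 row a ∉ T := by
  classical
  by_contra hc
  push Not at hc
  choose row a h using hc
  have : (Finset.univ : Finset (Fin L)).card ≤ T.card := by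
    refine Finset.card_le_card_of_injOn (fun t => NK.cl w t (row t) (a t)) (fun t _ => h t) ?_
    intro t _ t' _ he
    simp only [NK.cl.injEq, true_and] at he
    exact he.1
  simp only [Finset.card_univ, Fintype.card_fin] at this
  omega

theorem net_sound [Nonempty Val] (hR : R.Fat) (hL : Fintype.card Row + 2 < L)
    (hjn : ∀ w, N.jn w false ≠ N.jn w true)
    {Good : Jn → (Reg → Val) → Set (Fin 5 → F2)} (hG : N.Cons Good) :
    ∃ F, (N.xs R L).Strat (Fintype.card Row + 2) F := by
  classical
  have hjn' : ∀ w side, N.jn w side ≠ N.jn w (!side) := by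
    intro w side
    cases side
    · exact hjn w
    · exact (hjn w).symm
  refine ⟨fun S σ => ∃ cut P, N.Base R σ cut P ∧ Free S cut ∧ N.GoodAt R Good S cut P,
    ?_, ?_, ?_, ?_⟩
  · choose P hP using fun J => hG.ne J (fun _ => Classical.arbitrary Val)
    let cut : W → Fin L := fun _ => ⟨0, by omega⟩
    let σ : NV Jn W Row Reg Val → F2 := fun v => match v with
      | .jv J c row _ => if row = R.r0 then P J c else 0
      | .hv w τ row _ => if row = R.r0 then
          P (N.jn w (sd (cut w) τ)) (N.cmp w (sd (cut w) τ)) else 0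
      | _ => 0
    refine ⟨σ, cut, P, ⟨?_, ?_, ?_, ?_, ?_, fun J => hG.eqn _ _ _ (hP J)⟩, ?_, ?_⟩
    · intro J row b
      rw [sat_jc]
      simp only [σ]
      split_ifs
      · exact hG.eqn _ _ _ (hP J)
      · simp
    · intro w side row a
      rw [sat_lk]
      simp only [σ, sd_end]
    · intro w t row a ht
      rw [sat_cl]
      have h2 : sd (cut w) (t + 1) = sd (cut w) t := sd_succ (fun h => ht (Fin.ext h))
      simp only [σ, h2, CharTwo.add_self_eq_zero, Rows.gauge]
      simp
    · intro J c c'
      simp [σ]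
    · intro w τ c'
      simp [σ]
    · intro w row a
      simp
    · intro J b hb
      obtain ⟨κ, hκ, -⟩ := hb R.r0
      simp at hκ
  · rintro S T σ hST ⟨cut, P, h1, h2, h3⟩
    exact ⟨cut, P, h1, fun w row a h => h2 w row a (hST h), fun J b hb => h3 J b (hb.mono hST)⟩
  · rintro S σ ⟨cut, P, h1, h2, h3⟩ κ hκ
    rcases κ with ⟨J', row, b⟩ | ⟨w, side, row, a⟩ | ⟨w, t, row, a⟩
    · exact h1.satJ _ _ _
    · exact h1.satL _ _ _ _
    · exact h1.satC _ _ _ _ fun h => h2 w row a (h ▸ hκ)
  · rintro S σ ⟨cut, P, hB, hfree, hgood⟩ hcard κ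
    have hT : (insert κ S).card ≤ Fintype.card Row + 2 := by
      have := Finset.card_insert_le κ S
      omega
    suffices h : ∃ σ' cut' P', N.Base R σ' cut' P' ∧ Free (insert κ S) cut' ∧
        N.GoodAt R Good (insert κ S) cut' P' ∧ N.Agree R S σ σ' by
      obtain ⟨σ', cut', P', g1, g2, g3, g4⟩ := h
      exact ⟨insert κ S, σ', ⟨cut', P', g1, g2, g3⟩, Finset.mem_insert_self _ _,
        Finset.subset_insert _ _, g4⟩
    by_cases hκ : ∃ w row a, κ = NK.cl w (cut w) row a
    · obtain ⟨w, row0, a0, rfl⟩ := hκ
      obtain ⟨t1, ht1⟩ := exists_free_col (insert (NK.cl w (cut w) row0 a0) S) (by omega) w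
      have hne : t1 ≠ cut w := fun h => ht1 row0 a0 (h ▸ Finset.mem_insert_self _ _)
      have hne' : (t1 : ℕ) ≠ cut w := fun h => hne (Fin.ext h)
      have ht1S : ∀ row a, NK.cl w t1 row a ∉ S := fun row a h =>
        ht1 row a (Finset.mem_insert_of_mem h)
      have hfree' : Free (insert (NK.cl w (cut w) row0 a0) S) (update cut w t1) := by
        intro w' row a
        by_cases hw : w' = w
        · subst hw
          simpa only [update_self] using ht1 row a
        · rw [update_of_ne hw, Finset.mem_insert, not_or]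
          refine ⟨?_, hfree w' row a⟩
          intro he
          simp only [NK.cl.injEq] at he
          exact hw he.1
      set sn : Bool := sd t1 (cut w) with hsn
      have hseg : ∀ t : ℕ, sd (cut w) t ≠ sd t1 t → sd t1 t = sn ∧ sd (cut w) t = !sn := by
        intro t ht
        simp only [sd, hsn, ne_eq, decide_eq_decide] at ht ⊢
        refine ⟨by omega, ?_⟩
        by_cases h : (t1 : ℕ) < cut w
        · simp only [h, decide_true, Bool.not_true, decide_eq_false_iff_not]
          omega
        · simp only [h, decide_false, Bool.not_false, decide_eq_true_eq]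
          omega
      have hloc : ∀ κ' : NK Jn W Row Val L, N.loc R (update cut w t1) κ' = N.loc R cut κ' ∨
          ((N.loc R (update cut w t1) κ').1 = N.jn w sn ∧ (N.loc R cut κ').1 = N.jn w (!sn)) := by
        intro κ'
        rcases κ' with ⟨J', row, b⟩ | ⟨w', side, row, a⟩ | ⟨w', t, row, a⟩
        · exact Or.inl rfl
        · exact Or.inl rfl
        · by_cases hw : w' = w
          · subst hw
            simp only [Net.loc, update_self]
            by_cases h : sd (cut w') t = sd t1 t
            · rw [h]
              exact Or.inl rfl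
            · rw [(hseg t h).1, (hseg t h).2]
              exact Or.inr ⟨rfl, rfl⟩
          · simp only [Net.loc, update_of_ne hw]
            exact Or.inl trivial
      have h1 : ∀ J b, J ≠ N.jn w sn →
          N.Blocked R (insert (NK.cl w (cut w) row0 a0) S) (update cut w t1) J b →
          N.Blocked R S cut J b := by
        intro J b hJ hb row
        obtain ⟨κ', hκ', he⟩ := hb row
        rcases Finset.mem_insert.1 hκ' with rfl | hκ'
        · simp only [Net.loc, update_self, ← hsn, Prod.mk.injEq] at he
          exact absurd he.1.symm hJ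
        · rcases hloc κ' with h | h
          · exact ⟨κ', hκ', h ▸ he⟩
          · rw [he] at h
            exact absurd h.1 hJ
      have h2 : ∀ b, N.Blocked R S cut (N.jn w sn) b →
          N.Blocked R (insert (NK.cl w (cut w) row0 a0) S) (update cut w t1) (N.jn w sn) b := by
        intro b hb row
        obtain ⟨κ', hκ', he⟩ := hb row
        refine ⟨κ', Finset.mem_insert_of_mem hκ', ?_⟩
        rcases hloc κ' with h | h
        · exact h.trans he
        · rw [he] at h
          exact absurd h.2 (hjn' w sn)
      by_cases hblk : ∃ c : Reg → Val, ∀ row, ∃ t : Fin L, NK.cl w t row (c (R.reg row)) ∈ S ∧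
          sd (cut w) t ≠ sd t1 t
      · obtain ⟨c, hc⟩ := hblk
        have b1 : N.Blocked R S cut (N.jn w (!sn)) (fun j => N.mp w (!sn) j (c j)) := by
          intro row
          obtain ⟨t, ht, hs⟩ := hc row
          exact ⟨_, ht, by simp only [Net.loc, (hseg t hs).2]⟩
        have b2 : N.Blocked R (insert (NK.cl w (cut w) row0 a0) S) (update cut w t1) (N.jn w sn)
            (fun j => N.mp w sn j (c j)) := by
          intro row
          obtain ⟨t, ht, hs⟩ := hc row
          exact ⟨_, Finset.mem_insert_of_mem ht, by simp only [Net.loc, update_self, (hseg t hs).1]⟩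
        obtain ⟨π', hπ', hc'⟩ := hG.tr w (!sn) c _ (hgood _ _ b1)
        simp only [Bool.not_not] at hπ' hc'
        have hnb : ¬ ∃ b, N.Blocked R S cut (N.jn w sn) b := by
          rintro ⟨b, hb⟩
          exact hjn' w sn (blocked_two hR hb b1 (by omega))
        obtain ⟨σ1, g1, g2⟩ := retarget hB hfree hnb (hG.eqn _ _ _ hπ')
        obtain ⟨σ2, k1, k2⟩ := movecut g1 hfree ht1S hne (Or.inl (by
          have e1 := hjn w
          clear_value sn
          cases sn
          · simp only [update_self, update_of_ne e1.symm]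
            exact hc'
          · simp only [update_self, update_of_ne e1]
            exact hc'.symm))
        refine ⟨σ2, _, _, k1, hfree', ?_, g2.trans k2⟩
        intro J b hJ
        by_cases h : J = N.jn w sn
        · subst h
          rw [blocked_unique hR hJ b2 hT, update_self]
          exact hπ'
        · rw [update_of_ne h]
          exact hgood _ _ (h1 _ _ h hJ)
      · obtain ⟨σ1, P1, g1, g2, g3⟩ := prepare hR hG hB hfree hgood hT _ h1 h2
        obtain ⟨σ2, k1, k2⟩ := movecut g1 hfree ht1S hne (Or.inr hblk)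
        exact ⟨σ2, _, _, k1, hfree', g3, g2.trans k2⟩
    · obtain ⟨σ1, P1, g1, g2, g3⟩ := prepare (T := insert κ S) (cut' := cut) hR hG hB hfree hgood hT
        (N.loc R cut κ).1 (by
          intro J b hJ hb row
          obtain ⟨κ', hκ', he⟩ := hb row
          rcases Finset.mem_insert.1 hκ' with rfl | hκ'
          · rw [he] at hJ
            exact absurd rfl hJ
          · exact ⟨κ', hκ', he⟩) (fun b hb => hb.mono (Finset.subset_insert _ _))
      refine ⟨σ1, cut, P1, g1, ?_, g3, g2⟩
      intro w row a h
      rcases Finset.mem_insert.1 h with h | h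
      · exact hκ ⟨w, row, a, h.symm⟩
      · exact hfree w row a h

end Vale.Agent.P310
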