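import Vale.Agent.P310.Graph

namespace Vale.Agent.P310

set_option linter.unusedSectionVars false

open Function

abbrev Ps (K : ℕ) : Type := Fin (K + 1) ⊕ Bool × Fin 9
abbrev Big (K : ℕ) : Type := Fin K ⊕ Ps K
abbrev Rg (K : ℕ) : Type := (Bool × Big K) ⊕ Fin 6
abbrev EE : Type := (Bool × Fin 9) × (Bool × Fin 9)
abbrev Tid (K : ℕ) : Type := Fin 8 ⊕ (Fin 5 × Rg K) ⊕ EE ⊕ (Bool × Bool × Bool)

variable {K N : ℕ}

def rB (b : Bool) (x : Big K) : Rg K := .inl (b, x)
def rT (b : Bool) (i : Fin K) : Rg K := .inl (b, .inl i)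
def rP (b : Bool) (x : Ps K) : Rg K := .inl (b, .inr x)
def rH (b : Bool) (i : Fin (K + 1)) : Rg K := rP b (.inl i)
def rD (b e : Bool) (i : Fin 9) : Rg K := rP b (.inr (e, i))
def rG (i : Fin 6) : Rg K := .inr i

def idx : Rg K → ℕ
  | .inl (_, .inl i) => i
  | .inl (_, .inr (.inl i)) => i
  | .inl (_, .inr (.inr (_, i))) => i
  | .inr _ => 0

structure Tabs (N : ℕ) where
  vals : Fin 5 → ℕ
  CH : EE → Fin N → Fin N → Fin N → Prop
  OUT : Bool → Bool → Bool → Fin N → Fin N → Prop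
  TR : Fin N → Fin N → Fin N → Fin N → Fin N → Prop
  ACC : Fin N → Prop
  BLK : Fin N → Prop

def Tabs.table (T : Tabs N) : Tid K → (Fin 5 → Fin N) → Prop
  | .inl i, x => ![True, x 0 = x 1, (x 0).val + 1 = (x 1).val, (x 0).val + 1 = N, (x 0).val = 0,
      T.TR (x 0) (x 1) (x 2) (x 3) (x 4), T.ACC (x 0), T.BLK (x 0)] i
  | .inr (.inl (w, j)), x => (x 0).val = T.vals w / N ^ idx j % N
  | .inr (.inr (.inl e)), x => T.CH e (x 0) (x 1) (x 2)
  | .inr (.inr (.inr (g, b, b'))), x => T.OUT g b b' (x 0) (x 1)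

abbrev FM (K : ℕ) : Type := Fm (Rg K) (Tid K)

def fTT : FM K := atomT (.inl 0) (fun _ => rG 0) true
def fFF : FM K := atomT (.inl 0) (fun _ => rG 0) false
def fEq (a b : Rg K) : FM K := atomT (.inl 1) ![a, b, b, b, b] true
def fInc (a b : Rg K) : FM K := atomT (.inl 2) ![a, b, b, b, b] true
def fMax (a : Rg K) : FM K := atomT (.inl 3) (fun _ => a) true
def fZero (a : Rg K) : FM K := atomT (.inl 4) (fun _ => a) true
def fTr : FM K := atomT (.inl 5) ![rG 1, rG 2, rG 3, rG 4, rG 0] true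
def fAcc : FM K := atomT (.inl 6) (fun _ => rG 0) true
def fBlk : FM K := atomT (.inl 7) (fun _ => rG 0) true
def fCst (w : Fin 5) (j : Rg K) (pol : Bool) : FM K := atomT (.inr (.inl (w, j))) (fun _ => j) pol
def fChk (e : EE) : FM K :=
  atomT (.inr (.inr (.inl e))) ![rG 5, rP false (.inr e.1), rP false (.inr e.2), rG 5, rG 5] true
def fOut (g b b' : Bool) : FM K :=
  atomT (.inr (.inr (.inr (g, b, b')))) ![rG 5, rG 0, rG 0, rG 0, rG 0] true
def fSelf (e b : Bool) : FM K := .atom (fun i => .inl (rD false e (xi i))) b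

noncomputable def conjF {ι : Type} [Fintype ι] (f : ι → FM K) : FM K :=
  conjL fTT ((Finset.univ : Finset ι).toList.map f)
noncomputable def disjF {ι : Type} [Fintype ι] (f : ι → FM K) : FM K :=
  disjL fFF ((Finset.univ : Finset ι).toList.map f)
noncomputable def eqsF {ι : Type} [Fintype ι] (A B : ι → Rg K) : FM K :=
  conjF fun i => fEq (A i) (B i)
noncomputable def succF : (len : ℕ) → (Fin len → Rg K) → (Fin len → Rg K) → FM K
  | 0, _, _ => fFF
  | len + 1, A, B => .or (.and (fInc (A 0) (B 0)) (eqsF (Fin.tail A) (Fin.tail B)))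
      (.and (fMax (A 0)) (.and (fZero (B 0)) (succF len (Fin.tail A) (Fin.tail B))))
noncomputable def eqC {len : ℕ} (w : Fin 5) (r : Fin len → Rg K) : FM K :=
  conjF fun i => fCst w (r i) true
noncomputable def neC {len : ℕ} (w : Fin 5) (r : Fin len → Rg K) : FM K :=
  disjF fun i => fCst w (r i) false

noncomputable def look (i : Fin 6) : FM K :=
  exsF (rB false) (.ex (rG 0) (.and (eqsF (rB false) (rB true)) (.and (fEq (rG 0) (rG i)) .call)))

noncomputable def succPosF (b b' : Bool) : FM K :=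
  .or (.and (neC 4 (rD b true)) (.and (succF 9 (rD b true) (rD b' true))
      (.and (eqsF (rD b false) (rD b' false)) (eqsF (rH b) (rH b')))))
    (.and (eqC 4 (rD b true)) (.and (eqC 0 (rD b' true))
      (.or (.and (neC 4 (rD b false)) (.and (succF 9 (rD b false) (rD b' false))
          (eqsF (rH b) (rH b'))))
        (.and (eqC 4 (rD b false)) (.and (eqC 0 (rD b' false)) (succF _ (rH b) (rH b')))))))

noncomputable def isZF (b : Bool) : FM K :=
  .and (eqC 2 (rH b)) (.and (eqC 0 (rD b false)) (eqC 0 (rD b true)))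

noncomputable def symF (g : Bool) : FM K :=
  .ex (rG 5) (.and (conjF fChk) (disjF fun bb : Bool × Bool =>
    .and (fSelf false bb.1) (.and (fSelf true bb.2) (fOut g bb.1 bb.2))))

noncomputable def initF : FM K :=
  .or (.and (eqC 2 (rH false)) (symF false)) (.or (.and (eqC 3 (rH false)) (symF true))
    (.and (neC 2 (rH false)) (.and (neC 3 (rH false)) fBlk)))

noncomputable def stepF : FM K :=
  exsF (rT true) (.and (succF K (rT true) (rT false))
    (.ex (rG 1) (.ex (rG 2) (.ex (rG 3) (.ex (rG 4) (.and fTr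
      (.and (exsF (rP true) (.and (isZF true) (look 1)))
      (.and (exsF (rP true) (.and (succPosF true false) (look 2)))
      (.and (exsF (rP true) (.and (eqsF (rP true) (rP false)) (look 3)))
        (exsF (rP true) (.and (succPosF false true) (look 4))))))))))))

noncomputable def prog (K : ℕ) : Prog (Rg K) (Tid K) where
  Φ := .or (.and (eqC 0 (rT false)) initF) stepF
  A := .and (eqC 1 (rT false)) (.and (isZF false) (.and fAcc .call))

def hN (p : Ps K → Fin N) : ℕ := num fun i => p (.inl i)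
def uD (p : Ps K → Fin N) (e : Bool) : Fin 9 → Fin N := fun i => p (.inr (e, i))
def dN (p : Ps K → Fin N) (e : Bool) : ℕ := num (uD p e)

def SuccP (n : ℕ) (p p' : Ps K → Fin N) : Prop :=
  (dN p true ≠ n - 1 ∧ dN p true + 1 = dN p' true ∧ dN p false = dN p' false ∧ hN p = hN p') ∨
  (dN p true = n - 1 ∧ dN p' true = 0 ∧
    ((dN p false ≠ n - 1 ∧ dN p false + 1 = dN p' false ∧ hN p = hN p') ∨
    (dN p false = n - 1 ∧ dN p' false = 0 ∧ hN p + 1 = hN p')))

def IsZ (p : Ps K → Fin N) : Prop := hN p = N ^ K ∧ dN p false = 0 ∧ dN p true = 0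

def fac (Y : (Fin K → Fin N) → (Ps K → Fin N) → Fin N → Prop) (c : Rg K → Fin N) : Prop :=
  Y (c ∘ rT false) (c ∘ rP false) (c (rG 0))

structure Tabs.OK (T : Tabs N) (K n : ℕ) : Prop where
  two : 2 ≤ N
  npos : 0 < n
  nle : n ≤ N ^ 9
  v0 : T.vals 0 = 0
  v1 : T.vals 1 = N ^ K - 1
  v2 : T.vals 2 = N ^ K
  v3 : T.vals 3 = N ^ K + 1
  v4 : T.vals 4 = n - 1
  kpos : 0 < K

variable [NeZero N]

def Tabs.dat (T : Tabs N) (code : Tid K → Fin N) : Dat (Tid K) (Fin N) := mkDat code T.table 0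

def Tabs.SymS (T : Tabs N) (code : Tid K → Fin N) (g : Bool) (p : Ps K → Fin N) (γ : Fin N) : Prop :=
  ∃ y, (∀ e : EE, T.CH e y (p (.inr e.1)) (p (.inr e.2))) ∧ ∃ b b' : Bool,
    ((T.dat code).ρ (uD p false ∘ xi) ↔ b = true) ∧ ((T.dat code).ρ (uD p true ∘ xi) ↔ b' = true) ∧
    T.OUT g b b' y γ

def Tabs.InitS (T : Tabs N) (code : Tid K → Fin N) (p : Ps K → Fin N) (γ : Fin N) : Prop :=
  (hN p = N ^ K ∧ T.SymS code false p γ) ∨ (hN p = N ^ K + 1 ∧ T.SymS code true p γ) ∨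
    (hN p ≠ N ^ K ∧ hN p ≠ N ^ K + 1 ∧ T.BLK γ)

def Tabs.StepS (T : Tabs N) (n : ℕ) (Y : (Fin K → Fin N) → (Ps K → Fin N) → Fin N → Prop)
    (tv : Fin K → Fin N) (p : Ps K → Fin N) (γ : Fin N) : Prop :=
  ∃ tv' : Fin K → Fin N, num tv' + 1 = num tv ∧ ∃ γ1 γ2 γ3 γ4, T.TR γ1 γ2 γ3 γ4 γ ∧
    (∃ p', IsZ p' ∧ Y tv' p' γ1) ∧ (∃ p', SuccP n p' p ∧ Y tv' p' γ2) ∧ Y tv' p γ3 ∧
    ∃ p', SuccP n p p' ∧ Y tv' p' γ4

section
variable {T : Tabs N} {code : Tid K → Fin N} (hc : Injective code) {X : (Rg K → Fin N) → Prop}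
include hc

theorem ev_fTT (c : Rg K → Fin N) : Ev (T.dat code) X fTT c := by
  simp [fTT, Tabs.dat, ev_atomT hc, Tabs.table]

theorem ev_fFF (c : Rg K → Fin N) : ¬ Ev (T.dat code) X fFF c := by
  simp [fFF, Tabs.dat, ev_atomT hc, Tabs.table]

theorem ev_fEq (a b : Rg K) (c : Rg K → Fin N) : Ev (T.dat code) X (fEq a b) c ↔ c a = c b := by
  simp [fEq, Tabs.dat, ev_atomT hc, Tabs.table]

theorem ev_fInc (a b : Rg K) (c : Rg K → Fin N) :
    Ev (T.dat code) X (fInc a b) c ↔ (c a).val + 1 = (c b).val := by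
  simp [fInc, Tabs.dat, ev_atomT hc, Tabs.table]

theorem ev_fMax (a : Rg K) (c : Rg K → Fin N) :
    Ev (T.dat code) X (fMax a) c ↔ (c a).val + 1 = N := by
  simp [fMax, Tabs.dat, ev_atomT hc, Tabs.table]

theorem ev_fZero (a : Rg K) (c : Rg K → Fin N) :
    Ev (T.dat code) X (fZero a) c ↔ (c a).val = 0 := by
  simp only [fZero, Tabs.dat, ev_atomT hc, Tabs.table]
  simp

theorem ev_fTr (c : Rg K → Fin N) : Ev (T.dat code) X fTr c ↔
    T.TR (c (rG 1)) (c (rG 2)) (c (rG 3)) (c (rG 4)) (c (rG 0)) := by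
  simp [fTr, Tabs.dat, ev_atomT hc, Tabs.table]

theorem ev_fAcc (c : Rg K → Fin N) : Ev (T.dat code) X fAcc c ↔ T.ACC (c (rG 0)) := by
  simp [fAcc, Tabs.dat, ev_atomT hc, Tabs.table]

theorem ev_fBlk (c : Rg K → Fin N) : Ev (T.dat code) X fBlk c ↔ T.BLK (c (rG 0)) := by
  simp [fBlk, Tabs.dat, ev_atomT hc, Tabs.table]

theorem ev_fCst (w : Fin 5) (j : Rg K) (pol : Bool) (c : Rg K → Fin N) :
    Ev (T.dat code) X (fCst w j pol) c ↔ ((c j).val = T.vals w / N ^ idx j % N ↔ pol = true) := by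
  simp [fCst, Tabs.dat, ev_atomT hc, Tabs.table]

theorem ev_fChk (e : EE) (c : Rg K → Fin N) : Ev (T.dat code) X (fChk e) c ↔
    T.CH e (c (rG 5)) (c (rP false (.inr e.1))) (c (rP false (.inr e.2))) := by
  simp [fChk, Tabs.dat, ev_atomT hc, Tabs.table]

theorem ev_fOut (g b b' : Bool) (c : Rg K → Fin N) : Ev (T.dat code) X (fOut g b b') c ↔
    T.OUT g b b' (c (rG 5)) (c (rG 0)) := by
  simp [fOut, Tabs.dat, ev_atomT hc, Tabs.table]

omit hc in
theorem ev_fSelf (e b : Bool) (c : Rg K → Fin N) : Ev (T.dat code) X (fSelf e b) c ↔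
    ((T.dat code).ρ (uD (c ∘ rP false) e ∘ xi) ↔ b = true) := Iff.rfl

theorem ev_conjF {ι : Type} [Fintype ι] (f : ι → FM K) (c : Rg K → Fin N) :
    Ev (T.dat code) X (conjF f) c ↔ ∀ i, Ev (T.dat code) X (f i) c := by
  simp [conjF, ev_conjL (ev_fTT hc c)]

theorem ev_disjF {ι : Type} [Fintype ι] (f : ι → FM K) (c : Rg K → Fin N) :
    Ev (T.dat code) X (disjF f) c ↔ ∃ i, Ev (T.dat code) X (f i) c := by
  simp [disjF, ev_disjL (ev_fFF hc c)]

theorem ev_eqsF {ι : Type} [Fintype ι] (A B : ι → Rg K) (c : Rg K → Fin N) :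
    Ev (T.dat code) X (eqsF A B) c ↔ c ∘ A = c ∘ B := by
  simp [eqsF, ev_conjF hc, ev_fEq hc, funext_iff]

theorem ev_succF : ∀ (len : ℕ) (A B : Fin len → Rg K) (c : Rg K → Fin N),
    Ev (T.dat code) X (succF len A B) c ↔ num (c ∘ A) + 1 = num (c ∘ B)
  | 0, A, B, c => by
    simp [succF, ev_fFF hc, num]
  | len + 1, A, B, c => by
    simp only [succF, ev_or, ev_and, ev_fInc hc, ev_eqsF hc, ev_fMax hc, ev_fZero hc,
      ev_succF len]
    rw [num_succ (c ∘ A), num_succ (c ∘ B), succ_digit (Fin.is_lt _) (Fin.is_lt _), num_inj]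
    rfl

theorem ev_eqC {len : ℕ} (w : Fin 5) (r : Fin len → Rg K) (hr : ∀ i, idx (r i) = i)
    (hw : T.vals w < N ^ len) (c : Rg K → Fin N) :
    Ev (T.dat code) X (eqC w r) c ↔ num (c ∘ r) = T.vals w := by
  simp [eqC, ev_conjF hc, ev_fCst hc, num_eq_iff hw, hr]

theorem ev_neC {len : ℕ} (w : Fin 5) (r : Fin len → Rg K) (hr : ∀ i, idx (r i) = i)
    (hw : T.vals w < N ^ len) (c : Rg K → Fin N) :
    Ev (T.dat code) X (neC w r) c ↔ num (c ∘ r) ≠ T.vals w := by
  simp [neC, ev_disjF hc, ev_fCst hc, num_eq_iff hw, hr]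

end

omit [NeZero N] in
theorem Tabs.OK.bounds {T : Tabs N} {n : ℕ} (h : T.OK K n) :
    T.vals 0 < N ^ 9 ∧ T.vals 4 < N ^ 9 ∧ T.vals 0 < N ^ K ∧ T.vals 1 < N ^ K ∧
      T.vals 2 < N ^ (K + 1) ∧ T.vals 3 < N ^ (K + 1) := by
  have h2 := h.two
  have h3 := h.npos
  have h4 := h.nle
  have h5 : 0 < N ^ K := by positivity
  have h6 : 2 ≤ N ^ K := h2.trans (Nat.le_self_pow h.kpos.ne' N)
  have h7 : N ^ K * 2 ≤ N ^ K * N := Nat.mul_le_mul_left _ h2
  rw [h.v0, h.v1, h.v2, h.v3, h.v4, pow_succ N K]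
  omega

section
variable {T : Tabs N} {code : Tid K → Fin N} (hc : Injective code) {n : ℕ} (hT : T.OK K n)
  {X : (Rg K → Fin N) → Prop}
include hc hT

theorem ev_succPosF (b b' : Bool) (c : Rg K → Fin N) :
    Ev (T.dat code) X (succPosF b b') c ↔ SuccP n (c ∘ rP b) (c ∘ rP b') := by
  obtain ⟨h0, h4, -, -, -, -⟩ := hT.bounds
  simp only [succPosF, ev_or, ev_and, ev_neC hc 4 (rD _ _) (fun _ => rfl) h4,
    ev_eqC hc 4 (rD _ _) (fun _ => rfl) h4, ev_eqC hc 0 (rD _ _) (fun _ => rfl) h0, ev_succF hc,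
    ev_eqsF hc, hT.v0, hT.v4, ← num_inj]
  rfl

theorem ev_isZF (b : Bool) (c : Rg K → Fin N) :
    Ev (T.dat code) X (isZF b) c ↔ IsZ (c ∘ rP b) := by
  obtain ⟨h0, -, -, -, h2, -⟩ := hT.bounds
  simp only [isZF, ev_and, ev_eqC hc 2 (rH _) (fun _ => rfl) h2,
    ev_eqC hc 0 (rD _ _) (fun _ => rfl) h0, hT.v0, hT.v2]
  rfl

omit hc hT in
theorem upd_rP [DecidableEq (Rg K)] (c : Rg K → Fin N) (i : Fin 6) (a : Fin N) (b : Bool) :
    update c (rG i) a ∘ rP b = c ∘ rP b := by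
  funext x
  simp [rG, rP]

omit hc hT in
theorem upd_rT [DecidableEq (Rg K)] (c : Rg K → Fin N) (i : Fin 6) (a : Fin N) (b : Bool) :
    update c (rG i) a ∘ rT b = c ∘ rT b := by
  funext x
  simp [rG, rT]

omit hc hT in
theorem upd_rB [DecidableEq (Rg K)] (c : Rg K → Fin N) (i : Fin 6) (a : Fin N) (b : Bool) :
    update c (rG i) a ∘ rB b = c ∘ rB b := by
  funext x
  simp [rG, rB]

omit hc hT in
theorem upd_rG [DecidableEq (Rg K)] (c : Rg K → Fin N) (i j : Fin 6) (a : Fin N) :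
    update c (rG i) a (rG j) = if j = i then a else c (rG j) := by
  rw [update_apply]
  simp [rG]

omit hT in
theorem ev_symF (g : Bool) (c : Rg K → Fin N) :
    Ev (T.dat code) X (symF g) c ↔ T.SymS code g (c ∘ rP false) (c (rG 0)) := by
  simp only [symF, ev_ex, ev_and, ev_conjF hc, ev_disjF hc, ev_fChk hc, ev_fSelf, ev_fOut hc,
    upd_rP, upd_rG, Tabs.SymS, Prod.exists]
  refine exists_congr fun y => and_congr (forall_congr' fun e => ?_) ?_
  · simp [rG, rP]
  · simp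

theorem ev_initF (c : Rg K → Fin N) :
    Ev (T.dat code) X initF c ↔ T.InitS code (c ∘ rP false) (c (rG 0)) := by
  obtain ⟨-, -, -, -, h2, h3⟩ := hT.bounds
  simp only [initF, ev_or, ev_and, ev_eqC hc 2 (rH _) (fun _ => rfl) h2,
    ev_eqC hc 3 (rH _) (fun _ => rfl) h3, ev_neC hc 2 (rH _) (fun _ => rfl) h2,
    ev_neC hc 3 (rH _) (fun _ => rfl) h3, ev_symF hc, ev_fBlk hc, hT.v2, hT.v3]
  rfl

omit hc hT in
theorem rB_inj (b : Bool) : Injective (rB (K := K) b) := fun x y h => by simpa [rB] using h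

omit hc hT in
theorem rT_inj (b : Bool) : Injective (rT (K := K) b) := fun x y h => by simpa [rT] using h

omit hc hT in
theorem rP_inj (b : Bool) : Injective (rP (K := K) b) := fun x y h => by simpa [rP] using h

omit hT in
theorem ev_look (Y : (Fin K → Fin N) → (Ps K → Fin N) → Fin N → Prop) {i : Fin 6} (hi : i ≠ 0)
    (c : Rg K → Fin N) :
    Ev (T.dat code) (fac Y) (look i) c ↔ Y (c ∘ rT true) (c ∘ rP true) (c (rG i)) := by
  simp only [look, ev_exsF (rB_inj false), ev_ex, ev_and, ev_eqsF hc, ev_fEq hc, ev_call, fac,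
    upd_rP, upd_rT, upd_rB, upd_rG, if_true, if_neg hi]
  have e1 : ∀ f : Big K → Fin N, extend (rB false) f c ∘ rB false = f :=
    fun f => extend_comp (rB_inj false) f c
  have e2 : ∀ f : Big K → Fin N, extend (rB false) f c ∘ rB true = c ∘ rB true := by
    intro f
    funext x
    exact extend_apply' _ _ _ (by simp [rB])
  have e3 : ∀ f : Big K → Fin N, extend (rB false) f c (rG i) = c (rG i) :=
    fun f => extend_apply' _ _ _ (by simp [rB, rG])
  have e4 : ∀ f : Big K → Fin N, extend (rB false) f c ∘ rT false = f ∘ Sum.inl :=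
    fun f => funext fun x => (rB_inj false).extend_apply f c (.inl x)
  have e5 : ∀ f : Big K → Fin N, extend (rB false) f c ∘ rP false = f ∘ Sum.inr :=
    fun f => funext fun x => (rB_inj false).extend_apply f c (.inr x)
  simp only [e1, e2, e3, e4, e5, exists_and_left, exists_eq_left]
  rfl

theorem ev_stepF (Y : (Fin K → Fin N) → (Ps K → Fin N) → Fin N → Prop) (c : Rg K → Fin N) :
    Ev (T.dat code) (fac Y) stepF c ↔ T.StepS n Y (c ∘ rT false) (c ∘ rP false) (c (rG 0)) := by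
  have e1 : ∀ (f : Fin K → Fin N) (c : Rg K → Fin N), extend (rT true) f c ∘ rT true = f :=
    fun f c => extend_comp (rT_inj true) f c
  have e2 : ∀ (f : Fin K → Fin N) (c : Rg K → Fin N),
      extend (rT true) f c ∘ rT false = c ∘ rT false :=
    fun f c => funext fun x => extend_apply' _ _ _ (by simp [rT])
  have e3 : ∀ (f : Fin K → Fin N) (c : Rg K → Fin N) b,
      extend (rT true) f c ∘ rP b = c ∘ rP b :=
    fun f c b => funext fun x => extend_apply' _ _ _ (by simp [rT, rP])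
  have e4 : ∀ (f : Fin K → Fin N) (c : Rg K → Fin N) i, extend (rT true) f c (rG i) = c (rG i) :=
    fun f c i => extend_apply' _ _ _ (by simp [rT, rG])
  have g1 : ∀ (f : Ps K → Fin N) (c : Rg K → Fin N), extend (rP true) f c ∘ rP true = f :=
    fun f c => extend_comp (rP_inj true) f c
  have g2 : ∀ (f : Ps K → Fin N) (c : Rg K → Fin N),
      extend (rP true) f c ∘ rP false = c ∘ rP false :=
    fun f c => funext fun x => extend_apply' _ _ _ (by simp [rP])
  have g3 : ∀ (f : Ps K → Fin N) (c : Rg K → Fin N) b,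
      extend (rP true) f c ∘ rT b = c ∘ rT b :=
    fun f c b => funext fun x => extend_apply' _ _ _ (by simp [rT, rP])
  have g4 : ∀ (f : Ps K → Fin N) (c : Rg K → Fin N) i, extend (rP true) f c (rG i) = c (rG i) :=
    fun f c i => extend_apply' _ _ _ (by simp [rP, rG])
  simp only [stepF, ev_exsF (rT_inj true), ev_exsF (rP_inj true), ev_ex, ev_and, ev_succF hc,
    ev_fTr hc, ev_isZF hc hT, ev_succPosF hc hT, ev_eqsF hc,
    ev_look hc Y (show (1 : Fin 6) ≠ 0 by decide), ev_look hc Y (show (2 : Fin 6) ≠ 0 by decide),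
    ev_look hc Y (show (3 : Fin 6) ≠ 0 by decide), ev_look hc Y (show (4 : Fin 6) ≠ 0 by decide),
    upd_rP, upd_rT, upd_rG, e1, e2, e3, e4, g1, g2, g3, g4, exists_eq_left]
  rfl

theorem ev_Phi (Y : (Fin K → Fin N) → (Ps K → Fin N) → Fin N → Prop) (c : Rg K → Fin N) :
    Ev (T.dat code) (fac Y) (prog K).Φ c ↔
      (num (c ∘ rT false) = 0 ∧ T.InitS code (c ∘ rP false) (c (rG 0))) ∨
      T.StepS n Y (c ∘ rT false) (c ∘ rP false) (c (rG 0)) := by
  obtain ⟨-, -, h0, -, -, -⟩ := hT.bounds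
  simp only [prog, ev_or, ev_and, ev_eqC hc 0 (rT _) (fun _ => rfl) h0, ev_initF hc hT,
    ev_stepF hc hT, hT.v0]

theorem ev_A (c : Rg K → Fin N) :
    Ev (T.dat code) X (prog K).A c ↔ num (c ∘ rT false) = N ^ K - 1 ∧ IsZ (c ∘ rP false) ∧
      T.ACC (c (rG 0)) ∧ X c := by
  obtain ⟨-, -, -, h1, -, -⟩ := hT.bounds
  simp only [prog, ev_and, ev_eqC hc 1 (rT _) (fun _ => rfl) h1, ev_isZF hc hT, ev_fAcc hc,
    ev_call, hT.v1]

end

end Vale.Agent.P310
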