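import Vale.Agent.P310.Program
import Vale.Agent.P310.Machine

namespace Vale.Agent.P310

set_option linter.unusedSectionVars false

open Function

variable {K N n : ℕ}

def ValidP (n : ℕ) (p : Ps K → Fin N) : Prop := dN p false < n ∧ dN p true < n

def posP (n : ℕ) (p : Ps K → Fin N) : ℕ := hN p * (n * n) + dN p false * n + dN p true

def offP (n : ℕ) (p : Ps K → Fin N) : ℤ := (posP n p : ℤ) - (N ^ K * (n * n) : ℕ)

theorem SuccP.spec (hn : 0 < n) {p p' : Ps K → Fin N} (h : SuccP n p p') :
    (ValidP n p ↔ ValidP n p') ∧ offP n p' = offP n p + 1 := by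
  obtain ⟨m, rfl⟩ : ∃ m, n = m + 1 := ⟨n - 1, by omega⟩
  have : posP (m + 1) p' = posP (m + 1) p + 1 := by
    unfold posP
    rcases h with ⟨h1, h2, h3, h4⟩ | ⟨h1, h2, ⟨h3, h4, h5⟩ | ⟨h3, h4, h5⟩⟩
    · rw [← h2, h3, h4]
      ring
    · rw [h1, h2, ← h4, h5, Nat.add_sub_cancel]
      ring
    · rw [h1, h2, h3, h4, ← h5, Nat.add_sub_cancel]
      ring
  refine ⟨?_, by unfold offP; rw [this]; push_cast; ring⟩
  unfold ValidP
  unfold SuccP at h
  omega

theorem IsZ.spec (hn : 0 < n) {p : Ps K → Fin N} (h : IsZ p) : ValidP n p ∧ offP n p = 0 := by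
  obtain ⟨h1, h2, h3⟩ := h
  refine ⟨⟨by omega, by omega⟩, ?_⟩
  simp [offP, posP, h1, h2, h3]

theorem exists_pos {h u v : ℕ} (hh : h < N ^ (K + 1)) (hu : u < N ^ 9) (hv : v < N ^ 9) :
    ∃ p : Ps K → Fin N, hN p = h ∧ dN p false = u ∧ dN p true = v := by
  obtain ⟨f, hf⟩ := exists_num hh
  obtain ⟨g, hg⟩ := exists_num hu
  obtain ⟨g', hg'⟩ := exists_num hv
  exact ⟨Sum.elim f fun e => if e.1 then g' e.2 else g e.2, hf, hg, hg'⟩

theorem exists_succP (hN2 : 2 ≤ N) (hn : 0 < n) (hle : n ≤ N ^ 9) {p : Ps K → Fin N}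
    (hp : ValidP n p) (hb : offP n p + 1 < (N ^ K : ℕ)) : ∃ p', SuccP n p p' := by
  have h1 : hN p < N ^ (K + 1) := num_lt _
  obtain ⟨hu, hv⟩ := hp
  by_cases c1 : dN p true = n - 1
  · by_cases c2 : dN p false = n - 1
    · have h2 : hN p + 1 < N ^ (K + 1) := by
        obtain ⟨m, rfl⟩ : ∃ m, n = m + 1 := ⟨n - 1, by omega⟩
        have e : posP (m + 1) p + 1 = (hN p + 1) * ((m + 1) * (m + 1)) := by
          unfold posP
          rw [c1, c2, Nat.add_sub_cancel]
          ring
        unfold offP at hb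
        have h3 : N ^ K ≤ N ^ K * ((m + 1) * (m + 1)) := Nat.le_mul_of_pos_right _ (by positivity)
        have h4 : (hN p + 1) * ((m + 1) * (m + 1)) < (N ^ K * 2) * ((m + 1) * (m + 1)) := by
          rw [mul_right_comm]
          omega
        have h5 := Nat.lt_of_mul_lt_mul_right h4
        have h7 : N ^ K * 2 ≤ N ^ K * N := Nat.mul_le_mul_left _ hN2
        rw [pow_succ]
        omega
      obtain ⟨p', g1, g2, g3⟩ := exists_pos (u := 0) (v := 0) h2 (by omega) (by omega)
      exact ⟨p', Or.inr ⟨c1, g3, Or.inr ⟨c2, g2, g1.symm⟩⟩⟩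
    · obtain ⟨p', g1, g2, g3⟩ := exists_pos (u := dN p false + 1) (v := 0) h1 (by omega) (by omega)
      exact ⟨p', Or.inr ⟨c1, g3, Or.inl ⟨c2, g2.symm, g1.symm⟩⟩⟩
  · obtain ⟨p', g1, g2, g3⟩ := exists_pos (u := dN p false) (v := dN p true + 1) h1 (by omega)
      (by omega)
    exact ⟨p', Or.inl ⟨c1, g3.symm, g2.symm, g1.symm⟩⟩

theorem exists_predP (hn : 0 < n) (hle : n ≤ N ^ 9) {p : Ps K → Fin N}
    (hp : ValidP n p) (hb : -((N ^ K : ℕ) : ℤ) < offP n p) : ∃ p', SuccP n p' p := by
  have h1 : hN p < N ^ (K + 1) := num_lt _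
  obtain ⟨hu, hv⟩ := hp
  by_cases c1 : dN p true = 0
  · by_cases c2 : dN p false = 0
    · have h2 : 0 < hN p := by
        apply Nat.pos_of_ne_zero
        intro h0
        have h3 : N ^ K ≤ N ^ K * (n * n) := Nat.le_mul_of_pos_right _ (by positivity)
        simp only [offP, posP, h0, c1, c2] at hb
        omega
      obtain ⟨p', g1, g2, g3⟩ := exists_pos (N := N) (K := K) (h := hN p - 1) (u := n - 1)
        (v := n - 1) (by omega) (by omega) (by omega)
      exact ⟨p', Or.inr ⟨g3, c1, Or.inr ⟨g2, c2, by omega⟩⟩⟩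
    · obtain ⟨p', g1, g2, g3⟩ := exists_pos (u := dN p false - 1) (v := n - 1) h1 (by omega)
        (by omega)
      exact ⟨p', Or.inr ⟨g3, c1, Or.inl ⟨by omega, by omega, g1⟩⟩⟩
  · obtain ⟨p', g1, g2, g3⟩ := exists_pos (u := dN p false) (v := dN p true - 1) h1 (by omega)
      (by omega)
    exact ⟨p', Or.inl ⟨by omega, by omega, g2, g1⟩⟩

variable [NeZero N] {Row : Type} [Fintype Row] {L : ℕ} (M : TM) (R : Rows Row (Rg K))
  (enc : Code (prog K) L Row → Fin N) (encSt : St (Code (prog K) L Row) → Fin N)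
  (encS : M.Sym → Fin N) (n)

def OutBit (g b b' : Bool) (st : St (Code (prog K) L Row)) : Prop :=
  ∃ (ρ : (Fin 6 → Fin N) → Prop) (d d' : Fin 9 → Fin N), typ enc d d' = st ∧
    (ρ (d ∘ xi) ↔ b = true) ∧ (ρ (d' ∘ xi) ↔ b' = true) ∧ AdjN enc R ρ g d d'

open Classical in
noncomputable def tabs : Tabs N where
  vals := ![0, N ^ K - 1, N ^ K, N ^ K + 1, n - 1]
  CH := fun e y x x' => ∃ st, y = encSt st ∧ st e = info enc x x'
  OUT := fun g b b' y γ => ∃ st, y = encSt st ∧ γ = encS (M.sym0
    (decide (g = false ∧ ∀ a, (st (a, a)).2.1)) (some (decide (OutBit R enc g b b' st))))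
  TR := fun γ1 γ2 γ3 γ4 γ => ∃ s1 s2 s3 s4, γ1 = encS s1 ∧ γ2 = encS s2 ∧ γ3 = encS s3 ∧
    γ4 = encS s4 ∧ γ = encS (M.nxt s1 s2 s3 s4)
  ACC := fun γ => ∃ s, γ = encS s ∧ M.δ s.1 s.2.2 = .inl true
  BLK := fun γ => γ = encS (M.sym0 false none)

def tcode (id : Tid K) : Fin N := enc (.inr id)

noncomputable def rho0 : (Fin 6 → Fin N) → Prop :=
  ((tabs n M R enc encSt encS).dat (tcode enc)).ρ

theorem dat_eq : dat enc (rho0 n M R enc encSt encS) = (tabs n M R enc encSt encS).dat (tcode enc) :=
  rfl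

variable {n M R enc encSt encS}

theorem co_uD (p : Ps K → Fin N) (a : Bool × Fin 9) : co (uD p false) (uD p true) a = p (.inr a) := by
  obtain ⟨_ | _, i⟩ := a <;> rfl

open Classical in
theorem symS_iff (henc : Injective enc) (hSt : Injective encSt) (g : Bool) (p : Ps K → Fin N)
    (γ : Fin N) :
    (tabs n M R enc encSt encS).SymS (tcode enc) g p γ ↔
      γ = encS (M.sym0 (decide (g = false ∧ ∀ a, p (.inr a) = 0))
        (some (decide (AdjN enc R (rho0 n M R enc encSt encS) g (uD p false) (uD p true))))) := by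
  have key : ∀ b b' : Bool, (rho0 n M R enc encSt encS (uD p false ∘ xi) ↔ b = true) →
      (rho0 n M R enc encSt encS (uD p true ∘ xi) ↔ b' = true) →
      (OutBit R enc g b b' (typ enc (uD p false) (uD p true)) ↔
        AdjN enc R (rho0 n M R enc encSt encS) g (uD p false) (uD p true)) := by
    intro b b' h1 h2
    constructor
    · rintro ⟨ρ, d, d', g1, g2, g3, g4⟩
      exact adjN_inv enc R g1 (g2.trans h1.symm) (g3.trans h2.symm) henc g g4
    · intro h
      exact ⟨_, _, _, rfl, h1, h2, h⟩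
  have key2 : (∀ a, (typ enc (uD p false) (uD p true) (a, a)).2.1) ↔ ∀ a, p (.inr a) = 0 := by
    simp only [typ, info, co_uD]
  constructor
  · rintro ⟨y, h1, b, b', h2, h3, st, rfl, rfl⟩
    have : st = typ enc (uD p false) (uD p true) := by
      funext e
      obtain ⟨st', g1, g2⟩ := h1 e
      rw [hSt g1, g2]
      simp only [typ, co_uD]
    subst this
    simp only [key b b' h2 h3, key2]
  · rintro rfl
    refine ⟨encSt (typ enc (uD p false) (uD p true)), fun e => ⟨_, rfl, by simp only [typ, co_uD]⟩,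
      decide (rho0 n M R enc encSt encS (uD p false ∘ xi)),
      decide (rho0 n M R enc encSt encS (uD p true ∘ xi)), decide_eq_true_iff.symm, decide_eq_true_iff.symm,
      _, rfl, ?_⟩
    simp only [key _ _ decide_eq_true_iff.symm decide_eq_true_iff.symm, key2]

theorem num_eq_zero {len : ℕ} (f : Fin len → Fin N) : num f = 0 ↔ ∀ i, f i = 0 := by
  rw [num_eq_iff (Nat.pow_pos (Nat.pos_of_ne_zero (NeZero.ne N)))]
  simp

theorem initS_iff (henc : Injective enc) (hSt : Injective encSt) {G : Bool → SimpleGraph (Fin n)}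
    (hG : ∀ g (u v : Fin n) (d d' : Fin 9 → Fin N), num d = u → num d' = v →
      ((G g).Adj u v ↔ AdjN enc R (rho0 n M R enc encSt encS) g d d'))
    {p : Ps K → Fin N} (hp : ValidP n p) (γ : Fin N) :
    (tabs n M R enc encSt encS).InitS (tcode enc) p γ ↔
      γ = encS (M.cell (input (G false) (G true)) 0 (offP n p)) := by
  classical
  obtain ⟨hu, hv⟩ := hp
  have hlt := pair_lt hu hv
  have hget := fun g => input_get G g ⟨_, hu⟩ ⟨_, hv⟩
  have hadj := fun g => hG g ⟨_, hu⟩ ⟨_, hv⟩ (uD p false) (uD p true) rfl rfl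
  rw [TM.cell_zero, Tabs.InitS, symS_iff henc hSt, symS_iff henc hSt]
  by_cases c1 : hN p = N ^ K
  · have e1 : offP n p = ((dN p false * n + dN p true : ℕ) : ℤ) := by
      simp only [offP, posP, c1]
      push_cast
      ring
    have e2 := hget false
    simp only [Bool.toNat_false, zero_mul, zero_add] at e2
    have e3 : (((dN p false * n + dN p true : ℕ) : ℤ) = 0) ↔ ∀ a, p (.inr a) = 0 := by
      have hn : n ≠ 0 := by omega
      simp only [Nat.cast_eq_zero, Nat.add_eq_zero_iff, mul_eq_zero, hn, or_false, dN,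
        num_eq_zero, uD, Prod.forall, Bool.forall_bool]
    simp only [c1, e1, true_and, Nat.cast_nonneg, if_true, Int.toNat_natCast, e2, e3, hadj]
    simp
  · by_cases c2 : hN p = N ^ K + 1
    · have e1 : offP n p = ((n * n + dN p false * n + dN p true : ℕ) : ℤ) := by
        simp only [offP, posP, c2]
        push_cast
        ring
      have e2 := hget true
      simp only [Bool.toNat_true, one_mul] at e2
      have e3 : ¬ (((n * n + dN p false * n + dN p true : ℕ) : ℤ) = 0) := by omega
      simp only [c2, e1, true_and, Nat.cast_nonneg, if_true, Int.toNat_natCast, e2, e3, hadj]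
      simp
    · have e0 : ¬ offP n p = 0 ∧ (if 0 ≤ offP n p then (input (G false) (G true))[(offP n p).toNat]?
          else none) = none := by
        rcases Nat.lt_or_ge (hN p) (N ^ K) with h | h
        · have h1 : (hN p + 1) * (n * n) ≤ N ^ K * (n * n) := Nat.mul_le_mul_right _ h
          rw [add_mul] at h1
          have : offP n p < 0 := by
            simp only [offP, posP]
            omega
          exact ⟨by omega, if_neg (by omega)⟩
        · have h1 : (N ^ K + 2) * (n * n) ≤ hN p * (n * n) := Nat.mul_le_mul_right _ (by omega)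
          rw [add_mul] at h1
          have : ((2 * (n * n) : ℕ) : ℤ) ≤ offP n p := by
            simp only [offP, posP]
            omega
          refine ⟨by omega, ?_⟩
          rw [if_pos (by omega), List.getElem?_eq_none_iff, input_length]
          omega
      simp only [c1, c2, e0.1, e0.2, false_and, false_or, ne_eq, not_false_eq_true, true_and,
        decide_false]
      rfl

theorem sim_main (henc : Injective enc) (hSt : Injective encSt) (hS : Injective encS)
    (hT : (tabs n M R enc encSt encS).OK K n) {G : Bool → SimpleGraph (Fin n)}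
    (hG : ∀ g (u v : Fin n) (d d' : Fin 9 → Fin N), num d = u → num d' = v →
      ((G g).Adj u v ↔ AdjN enc R (rho0 n M R enc encSt encS) g d d')) :
    (∃ c, Holds (prog K).Φ (dat enc (rho0 n M R enc encSt encS)) (prog K).A c) ↔
      M.HaltedAt (input (G false) (G true)) (N ^ K - 1) true := by
  have hc : Injective (tcode enc) := fun a b h => Sum.inr_injective (henc h)
  have hn := hT.npos
  rw [dat_eq, TM.haltedAt_iff]
  set w := input (G false) (G true) with hw
  constructor
  · rintro ⟨c, hA⟩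
    let Y : (Fin K → Fin N) → (Ps K → Fin N) → Fin N → Prop := fun tv p γ =>
      ValidP n p → γ = encS (M.cell w (num tv) (offP n p))
    have := ev_of_holds (X := fac Y) (by
      intro c h hp
      rw [ev_Phi hc hT] at h
      rcases h with ⟨h1, h2⟩ | ⟨tv', h1, γ1, γ2, γ3, γ4, ⟨s1, s2, s3, s4, rfl, rfl, rfl, rfl, h2⟩,
        ⟨p1, a1, b1⟩, ⟨p2, a2, b2⟩, b3, p4, a4, b4⟩
      · rw [h1]
        exact (initS_iff henc hSt hG hp _).1 h2
      · rw [h2, ← h1, TM.cell_succ, hS (b1 (a1.spec hn).1), hS (b2 ((a2.spec hn).1.2 hp)),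
          hS (b3 hp), hS (b4 ((a4.spec hn).1.1 hp)), (a1.spec hn).2, (a4.spec hn).2,
          (a2.spec hn).2, add_sub_cancel_right]) hA
    rw [ev_A hc hT] at this
    obtain ⟨h1, h2, ⟨s, h3, h4⟩, h5⟩ := this
    have h6 := h5 (h2.spec hn).1
    rw [h1, (h2.spec hn).2, h3] at h6
    rw [← hS h6]
    exact h4
  · intro h
    let Y : ℕ → (Fin K → Fin N) → (Ps K → Fin N) → Fin N → Prop := fun t tv p γ =>
      ValidP n p ∧ num tv < t ∧ |offP n p| + num tv < (N ^ K : ℕ) ∧
        γ = encS (M.cell w (num tv) (offP n p))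
    have hb := hT.bounds
    have hZ : ∃ p : Ps K → Fin N, IsZ p :=
      exists_pos (hT.v2 ▸ hb.2.2.2.2.1) (hT.v0 ▸ hb.1) (hT.v0 ▸ hb.1)
    have main : ∀ t c, fac (Y t) c →
        Holds (prog K).Φ ((tabs n M R enc encSt encS).dat (tcode enc)) .call c := by
      intro t
      induction t with
      | zero => exact fun c h => absurd h.2.1 (Nat.not_lt_zero _)
      | succ t ih =>
        rintro c ⟨h1, h2, h3, h4⟩
        apply Holds.call
        apply holds_of_ev
        apply Ev.mono ih
        rw [ev_Phi hc hT]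
        by_cases h0 : num (c ∘ rT false) = 0
        · left
          rw [h0] at h4
          exact ⟨h0, (initS_iff henc hSt hG h1 _).2 h4⟩
        · right
          have hlt := num_lt (c ∘ rT false)
          obtain ⟨tv', htv⟩ := exists_num (N := N) (len := K) (V := num (c ∘ rT false) - 1)
            (by omega)
          have e : num (c ∘ rT false) = num tv' + 1 := by omega
          have ha := le_abs_self (offP n (c ∘ rP false))
          have ha' := neg_abs_le (offP n (c ∘ rP false))
          obtain ⟨p1, a1⟩ := hZ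
          obtain ⟨p2, a2⟩ := exists_predP hn hT.nle h1 (by omega)
          obtain ⟨p4, a4⟩ := exists_succP hT.two hn hT.nle h1 (by omega)
          have o2 : offP n p2 = offP n (c ∘ rP false) - 1 := by
            have := (a2.spec hn).2
            omega
          have o4 := (a4.spec hn).2
          refine ⟨tv', e.symm, _, _, _, _, ⟨_, _, _, _, rfl, rfl, rfl, rfl, ?_⟩,
            ⟨p1, a1, (a1.spec hn).1, by omega, ?_, rfl⟩,
            ⟨p2, a2, (a2.spec hn).1.2 h1, by omega, ?_, rfl⟩, ⟨h1, by omega, by omega, rfl⟩,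
            p4, a4, (a4.spec hn).1.1 h1, by omega, ?_, rfl⟩
          · rw [h4, e, TM.cell_succ, (a1.spec hn).2, o2, o4]
          · rw [(a1.spec hn).2, abs_zero]
            omega
          · rw [o2]
            have := abs_sub (offP n (c ∘ rP false)) 1
            rw [abs_one] at this
            omega
          · rw [o4]
            have := abs_add_le (offP n (c ∘ rP false)) 1
            rw [abs_one] at this
            omega
    obtain ⟨p, hp⟩ := hZ
    obtain ⟨tv, htv⟩ := exists_num (hT.v1 ▸ hb.2.2.2.1 : N ^ K - 1 < N ^ K)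
    let c : Rg K → Fin N := Sum.elim (fun x => Sum.elim tv p x.2)
      (fun _ => encS (M.cell w (N ^ K - 1) 0))
    refine ⟨c, holds_of_ev _ _ ?_⟩
    rw [ev_A hc hT]
    have hlt := num_lt tv
    refine ⟨htv, hp, ⟨_, rfl, h⟩, main (N ^ K) c ⟨(hp.spec hn).1, hlt, ?_, ?_⟩⟩
    · change |offP n p| + (num tv : ℤ) < _
      rw [(hp.spec hn).2, abs_zero]
      omega
    · change _ = encS (M.cell w (num tv) (offP n p))
      rw [(hp.spec hn).2, htv]
      rfl

end Vale.Agent.P310
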