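import Vale.Agent.P310.Defs

namespace Vale.Agent.P310

open Function

variable {V : Type} [Fintype V]

theorem color_succ_eq {W : Type} [Fintype W] {G : SimpleGraph V} {H : SimpleGraph W} {k r : ℕ}
    {x : Fin k → V} {y : Fin k → W} :
    color G k (r + 1) x = color H k (r + 1) y ↔
      color G k r x = color H k r y ∧
      ((Finset.univ : Finset V).val.map fun u i => color G k r (update x i u)) =
      ((Finset.univ : Finset W).val.map fun u i => color H k r (update y i u)) := by
  simp only [color]
  exact Prod.ext_iff

theorem univ_val_map_equiv {α β γ : Type} [Fintype α] [Fintype β] (φ : α ≃ β) (f : β → γ) :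
    (Finset.univ : Finset β).val.map f = (Finset.univ : Finset α).val.map (f ∘ φ) := by
  rw [← Multiset.map_map]
  congr 1
  have := Finset.univ_map_equiv_to_embedding φ
  rw [← this]
  rfl

theorem color_comap {W : Type} [Fintype W] (φ : W ≃ V) (G : SimpleGraph V) (k : ℕ) :
    ∀ (r : ℕ) (x : Fin k → W), color (G.comap φ) k r x = color G k r (φ ∘ x)
  | 0, x => by
    simp only [color]
    funext i j
    simp [SimpleGraph.comap_adj]
  | r + 1, x => by
    rw [color_succ_eq]
    refine ⟨color_comap φ G k r x, ?_⟩
    rw [univ_val_map_equiv φ]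
    congr 1
    funext u
    funext i
    simp only [Function.comp_apply]
    rw [color_comap φ G k r, Function.comp_update]

theorem wlEquiv_comap {W : Type} [Fintype W] (φ : W ≃ V) (G H : SimpleGraph V) (k : ℕ) :
    WLEquiv k (G.comap φ) (H.comap φ) ↔ WLEquiv k G H := by
  have key : ∀ (G : SimpleGraph V) (r : ℕ),
      (Finset.univ : Finset (Fin k → W)).val.map (color (G.comap φ) k r) =
      (Finset.univ : Finset (Fin k → V)).val.map (color G k r) := by
    intro G r
    rw [univ_val_map_equiv (Equiv.arrowCongr (Equiv.refl (Fin k)) φ)]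
    congr 1
    funext x
    rw [color_comap]
    rfl
  unfold WLEquiv
  simp only [key]

open Classical in
/-- A winning strategy in the bijective game with `k + 1` pebbles gives `k`-WL equivalence. -/
theorem wlEquiv_of_bij (G H : SimpleGraph V) (k : ℕ) (P : Finset (V × V) → Prop)
    (h0 : P ∅) (hmono : ∀ s t, s ⊆ t → P t → P s)
    (hiso : ∀ s, P s → ∀ p ∈ s, ∀ q ∈ s, (p.1 = q.1 ↔ p.2 = q.2) ∧ (G.Adj p.1 q.1 ↔ H.Adj p.2 q.2))
    (hext : ∀ s, P s → s.card ≤ k → ∃ β : V ≃ V, ∀ u, P (insert (u, β u) s)) :
    WLEquiv k G H := by
  have hcol : ∀ (r : ℕ) (x y : Fin k → V), P (Finset.univ.image fun i => (x i, y i)) →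
      color G k r x = color H k r y := by
    intro r
    induction r with
    | zero =>
      intro x y h
      simp only [color]
      funext i j
      have := hiso _ h (x i, y i) (Finset.mem_image.2 ⟨i, Finset.mem_univ _, rfl⟩) (x j, y j)
        (Finset.mem_image.2 ⟨j, Finset.mem_univ _, rfl⟩)
      simp only at this
      rw [Prod.ext_iff]
      exact ⟨propext this.1, propext this.2⟩
    | succ r ih =>
      intro x y h
      rw [color_succ_eq]
      refine ⟨ih x y h, ?_⟩
      obtain ⟨β, hβ⟩ := hext _ h (by
        refine Finset.card_image_le.trans ?_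
        simp)
      rw [univ_val_map_equiv β (fun u i => color H k r (update y i u))]
      congr 1
      funext u
      funext i
      simp only [Function.comp_apply]
      apply ih
      refine hmono _ _ ?_ (hβ u)
      intro p hp
      simp only [Finset.mem_image, Finset.mem_univ, true_and] at hp
      obtain ⟨j, rfl⟩ := hp
      by_cases hj : j = i
      · subst hj
        simp
      · simp only [update_of_ne hj, Finset.mem_insert, Finset.mem_image, Finset.mem_univ, true_and]
        exact Or.inr ⟨j, rfl⟩
  have htup : ∀ l : ℕ, l ≤ k → ∃ Φ : (Fin l → V) ≃ (Fin l → V),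
      ∀ x, P (Finset.univ.image fun i => (x i, Φ x i)) := by
    intro l
    induction l with
    | zero =>
      intro _
      exact ⟨Equiv.refl _, fun x => by simpa using h0⟩
    | succ l ih =>
      intro hl
      obtain ⟨Φ, hΦ⟩ := ih (by omega)
      have hb : ∀ x : Fin l → V, ∃ β : V ≃ V,
          ∀ u, P (insert (u, β u) (Finset.univ.image fun i => (x i, Φ x i))) := by
        intro x
        apply hext _ (hΦ x)
        refine Finset.card_image_le.trans ?_
        simp only [Finset.card_univ, Fintype.card_fin]
        omega
      choose β hβ using hb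
      let e : (Fin (l + 1) → V) ≃ (Fin l → V) × V :=
        (Fin.consEquiv (fun _ => V)).symm.trans (Equiv.prodComm _ _)
      refine ⟨e.trans ((Equiv.prodShear Φ β).trans e.symm), fun x => ?_⟩
      refine hmono _ _ ?_ (hβ (Fin.tail x) (x 0))
      intro p hp
      simp only [Finset.mem_image, Finset.mem_univ, true_and] at hp
      obtain ⟨j, rfl⟩ := hp
      refine Fin.cases ?_ (fun j => ?_) j
      · simp [e, Fin.consEquiv]
      · simp only [Finset.mem_insert, Finset.mem_image, Finset.mem_univ, true_and]
        refine Or.inr ⟨j, ?_⟩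
        simp [e, Fin.consEquiv, Fin.tail]
  obtain ⟨Φ, hΦ⟩ := htup k le_rfl
  intro r
  rw [univ_val_map_equiv Φ (color H k r)]
  congr 1
  funext x
  exact hcol r x (Φ x) (hΦ x)

theorem color_mono {G H : SimpleGraph V} {k : ℕ} {x y : Fin k → V} {r r' : ℕ} (hr : r ≤ r')
    (h : color G k r' x = color H k r' y) : color G k r x = color H k r y := by
  induction r', hr using Nat.le_induction with
  | base => exact h
  | succ n _ ih => exact ih (color_succ_eq.1 h).1

theorem exists_forall_of_mono {α : Type} [Finite α] (p : ℕ → α → Prop)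
    (hmono : ∀ r r' a, r ≤ r' → p r' a → p r a) (h : ∀ r, ∃ a, p r a) : ∃ a, ∀ r, p r a := by
  by_contra hc
  push Not at hc
  choose f hf using hc
  have : BddAbove (Set.range f) := (Set.finite_range f).bddAbove
  obtain ⟨B, hB⟩ := this
  obtain ⟨a, ha⟩ := h B
  exact hf a (hmono _ _ a (hB ⟨a, rfl⟩) ha)

/-- `k`-WL equivalence gives a back-and-forth system on `k`-tuples. -/
theorem exists_bf {G H : SimpleGraph V} {k : ℕ} [Nonempty V] (h : WLEquiv k G H) :
    ∃ R : (Fin k → V) → (Fin k → V) → Prop, (∃ x y, R x y) ∧
      (∀ x y, R x y → ∀ i j, (x i = x j ↔ y i = y j) ∧ (G.Adj (x i) (x j) ↔ H.Adj (y i) (y j))) ∧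
      (∀ x y i u, R x y → ∃ u', R (update x i u) (update y i u')) ∧
      (∀ x y i u', R x y → ∃ u, R (update x i u) (update y i u')) := by
  refine ⟨fun x y => ∀ r, color G k r x = color H k r y, ?_, ?_, ?_, ?_⟩
  · let x : Fin k → V := fun _ => Classical.arbitrary V
    refine ⟨x, exists_forall_of_mono (fun r y => color G k r x = color H k r y)
      (fun r r' a hr h' => color_mono hr h') fun r => ?_⟩
    have : color G k r x ∈ (Finset.univ : Finset (Fin k → V)).val.map (color H k r) := by
      rw [← h r]
      exact Multiset.mem_map_of_mem _ (Finset.mem_univ_val _)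
    obtain ⟨y, -, hy⟩ := Multiset.mem_map.1 this
    exact ⟨y, hy.symm⟩
  · intro x y hxy i j
    have := congrFun (congrFun (hxy 0) i) j
    simp only [color, Prod.ext_iff] at this
    exact ⟨Iff.of_eq this.1, Iff.of_eq this.2⟩
  · intro x y i u hxy
    refine exists_forall_of_mono
      (fun r u' => color G k r (update x i u) = color H k r (update y i u'))
      (fun r r' a hr h' => color_mono hr h') fun r => ?_
    have h2 := (color_succ_eq.1 (hxy (r + 1))).2
    have : (fun i => color G k r (update x i u)) ∈ (Finset.univ : Finset V).val.map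
        fun u i => color H k r (update y i u) := by
      rw [← h2]
      exact Multiset.mem_map_of_mem (fun u i => color G k r (update x i u)) (Finset.mem_univ_val _)
    obtain ⟨u', -, hy⟩ := Multiset.mem_map.1 this
    exact ⟨u', (congrFun hy i).symm⟩
  · intro x y i u' hxy
    refine exists_forall_of_mono
      (fun r u => color G k r (update x i u) = color H k r (update y i u'))
      (fun r r' a hr h' => color_mono hr h') fun r => ?_
    have h2 := (color_succ_eq.1 (hxy (r + 1))).2
    have : (fun i => color H k r (update y i u')) ∈ (Finset.univ : Finset V).val.map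
        fun u i => color G k r (update x i u) := by
      rw [h2]
      exact Multiset.mem_map_of_mem (fun u i => color H k r (update y i u)) (Finset.mem_univ_val _)
    obtain ⟨u, -, hy⟩ := Multiset.mem_map.1 this
    exact ⟨u, congrFun hy i⟩

end Vale.Agent.P310
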