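import Vale.Agent.P310.WL

namespace Vale.Agent.P310

open Function

abbrev F2 := ZMod 2

/-- A system of parity constraints. -/
structure XS (K Var Slot : Type) where
  var : K → Slot → Var
  coef : K → Slot → F2
  off : K → F2

section
variable {K Var Slot Rul J : Type} [Fintype Slot]

def XS.Sat (X : XS K Var Slot) (κ : K) (σ : Var → F2) : Prop :=
  ∑ s, X.coef κ s * σ (X.var κ s) = X.off κ

structure XS.Strat (X : XS K Var Slot) (w : ℕ) (F : Finset K → (Var → F2) → Prop) : Prop where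
  start : ∃ σ, F ∅ σ
  mono : ∀ S T σ, S ⊆ T → F T σ → F S σ
  sat : ∀ S σ, F S σ → ∀ κ ∈ S, X.Sat κ σ
  ext : ∀ S σ, F S σ → S.card < w → ∀ κ, ∃ T σ', F T σ' ∧ κ ∈ T ∧ S ⊆ T ∧
    ∀ κ' ∈ S, ∀ s, σ' (X.var κ' s) = σ (X.var κ' s)

def XS.valid (X : XS K Var Slot) (g : Bool) (κ : K) (α : Slot → F2) : Prop :=
  (∑ s, X.coef κ s * α s = if g then X.off κ else 0) ∧
    ∀ s s', X.var κ s = X.var κ s' → α s = α s'

inductive Core (K Slot Rul : Type) where
  | l1 : Core K Slot Rul
  | l2 : Core K Slot Rul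
  | lf : Core K Slot Rul
  | pp : Core K Slot Rul
  | rul (ι : Rul) : Core K Slot Rul
  | cls (κ : K) (α : Slot → F2) : Core K Slot Rul

def crel (X : XS K Var Slot) (ord : Rul → ℕ) (L : K → Rul → Prop) (g : Bool) :
    Core K Slot Rul → Core K Slot Rul → Prop
  | .l1, .pp => True
  | .l2, .pp => True
  | .lf, .rul ι => ord ι = 0
  | .pp, .rul _ => True
  | .rul ι, .rul ι' => ord ι + 1 = ord ι'
  | .cls κ α, .rul ι => X.valid g κ α ∧ L κ ι
  | .cls κ α, .cls κ' α' => X.valid g κ α ∧ X.valid g κ' α' ∧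
      ∃ s s', X.var κ s = X.var κ' s' ∧ α s ≠ α' s'
  | _, _ => False

def vrel (X : XS K Var Slot) (ord : Rul → ℕ) (L : K → Rul → Prop) (g : Bool) :
    Core K Slot Rul ⊕ J → Core K Slot Rul ⊕ J → Prop
  | .inl p, .inl q => crel X ord L g p q
  | _, _ => False

def xgraph (X : XS K Var Slot) (ord : Rul → ℕ) (L : K → Rul → Prop) (J : Type) (g : Bool) :
    SimpleGraph (Core K Slot Rul ⊕ J) :=
  SimpleGraph.fromRel (vrel X ord L g)

/-- shift of the class vertices -/
def shift (τ : K → Slot → F2) : Core K Slot Rul ⊕ J → Core K Slot Rul ⊕ J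
  | .inl (.cls κ α) => .inl (.cls κ (α + τ κ))
  | v => v

omit [Fintype Slot] in
theorem shift_invol (τ : K → Slot → F2) : Involutive (shift (Rul := Rul) (J := J) τ) := by
  intro v
  rcases v with (_ | _ | _ | _ | _ | ⟨κ, α⟩) | j <;> simp only [shift]
  congr 2
  funext s
  simp only [Pi.add_apply]
  rw [add_assoc, CharTwo.add_self_eq_zero, add_zero]

def kof [Inhabited K] : Core K Slot Rul ⊕ J → K
  | .inl (.cls κ _) => κ
  | _ => default

omit [Fintype Slot] in
theorem shift_congr [Inhabited K] {τ τ' : K → Slot → F2} (v : Core K Slot Rul ⊕ J)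
    (h : τ (kof v) = τ' (kof v)) : shift τ v = shift τ' v := by
  rcases v with (_ | _ | _ | _ | _ | ⟨κ, α⟩) | j <;> simp only [shift]
  simp only [kof] at h
  rw [h]

theorem valid_shift (X : XS K Var Slot) {κ : K} {σ : Var → F2} (h : X.Sat κ σ) (α : Slot → F2) :
    X.valid false κ α ↔ X.valid true κ (α + fun s => σ (X.var κ s)) := by
  unfold XS.valid
  unfold XS.Sat at h
  simp only [Pi.add_apply, mul_add, Finset.sum_add_distrib, h, Bool.false_eq_true, if_false,
    if_true, add_eq_right]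
  refine and_congr Iff.rfl (forall_congr' fun s => forall_congr' fun s' => ?_)
  refine imp_congr_right fun hv => ?_
  rw [hv, add_left_inj]

theorem vrel_shift [Inhabited K] (X : XS K Var Slot) (ord : Rul → ℕ) (L : K → Rul → Prop)
    {σ : Var → F2} (u v : Core K Slot Rul ⊕ J) (hu : X.Sat (kof u) σ) (hv : X.Sat (kof v) σ) :
    vrel X ord L false u v ↔ vrel X ord L true (shift (fun κ s => σ (X.var κ s)) u)
      (shift (fun κ s => σ (X.var κ s)) v) := by
  rcases u with (_ | _ | _ | _ | _ | ⟨κ, α⟩) | j <;>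
  rcases v with (_ | _ | _ | _ | _ | ⟨κ', α'⟩) | j' <;>
  simp only [shift, vrel, crel]
  · simp only [kof] at hu
    rw [valid_shift X hu]
  · simp only [kof] at hu hv
    rw [valid_shift X hu, valid_shift X hv]
    refine and_congr Iff.rfl (and_congr Iff.rfl ?_)
    refine exists_congr fun s => exists_congr fun s' => and_congr_right fun h => ?_
    simp only [Pi.add_apply, h, ne_eq, add_left_inj]

theorem xor_sound [Inhabited K] [Fintype (Core K Slot Rul ⊕ J)] (X : XS K Var Slot)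
    (ord : Rul → ℕ) (L : K → Rul → Prop) (k : ℕ) (F : Finset K → (Var → F2) → Prop)
    (hF : X.Strat (k + 1) F) :
    WLEquiv k (xgraph X ord L J false) (xgraph X ord L J true) := by
  classical
  refine wlEquiv_of_bij _ _ k (fun s => ∃ σ, F (s.image fun p => kof p.1) σ ∧
    ∀ p ∈ s, p.2 = shift (fun κ s => σ (X.var κ s)) p.1) ?_ ?_ ?_ ?_
  · obtain ⟨σ, hσ⟩ := hF.start
    exact ⟨σ, by simpa using hσ, by simp⟩
  · rintro s t hst ⟨σ, h1, h2⟩
    exact ⟨σ, hF.mono _ _ _ (Finset.image_subset_image hst) h1, fun p hp => h2 p (hst hp)⟩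
  · rintro s ⟨σ, h1, h2⟩ p hp q hq
    have hp' := hF.sat _ _ h1 _ (Finset.mem_image_of_mem _ hp)
    have hq' := hF.sat _ _ h1 _ (Finset.mem_image_of_mem _ hq)
    have hinj := (shift_invol (Rul := Rul) (J := J) (fun κ s => σ (X.var κ s))).injective
    rw [h2 p hp, h2 q hq]
    refine ⟨hinj.eq_iff.symm, ?_⟩
    simp only [xgraph, SimpleGraph.fromRel_adj, ne_eq, hinj.eq_iff]
    rw [vrel_shift X ord L _ _ hp' hq', vrel_shift X ord L _ _ hq' hp']
  · rintro s ⟨σ, h1, h2⟩ hcard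
    have hc : (s.image fun p => kof p.1).card < k + 1 :=
      Nat.lt_succ_of_le (Finset.card_image_le.trans hcard)
    choose T σ' hT hκ hST hag using hF.ext _ _ h1 hc
    refine ⟨(shift_invol (fun κ s => σ' κ (X.var κ s))).toPerm, fun u => ⟨σ' (kof u), ?_, ?_⟩⟩
    · refine hF.mono _ _ _ ?_ (hT (kof u))
      intro κ hκ'
      simp only [Finset.mem_image, Finset.mem_insert] at hκ'
      obtain ⟨p, hp | hp, rfl⟩ := hκ'
      · subst hp
        exact hκ _
      · exact hST _ (Finset.mem_image_of_mem _ hp)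
    · intro p hp
      simp only [Finset.mem_insert] at hp
      rcases hp with hp | hp
      · subst hp
        exact shift_congr _ rfl
      · rw [h2 p hp]
        apply shift_congr
        funext sl
        exact (hag (kof u) _ (Finset.mem_image_of_mem _ hp) sl).symm

end

section BF
variable {V : Type} {k : ℕ}

structure BF (G H : SimpleGraph V) (R : (Fin k → V) → (Fin k → V) → Prop) : Prop where
  iso : ∀ x y, R x y → ∀ i j, (x i = x j ↔ y i = y j) ∧ (G.Adj (x i) (x j) ↔ H.Adj (y i) (y j))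
  forth : ∀ x y i u, R x y → ∃ u', R (update x i u) (update y i u')
  back : ∀ x y i u', R x y → ∃ u, R (update x i u) (update y i u')

theorem BF.symm {G H : SimpleGraph V} {R : (Fin k → V) → (Fin k → V) → Prop} (h : BF G H R) :
    BF H G (fun y x => R x y) where
  iso := fun y x hr i j => ⟨(h.iso x y hr i j).1.symm, (h.iso x y hr i j).2.symm⟩
  forth := fun y x i u hr => h.back x y i u hr
  back := fun y x i u hr => h.forth x y i u hr

def Pres (R : (Fin k → V) → (Fin k → V) → Prop) (A B : Set V) : Prop :=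
  ∀ x y i, R x y → (x i ∈ A ↔ y i ∈ B)

def Nb (G : SimpleGraph V) (A : Set V) : Set V := {v | ∃ w ∈ A, G.Adj v w}

def Nb2 (G : SimpleGraph V) (A : Set V) : Set V :=
  {v | ∃ w ∈ A, ∃ w' ∈ A, w ≠ w' ∧ G.Adj v w ∧ G.Adj v w'}

variable {G H : SimpleGraph V} {R : (Fin k → V) → (Fin k → V) → Prop} {A B A' B' : Set V}

theorem Pres.symm (h : Pres R A B) : Pres (fun y x => R x y) B A :=
  fun y x i hr => (h x y i hr).symm

theorem Pres.diff (h : Pres R A B) (h' : Pres R A' B') : Pres R (A \ A') (B \ B') := by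
  intro x y i hr
  simp only [Set.mem_sdiff, h x y i hr, h' x y i hr]

theorem Pres.union (h : Pres R A B) (h' : Pres R A' B') : Pres R (A ∪ A') (B ∪ B') := by
  intro x y i hr
  simp only [Set.mem_union, h x y i hr, h' x y i hr]

theorem Pres.inter (h : Pres R A B) (h' : Pres R A' B') : Pres R (A ∩ A') (B ∩ B') := by
  intro x y i hr
  simp only [Set.mem_inter_iff, h x y i hr, h' x y i hr]

theorem pres_univ : Pres R Set.univ Set.univ := fun _ _ _ _ => by simp

theorem pres_empty : Pres R ∅ ∅ := fun _ _ _ _ => by simp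

theorem exists_two_ne (hk : 3 ≤ k) (i : Fin k) : ∃ j j' : Fin k, j ≠ i ∧ j' ≠ i ∧ j ≠ j' := by
  by_cases h0 : i.val = 0
  · refine ⟨⟨1, by omega⟩, ⟨2, by omega⟩, ?_, ?_, ?_⟩ <;> simp [Fin.ext_iff] <;> omega
  · by_cases h1 : i.val = 1
    · refine ⟨⟨0, by omega⟩, ⟨2, by omega⟩, ?_, ?_, ?_⟩ <;> simp [Fin.ext_iff] <;> omega
    · refine ⟨⟨0, by omega⟩, ⟨1, by omega⟩, ?_, ?_, ?_⟩ <;> simp [Fin.ext_iff] <;> omega

theorem nb_fwd (hk : 3 ≤ k) (hb : BF G H R) (h : Pres R A B) (x y : Fin k → V) (i : Fin k)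
    (hr : R x y) (hx : x i ∈ Nb G A) : y i ∈ Nb H B := by
  obtain ⟨w, hw, hadj⟩ := hx
  obtain ⟨j, -, hj, -, -⟩ := exists_two_ne hk i
  obtain ⟨w', hr'⟩ := hb.forth x y j w hr
  refine ⟨w', ?_, ?_⟩
  · have := h _ _ j hr'
    simpa [hw] using this
  · have := (hb.iso _ _ hr' i j).2
    simpa [update_of_ne hj.symm, hadj] using this

theorem Pres.nb (hk : 3 ≤ k) (hb : BF G H R) (h : Pres R A B) : Pres R (Nb G A) (Nb H B) :=
  fun x y i hr => ⟨nb_fwd hk hb h x y i hr, nb_fwd hk hb.symm h.symm y x i hr⟩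

theorem nb2_fwd (hk : 3 ≤ k) (hb : BF G H R) (h : Pres R A B) (x y : Fin k → V) (i : Fin k)
    (hr : R x y) (hx : x i ∈ Nb2 G A) : y i ∈ Nb2 H B := by
  obtain ⟨w, hw, w2, hw2, hne, hadj, hadj2⟩ := hx
  obtain ⟨j, j2, hj, hj2, hjj⟩ := exists_two_ne hk i
  obtain ⟨w', hr'⟩ := hb.forth x y j w hr
  obtain ⟨w2', hr''⟩ := hb.forth _ _ j2 w2 hr'
  refine ⟨w', ?_, w2', ?_, ?_, ?_, ?_⟩
  · have := h _ _ j hr'
    simpa [hw] using this
  · have := h _ _ j2 hr''
    simpa [hw2] using this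
  · have := (hb.iso _ _ hr'' j j2).1
    simpa [update_of_ne hjj, hne] using this
  · have := (hb.iso _ _ hr' i j).2
    simpa [update_of_ne hj.symm, hadj] using this
  · have := (hb.iso _ _ hr'' i j2).2
    simpa [update_of_ne hj.symm, update_of_ne hj2.symm, hadj2] using this

theorem Pres.nb2 (hk : 3 ≤ k) (hb : BF G H R) (h : Pres R A B) : Pres R (Nb2 G A) (Nb2 H B) :=
  fun x y i hr => ⟨nb2_fwd hk hb h x y i hr, nb2_fwd hk hb.symm h.symm y x i hr⟩

end BF

end Vale.Agent.P310
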