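import Vale.Agent.P310.Xor

namespace Vale.Agent.P310

open Function

variable {K Var Slot Rul J : Type} [Fintype Slot]

structure RulOK (ord : Rul → ℕ) (L : K → Rul → Prop) : Prop where
  inj : Injective ord
  pred : ∀ ι, ord ι = 0 ∨ ∃ ι', ord ι' + 1 = ord ι
  zero : ∃ ι, ord ι = 0
  two : ∀ κ, ∃ ι ι', ι ≠ ι' ∧ L κ ι ∧ L κ ι'
  linj : ∀ κ κ', (∀ ι, L κ ι ↔ L κ' ι) → κ = κ'

variable {X : XS K Var Slot} {ord : Rul → ℕ} {L : K → Rul → Prop}

theorem xadj (g : Bool) (u v : Core K Slot Rul ⊕ J) :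
    (xgraph X ord L J g).Adj u v ↔ u ≠ v ∧ (vrel X ord L g u v ∨ vrel X ord L g v u) :=
  SimpleGraph.fromRel_adj _ _ _

def leavesS (K Slot Rul J : Type) : Set (Core K Slot Rul ⊕ J) :=
  {Sum.inl .l1, Sum.inl .l2, Sum.inl .lf}

def rulS (K Slot J : Type) (ord : Rul → ℕ) (n : ℕ) : Set (Core K Slot Rul ⊕ J) :=
  {v | ∃ ι, v = Sum.inl (.rul ι) ∧ ord ι < n}

def allRulS (K Slot Rul J : Type) : Set (Core K Slot Rul ⊕ J) :=
  {v | ∃ ι, v = Sum.inl (.rul ι)}

theorem leaves_eq (h : RulOK ord L) (g : Bool) :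
    Nb (xgraph X ord L J g) Set.univ \ Nb2 (xgraph X ord L J g) Set.univ =
      leavesS K Slot Rul J := by
  ext v
  simp only [Set.mem_sdiff, Nb, Nb2, Set.mem_univ, true_and, Set.mem_ofPred_eq, xadj, leavesS,
    Set.mem_insert_iff, Set.mem_singleton_iff]
  rcases v with (_ | _ | _ | _ | ι | ⟨κ, α⟩) | j
  · simp only [true_or, iff_true]
    refine ⟨⟨.inl .pp, by simp [vrel, crel]⟩, ?_⟩
    rintro ⟨w, w', hne, ⟨-, h1⟩, -, h2⟩
    rcases w with (_ | _ | _ | _ | _ | _) | _ <;> rcases w' with (_ | _ | _ | _ | _ | _) | _ <;>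
      simp_all [vrel, crel]
  · simp only [true_or, or_true, iff_true]
    refine ⟨⟨.inl .pp, by simp [vrel, crel]⟩, ?_⟩
    rintro ⟨w, w', hne, ⟨-, h1⟩, -, h2⟩
    rcases w with (_ | _ | _ | _ | _ | _) | _ <;> rcases w' with (_ | _ | _ | _ | _ | _) | _ <;>
      simp_all [vrel, crel]
  · simp only [or_true, iff_true]
    obtain ⟨ι0, h0⟩ := h.zero
    refine ⟨⟨.inl (.rul ι0), by simp [vrel, crel, h0]⟩, ?_⟩
    rintro ⟨w, w', hne, ⟨-, h1⟩, -, h2⟩
    rcases w with (_ | _ | _ | _ | a | _) | _ <;> rcases w' with (_ | _ | _ | _ | b | _) | _ <;>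
      simp only [vrel, crel, or_false, or_self] at h1 h2
    exact hne (by rw [h.inj (h1.trans h2.symm)])
  · simp only [Sum.inl.injEq, reduceCtorEq, or_self, iff_false, not_and, not_not]
    intro _
    exact ⟨.inl .l1, .inl .l2, by simp, by simp [vrel, crel], by simp [vrel, crel]⟩
  · simp only [Sum.inl.injEq, reduceCtorEq, or_self, iff_false, not_and, not_not]
    intro _
    rcases h.pred ι with h0 | ⟨ι', h'⟩
    · exact ⟨.inl .pp, .inl .lf, by simp, by simp [vrel, crel], by simp [vrel, crel, h0]⟩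
    · refine ⟨.inl .pp, .inl (.rul ι'), by simp, by simp [vrel, crel], ?_, by simp [vrel, crel, h']⟩
      intro he
      simp only [Sum.inl.injEq, Core.rul.injEq] at he
      subst he
      omega
  · simp only [Sum.inl.injEq, reduceCtorEq, or_self, iff_false, not_and, not_not]
    rintro ⟨w, -, hw⟩
    have hv : X.valid g κ α := by
      rcases w with (_ | _ | _ | _ | a | _) | _ <;> simp only [vrel, crel, or_false, or_self] at hw
      · exact hw.1
      · rcases hw with hw | hw
        · exact hw.1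
        · exact hw.2.1
    obtain ⟨ι, ι', hne, h1, h2⟩ := h.two κ
    exact ⟨.inl (.rul ι), .inl (.rul ι'), by simpa using hne, by simp [vrel, crel, hv, h1],
      by simp [vrel, crel, hv, h2]⟩
  · simp only [reduceCtorEq, or_self, iff_false, not_and, not_not]
    rintro ⟨w, -, hw⟩
    rcases w with _ | _ <;> simp [vrel] at hw

theorem pp_eq (g : Bool) :
    Nb2 (xgraph X ord L J g) (leavesS K Slot Rul J) = {Sum.inl .pp} := by
  ext v
  simp only [Nb2, Set.mem_ofPred_eq, xadj, leavesS, Set.mem_insert_iff, Set.mem_singleton_iff]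
  constructor
  · rintro ⟨w, hw, w', hw', hne, ⟨-, h1⟩, -, h2⟩
    rcases v with (_ | _ | _ | _ | ι | ⟨κ, α⟩) | j <;>
    rcases hw with rfl | rfl | rfl <;> rcases hw' with rfl | rfl | rfl <;>
      simp_all [vrel, crel]
  · rintro rfl
    exact ⟨.inl .l1, by simp, .inl .l2, by simp, by simp, by simp [vrel, crel],
      by simp [vrel, crel]⟩

theorem allRul_eq (g : Bool) :
    Nb (xgraph X ord L J g) {Sum.inl .pp} \ leavesS K Slot Rul J = allRulS K Slot Rul J := by
  ext v
  simp only [Nb, Set.mem_sdiff, Set.mem_ofPred_eq, xadj, leavesS, Set.mem_insert_iff,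
    Set.mem_singleton_iff, allRulS, exists_eq_left]
  rcases v with (_ | _ | _ | _ | ι | ⟨κ, α⟩) | j <;> simp [vrel, crel]

theorem rul_one_eq (g : Bool) :
    Nb (xgraph X ord L J g) (leavesS K Slot Rul J) \ {Sum.inl .pp} = rulS K Slot J ord 1 := by
  ext v
  simp only [Nb, Set.mem_sdiff, Set.mem_ofPred_eq, xadj, leavesS, Set.mem_insert_iff,
    Set.mem_singleton_iff, rulS]
  rcases v with (_ | _ | _ | _ | ι | ⟨κ, α⟩) | j <;> simp [vrel, crel]

theorem rul_succ_eq (h : RulOK ord L) (g : Bool) (n : ℕ) :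
    rulS K Slot J ord (n + 1) ∪
      (allRulS K Slot Rul J ∩ Nb (xgraph X ord L J g) (rulS K Slot J ord (n + 1))) =
      rulS K Slot J ord (n + 2) := by
  ext v
  simp only [Nb, Set.mem_union, Set.mem_inter_iff, Set.mem_ofPred_eq, xadj, rulS, allRulS]
  constructor
  · rintro (⟨ι, rfl, hι⟩ | ⟨⟨ι, rfl⟩, w, ⟨ι', rfl, hι'⟩, -, hw⟩)
    · exact ⟨ι, rfl, by omega⟩
    · refine ⟨ι, rfl, ?_⟩
      simp only [vrel, crel] at hw
      omega
  · rintro ⟨ι, rfl, hι⟩
    by_cases hlt : ord ι < n + 1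
    · exact Or.inl ⟨ι, rfl, hlt⟩
    · refine Or.inr ⟨⟨ι, rfl⟩, ?_⟩
      rcases h.pred ι with h0 | ⟨ι', h'⟩
      · omega
      · refine ⟨_, ⟨ι', rfl, by omega⟩, ?_, by simp [vrel, crel, h']⟩
        intro he
        simp only [Sum.inl.injEq, Core.rul.injEq] at he
        subst he
        omega

omit [Fintype Slot] in
theorem rul_single (h : RulOK ord L) (ι : Rul) :
    rulS K Slot J ord (ord ι + 1) \ rulS K Slot J ord (ord ι) = {Sum.inl (.rul ι)} := by
  ext v
  simp only [rulS, Set.mem_sdiff, Set.mem_ofPred_eq, Set.mem_singleton_iff]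
  constructor
  · rintro ⟨⟨ι', rfl, h1⟩, h2⟩
    have : ord ι' = ord ι := by
      by_contra hne
      exact h2 ⟨ι', rfl, by omega⟩
    rw [h.inj this]
  · rintro rfl
    refine ⟨⟨ι, rfl, by omega⟩, ?_⟩
    rintro ⟨ι', he, hlt⟩
    simp only [Sum.inl.injEq, Core.rul.injEq] at he
    subst he
    omega

theorem class_pres {k : ℕ} (hk : 3 ≤ k) (h : RulOK ord L)
    {R : (Fin k → Core K Slot Rul ⊕ J) → (Fin k → Core K Slot Rul ⊕ J) → Prop}
    (hb : BF (xgraph X ord L J false) (xgraph X ord L J true) R)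
    {x y : Fin k → Core K Slot Rul ⊕ J} (hr : R x y) {i : Fin k} {κ : K} {α : Slot → F2}
    (hx : x i = .inl (.cls κ α)) (hv : X.valid false κ α) :
    ∃ β, y i = .inl (.cls κ β) ∧ X.valid true κ β := by
  have pL : Pres R (leavesS K Slot Rul J) (leavesS K Slot Rul J) := by
    have := (pres_univ.nb hk hb).diff (pres_univ.nb2 hk hb)
    rwa [leaves_eq h, leaves_eq h] at this
  have pP : Pres R {Sum.inl .pp} {Sum.inl .pp} := by
    have := pL.nb2 hk hb
    rwa [pp_eq, pp_eq] at this
  have pA : Pres R (allRulS K Slot Rul J) (allRulS K Slot Rul J) := by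
    have := (pP.nb hk hb).diff pL
    rwa [allRul_eq, allRul_eq] at this
  have pR1 : ∀ n, Pres R (rulS K Slot J ord (n + 1)) (rulS K Slot J ord (n + 1)) := by
    intro n
    induction n with
    | zero =>
      have := (pL.nb hk hb).diff pP
      rwa [rul_one_eq, rul_one_eq] at this
    | succ n ih =>
      have := ih.union (pA.inter (ih.nb hk hb))
      rwa [rul_succ_eq h, rul_succ_eq h] at this
  have pR : ∀ n, Pres R (rulS K Slot J ord n) (rulS K Slot J ord n) := by
    intro n
    rcases n with _ | n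
    · have : rulS K Slot J ord 0 = ∅ := by
        ext v
        simp [rulS]
      rw [this]
      exact pres_empty
    · exact pR1 n
  have pS : ∀ ι, Pres R {Sum.inl (.rul ι)} {Sum.inl (.rul ι)} := by
    intro ι
    have := (pR (ord ι + 1)).diff (pR (ord ι))
    rwa [rul_single h] at this
  have hN : ∀ ι, L κ ι ↔ (xgraph X ord L J true).Adj (y i) (.inl (.rul ι)) := by
    intro ι
    have := (pS ι).nb hk hb x y i hr
    simp only [Nb, Set.mem_singleton_iff, exists_eq_left, Set.mem_ofPred_eq] at this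
    rw [← this, hx, xadj]
    simp [vrel, crel, hv]
  have h1 := pL x y i hr
  have h2 := pP x y i hr
  have h3 := pA x y i hr
  rw [hx] at h1 h2 h3
  simp only [leavesS, Set.mem_insert_iff, Sum.inl.injEq, reduceCtorEq, Set.mem_singleton_iff,
    or_self, false_iff, not_or, allRulS, Set.mem_ofPred_eq, exists_false, not_exists] at h1 h2 h3
  obtain ⟨ι, -, -, hι, -⟩ := h.two κ
  have hadj := (hN ι).1 hι
  rcases hy : y i with (_ | _ | _ | _ | ι' | ⟨κ', β⟩) | j
  · exact absurd hy h1.1
  · exact absurd hy h1.2.1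
  · exact absurd hy h1.2.2
  · exact absurd hy h2
  · exact absurd hy (h3 ι')
  · rw [hy, xadj] at hadj
    have hv' : X.valid true κ' β := by
      simp only [vrel, crel, or_false] at hadj
      exact hadj.2.1
    have : κ = κ' := by
      apply h.linj
      intro ι
      rw [hN ι, hy, xadj]
      simp [vrel, crel, hv']
    subst this
    exact ⟨β, rfl, hv'⟩
  · rw [hy, xadj] at hadj
    simp [vrel] at hadj

theorem valid_zero (X : XS K Var Slot) (κ : K) : X.valid false κ 0 := by
  simp [XS.valid]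

theorem xor_complete [Fintype (Core K Slot Rul ⊕ J)] {k : ℕ} (hk : 3 ≤ k) (h : RulOK ord L)
    (hw : WLEquiv k (xgraph X ord L J false) (xgraph X ord L J true)) :
    ∃ F, X.Strat k F := by
  classical
  have : Nonempty (Core K Slot Rul ⊕ J) := ⟨.inl .pp⟩
  obtain ⟨R, ⟨x0, y0, h0⟩, hiso, hforth, hback⟩ := exists_bf hw
  have hb : BF (xgraph X ord L J false) (xgraph X ord L J true) R := ⟨hiso, hforth, hback⟩
  refine ⟨fun S σ => ∃ x y, R x y ∧ ∀ κ ∈ S, ∃ i, x i = .inl (.cls κ 0) ∧
    y i = .inl (.cls κ fun s => σ (X.var κ s)), ?_, ?_, ?_, ?_⟩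
  · exact ⟨0, x0, y0, h0, by simp⟩
  · rintro S T σ hST ⟨x, y, hr, hx⟩
    exact ⟨x, y, hr, fun κ hκ => hx κ (hST hκ)⟩
  · rintro S σ ⟨x, y, hr, hx⟩ κ hκ
    obtain ⟨i, h1, h2⟩ := hx κ hκ
    obtain ⟨β, hβ, hv⟩ := class_pres hk h hb hr h1 (valid_zero X κ)
    rw [h2] at hβ
    simp only [Sum.inl.injEq, Core.cls.injEq, true_and] at hβ
    subst hβ
    simpa [XS.valid, XS.Sat] using hv.1
  · rintro S σ ⟨x, y, hr, hx⟩ hcard κ
    have : Nonempty (Fin k) := ⟨⟨0, by omega⟩⟩
    choose! idx hidx using hx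
    obtain ⟨i, hi⟩ : ∃ i : Fin k, i ∉ S.image idx := by
      by_contra hc
      push Not at hc
      have : (Finset.univ : Finset (Fin k)).card ≤ (S.image idx).card :=
        Finset.card_le_card fun i _ => hc i
      have h2 := Finset.card_image_le (s := S) (f := idx)
      simp only [Finset.card_univ, Fintype.card_fin] at this
      omega
    have hne : ∀ κ' ∈ S, idx κ' ≠ i := fun κ' hκ' he => hi (he ▸ Finset.mem_image_of_mem _ hκ')
    obtain ⟨u', hr'⟩ := hforth x y i (.inl (.cls κ 0)) hr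
    obtain ⟨β, hβ, hv⟩ := class_pres (i := i) hk h hb hr' (by simp) (valid_zero X κ)
    simp only [update_self] at hβ
    subst hβ
    let σ' : Var → F2 := fun v => if hv : ∃ s, X.var κ s = v then β hv.choose else σ v
    have hσκ : ∀ s, σ' (X.var κ s) = β s := by
      intro s
      have hex : ∃ s', X.var κ s' = X.var κ s := ⟨s, rfl⟩
      simp only [σ', dif_pos hex]
      exact hv.2 _ _ hex.choose_spec
    have hσS : ∀ κ' ∈ S, ∀ s, σ' (X.var κ' s) = σ (X.var κ' s) := by
      intro κ' hκ' s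
      by_cases hex : ∃ s', X.var κ s' = X.var κ' s
      · obtain ⟨s', hs'⟩ := hex
        rw [← hs', hσκ, hs']
        by_contra hc
        have hi2 := hiso _ _ hr' i (idx κ')
        simp only [update_self, update_of_ne (hne κ' hκ'), (hidx κ' hκ').1, (hidx κ' hκ').2]
          at hi2
        obtain ⟨β', hβ', hv'⟩ := class_pres hk h hb hr (hidx κ' hκ').1 (valid_zero X κ')
        rw [(hidx κ' hκ').2] at hβ'
        simp only [Sum.inl.injEq, Core.cls.injEq, true_and] at hβ'
        have hadj : (xgraph X ord L J true).Adj (.inl (.cls κ β))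
            (.inl (.cls κ' fun s => σ (X.var κ' s))) := by
          rw [xadj]
          refine ⟨?_, Or.inl ⟨hv, hβ' ▸ hv', s', s, hs', hc⟩⟩
          intro he
          simp only [Sum.inl.injEq, Core.cls.injEq] at he
          obtain ⟨rfl, rfl⟩ := he
          exact hc (by simp only [hs'])
        have := hi2.2.2 hadj
        rw [xadj] at this
        simp [vrel, crel] at this
      · simp only [σ', dif_neg hex]
    refine ⟨insert κ S, σ', ⟨_, _, hr', ?_⟩, Finset.mem_insert_self _ _, Finset.subset_insert _ _,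
      hσS⟩
    intro κ' hκ'
    rcases Finset.mem_insert.1 hκ' with rfl | hκ'
    · refine ⟨i, by simp, ?_⟩
      simp only [update_self, Sum.inl.injEq, Core.cls.injEq, true_and]
      funext s
      exact (hσκ s).symm
    · refine ⟨idx κ', ?_, ?_⟩
      · rw [update_of_ne (hne κ' hκ'), (hidx κ' hκ').1]
      · rw [update_of_ne (hne κ' hκ'), (hidx κ' hκ').2]
        simp only [Sum.inl.injEq, Core.cls.injEq, true_and]
        funext s
        exact (hσS κ' hκ' s).symm

end Vale.Agent.P310
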